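import Vale.Agent.Lib.P091.Defs

namespace Vale.Agent.Lib.P091

open Finset Real

theorem e_add (s t : ℝ) : e (s + t) = e s * e t := by
  unfold e
  rw [← Complex.exp_add]
  congr 1
  push_cast
  ring

theorem e_zero : e 0 = 1 := by
  simp [e]

theorem e_neg (t : ℝ) : e (-t) = (e t)⁻¹ := by
  unfold e
  rw [← Complex.exp_neg]
  congr 1
  push_cast
  ring

theorem e_sub (s t : ℝ) : e (s - t) = e s / e t := by
  rw [sub_eq_add_neg, e_add, e_neg, div_eq_mul_inv]

theorem e_int (n : ℤ) : e (n : ℝ) = 1 := by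
  unfold e
  have : 2 * (π : ℂ) * Complex.I * (((n : ℝ) : ℝ) : ℂ) = (n : ℂ) * (2 * (π : ℂ) * Complex.I) := by
    push_cast
    ring
  rw [this]
  exact Complex.exp_int_mul_two_pi_mul_I n

theorem e_nat (n : ℕ) : e (n : ℝ) = 1 := by
  have := e_int (n : ℤ)
  simpa using this

theorem norm_e (t : ℝ) : ‖e t‖ = 1 := by
  unfold e
  have : 2 * (π : ℂ) * Complex.I * (t : ℂ) = ((2 * π * t : ℝ) : ℂ) * Complex.I := by
    push_cast
    ring
  rw [this]
  exact Complex.norm_exp_ofReal_mul_I _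

theorem e_half : e (1 / 2) = -1 := by
  unfold e
  have : 2 * (π : ℂ) * Complex.I * ((1 / 2 : ℝ) : ℂ) = (π : ℂ) * Complex.I := by
    push_cast
    ring
  rw [this]
  exact Complex.exp_pi_mul_I

theorem e_ne_zero (t : ℝ) : e t ≠ 0 := by
  unfold e
  exact Complex.exp_ne_zero _

theorem e_eq_cos_add_sin (t : ℝ) : e t = (Real.cos (2 * π * t) : ℂ) + (Real.sin (2 * π * t) : ℂ) * Complex.I := by
  unfold e
  have : 2 * (π : ℂ) * Complex.I * (t : ℂ) = ((2 * π * t : ℝ) : ℂ) * Complex.I := by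
    push_cast
    ring
  rw [this, Complex.exp_mul_I]
  push_cast
  ring

theorem normSq_e_sub_one (u : ℝ) : ‖e u - 1‖ ^ 2 = (2 * Real.sin (π * u)) ^ 2 := by
  rw [e_eq_cos_add_sin, ← Complex.normSq_eq_norm_sq, Complex.normSq_apply]
  simp only [Complex.sub_re, Complex.add_re, Complex.ofReal_re, Complex.mul_re, Complex.I_re,
    Complex.ofReal_im, Complex.I_im, Complex.one_re, Complex.sub_im, Complex.add_im,
    Complex.mul_im, Complex.one_im]
  have h2 : Real.cos (2 * π * u) = 1 - 2 * Real.sin (π * u) ^ 2 := by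
    have : 2 * π * u = 2 * (π * u) := by ring
    rw [this, Real.cos_two_mul, Real.cos_sq']
    ring
  have h3 : Real.sin (2 * π * u) = 2 * Real.sin (π * u) * Real.cos (π * u) := by
    have : 2 * π * u = 2 * (π * u) := by ring
    rw [this, Real.sin_two_mul]
  rw [h2, h3]
  have h4 := Real.sin_sq_add_cos_sq (π * u)
  nlinarith [h4]

/-- The norm of e u - 1 is 2 |sin (pi u)|. -/
theorem norm_e_sub_one (u : ℝ) : ‖e u - 1‖ = 2 * |Real.sin (π * u)| := by
  have h := normSq_e_sub_one u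
  have h1 : 0 ≤ ‖e u - 1‖ := norm_nonneg _
  have h2 : 0 ≤ 2 * |Real.sin (π * u)| := by positivity
  have h3 : (2 * |Real.sin (π * u)|) ^ 2 = (2 * Real.sin (π * u)) ^ 2 := by
    rw [mul_pow, mul_pow, sq_abs]
  rw [← h3] at h
  exact (pow_left_inj₀ h1 h2 (by norm_num)).mp h

/-- The norm of e u - 1 is at least 4 |u| when |u| is at most 1/2. -/
theorem norm_e_sub_one_ge (u : ℝ) (hu : |u| ≤ 1 / 2) : 4 * |u| ≤ ‖e u - 1‖ := by
  rw [norm_e_sub_one]
  have hsin : 2 * |u| ≤ |Real.sin (π * u)| := by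
    have hpi := Real.pi_pos
    have h0 : 0 ≤ π * |u| := by positivity
    have h1 : π * |u| ≤ π / 2 := by nlinarith
    have h2 := Real.mul_le_sin h0 h1
    have h3 : |Real.sin (π * u)| = Real.sin (π * |u|) := by
      have hs : 0 ≤ Real.sin (π * |u|) := Real.sin_nonneg_of_nonneg_of_le_pi h0 (by nlinarith)
      rcases le_total 0 u with h | h
      · rw [abs_of_nonneg h] at hs ⊢
        exact abs_of_nonneg hs
      · rw [abs_of_nonpos h] at hs ⊢
        rw [mul_neg, Real.sin_neg] at hs ⊢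
        exact abs_of_nonpos (by linarith)
    rw [h3]
    have h4 : 2 / π * (π * |u|) = 2 * |u| := by
      field_simp
    linarith
  linarith

end Vale.Agent.Lib.P091
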