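import Vale.Agent.Lib.P091.Basic

namespace Vale.Agent.Lib.P091

open Finset Real

theorem e_nat_mul (n : ℕ) (u : ℝ) : e ((n : ℝ) * u) = (e u) ^ n := by
  induction n with
  | zero => simp [e_zero]
  | succ n ih =>
    have : ((n + 1 : ℕ) : ℝ) * u = (n : ℝ) * u + u := by push_cast; ring
    rw [this, e_add, ih, pow_succ]

/-- One-sided geometric sum, written with a general unit complex number. -/
theorem fejer_aux (L m : ℕ) (hm : m < L) (ζ : ℂ) (h0 : ζ ≠ 0) (h1 : ζ ≠ 1) :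
    ∑ b ∈ range L, ∑ a ∈ range L, (if a ≤ b + m then ζ ^ a * (ζ ^ b)⁻¹ else 0) =
      (((L : ℂ) - m) * ζ ^ (m + 1) + (∑ i ∈ range m, ζ ^ (i + 1) - ∑ b ∈ range L, (ζ ^ b)⁻¹))
        / (ζ - 1) := by
  have hw : ζ - 1 ≠ 0 := sub_ne_zero.mpr h1
  have hLm : L = (L - m) + m := by omega
  -- inner sum for all b
  have inner : ∀ b, ∑ a ∈ range L, (if a ≤ b + m then ζ ^ a * (ζ ^ b)⁻¹ else 0)
      = (ζ ^ (min L (b + m + 1)) * (ζ ^ b)⁻¹ - (ζ ^ b)⁻¹) / (ζ - 1) := by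
    intro b
    rw [← Finset.sum_filter]
    have hf : (range L).filter (fun a => a ≤ b + m) = range (min L (b + m + 1)) := by
      ext a; simp only [mem_filter, mem_range, lt_min_iff]; omega
    rw [hf, ← Finset.sum_mul, geom_sum_eq h1]
    field_simp
  simp only [inner]
  rw [← Finset.sum_div]
  congr 1
  rw [Finset.sum_sub_distrib]
  have main : ∑ b ∈ range L, ζ ^ (min L (b + m + 1)) * (ζ ^ b)⁻¹
      = ((L : ℂ) - m) * ζ ^ (m + 1) + ∑ i ∈ range m, ζ ^ (i + 1) := by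
    conv_lhs => rw [hLm]
    rw [Finset.sum_range_add]
    congr 1
    · have : ∀ b ∈ range (L - m), ζ ^ (min ((L - m) + m) (b + m + 1)) * (ζ ^ b)⁻¹ = ζ ^ (m + 1) := by
        intro b hb
        have hb' := mem_range.mp hb
        have : min ((L - m) + m) (b + m + 1) = b + (m + 1) := by omega
        rw [this, pow_add]; field_simp
      rw [Finset.sum_congr rfl this, Finset.sum_const, card_range, nsmul_eq_mul]
      push_cast [Nat.cast_sub hm.le]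
      ring
    · rw [← Finset.sum_range_reflect]
      apply Finset.sum_congr rfl
      intro j hj
      have hj' := mem_range.mp hj
      have e1 : min ((L - m) + m) ((L - m) + (m - 1 - j) + m + 1) = (L - m) + (m - 1 - j) + (j + 1) := by omega
      rw [e1, pow_add]
      field_simp
  rw [main]
  ring

/-- One sided sum of the Fejer kernel. -/
theorem fejer_formula (L m : ℕ) (hm : m < L) (u : ℝ) (hw : e u ≠ 1) :
    (1 / (L : ℂ)) * ∑ b ∈ range L, ∑ a ∈ range L,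
        (if (a : ℤ) ≤ (b : ℤ) + (m : ℤ) then e (((a : ℝ) - (b : ℝ)) * u) else 0) =
      (1 - (m : ℂ) / L) * e (((m : ℝ) + 1) * u) / (e u - 1) +
        (1 / ((L : ℂ) * (e u - 1))) *
          (∑ i ∈ range m, e (((i : ℝ) + 1) * u) - ∑ b ∈ range L, e (-((b : ℝ) * u))) := by
  have h0 : e u ≠ 0 := e_ne_zero u
  have hL : (L : ℂ) ≠ 0 := by
    have : L ≠ 0 := by omega
    exact_mod_cast this
  have hw' : e u - 1 ≠ 0 := sub_ne_zero.mpr hw
  have c1 : ∀ a b : ℕ, e (((a : ℝ) - (b : ℝ)) * u) = (e u) ^ a * ((e u) ^ b)⁻¹ := by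
    intro a b
    have : ((a : ℝ) - (b : ℝ)) * u = (a : ℝ) * u + -((b : ℝ) * u) := by ring
    rw [this, e_add, e_neg, e_nat_mul, e_nat_mul]
  have c2 : ∀ a b : ℕ, ((a : ℤ) ≤ (b : ℤ) + (m : ℤ)) ↔ a ≤ b + m := by
    intro a b; omega
  have c3 : ∀ i : ℕ, e (((i : ℝ) + 1) * u) = (e u) ^ (i + 1) := by
    intro i
    have : ((i : ℝ) + 1) = ((i + 1 : ℕ) : ℝ) := by push_cast; ring
    rw [this, e_nat_mul]
  have c4 : ∀ b : ℕ, e (-((b : ℝ) * u)) = ((e u) ^ b)⁻¹ := by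
    intro b; rw [e_neg, e_nat_mul]
  simp only [c1, c2, c3, c4]
  rw [fejer_aux L m hm (e u) h0 hw]
  field_simp

/-- The remainder in the Fejer formula. -/
theorem fejer_rem_norm (L m : ℕ) (hL : 0 < L) (u : ℝ) (hw : e u ≠ 1) :
    ‖(1 / ((L : ℂ) * (e u - 1))) *
          (∑ i ∈ range m, e (((i : ℝ) + 1) * u) - ∑ b ∈ range L, e (-((b : ℝ) * u)))‖ ≤
      4 / ((L : ℝ) * ‖e u - 1‖ ^ 2) := by
  have hw' : e u - 1 ≠ 0 := sub_ne_zero.mpr hw
  have hn : 0 < ‖e u - 1‖ := norm_pos_iff.mpr hw'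
  have hLR : (0 : ℝ) < L := by exact_mod_cast hL
  have c3 : ∀ i : ℕ, e (((i : ℝ) + 1) * u) = (e u) ^ (i + 1) := by
    intro i
    have : ((i : ℝ) + 1) = ((i + 1 : ℕ) : ℝ) := by push_cast; ring
    rw [this, e_nat_mul]
  have c4 : ∀ b : ℕ, e (-((b : ℝ) * u)) = (e (-u)) ^ b := by
    intro b
    have : -((b : ℝ) * u) = (b : ℝ) * (-u) := by ring
    rw [this, e_nat_mul]
  simp only [c3, c4]
  have hnorm : ‖e u‖ = 1 := norm_e u
  -- first geometric sum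
  have g1 : ‖∑ i ∈ range m, (e u) ^ (i + 1)‖ ≤ 2 / ‖e u - 1‖ := by
    have : ∑ i ∈ range m, (e u) ^ (i + 1) = e u * (((e u) ^ m - 1) / (e u - 1)) := by
      rw [← geom_sum_eq hw, Finset.mul_sum]
      apply Finset.sum_congr rfl
      intro i _
      rw [pow_succ]; ring
    rw [this, norm_mul, hnorm, one_mul, norm_div]
    apply div_le_div_of_nonneg_right _ hn.le
    calc ‖(e u) ^ m - 1‖ ≤ ‖(e u) ^ m‖ + ‖(1 : ℂ)‖ := norm_sub_le _ _
      _ = 2 := by rw [norm_pow, hnorm]; norm_num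
  have hw2 : e (-u) ≠ 1 := by
    rw [e_neg]
    intro h
    apply hw
    exact inv_eq_one.mp h
  have hnorm2 : ‖e (-u)‖ = 1 := norm_e _
  have hsame : ‖e (-u) - 1‖ = ‖e u - 1‖ := by
    have : e (-u) - 1 = -(e (-u)) * (e u - 1) := by
      rw [e_neg]
      have := e_ne_zero u
      field_simp
      ring
    rw [this, norm_mul, norm_neg, hnorm2, one_mul]
  have g2 : ‖∑ b ∈ range L, (e (-u)) ^ b‖ ≤ 2 / ‖e u - 1‖ := by
    rw [geom_sum_eq hw2, norm_div, hsame]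
    apply div_le_div_of_nonneg_right _ hn.le
    calc ‖(e (-u)) ^ L - 1‖ ≤ ‖(e (-u)) ^ L‖ + ‖(1 : ℂ)‖ := norm_sub_le _ _
      _ = 2 := by rw [norm_pow, hnorm2]; norm_num
  rw [norm_mul, norm_div, norm_one, norm_mul, Complex.norm_natCast]
  have g3 := norm_sub_le (∑ i ∈ range m, (e u) ^ (i + 1)) (∑ b ∈ range L, (e (-u)) ^ b)
  have g4 : ‖∑ i ∈ range m, (e u) ^ (i + 1) - ∑ b ∈ range L, (e (-u)) ^ b‖ ≤ 4 / ‖e u - 1‖ := by
    have : (4 : ℝ) / ‖e u - 1‖ = 2 / ‖e u - 1‖ + 2 / ‖e u - 1‖ := by ring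
    linarith
  calc 1 / ((L : ℝ) * ‖e u - 1‖) * ‖∑ i ∈ range m, (e u) ^ (i + 1) - ∑ b ∈ range L, (e (-u)) ^ b‖
      ≤ 1 / ((L : ℝ) * ‖e u - 1‖) * (4 / ‖e u - 1‖) :=
        mul_le_mul_of_nonneg_left g4 (by positivity)
    _ = 4 / ((L : ℝ) * ‖e u - 1‖ ^ 2) := by
        field_simp

end Vale.Agent.Lib.P091
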