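import Vale.Agent.Lib.P091.Kernel
import Vale.Agent.Lib.P091.Fejer

namespace Vale.Agent.Lib.P091

open Finset Real

/-- The size of the Fejer kernel parameter. -/
def Lsize (K : ℕ) : ℕ := 2 ^ (nTop K 15 (40000 * K) + 2)

private lemma u_bounds (K z0 z : ℕ) (hK : 100 ≤ K) (hz0 : z0 < 2 ^ K) (hz : z < 2 ^ K) (x : ℝ)
    (hx1 : ((z0 : ℝ) + 1 / 2) * (1 / 2) ^ (K + 2) ≤ x)
    (hx2 : x < ((z0 : ℝ) + 3 / 4) * (1 / 2) ^ (K + 2)) :
    |x - ptY K 15 (40000 * K) z| ≤ 1 / 2 ∧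
      (1 / 2 : ℝ) ^ (K + 4) ≤ |x - ptY K 15 (40000 * K) z| := by
  have hB : 1 ≤ 40000 * K := by omega
  have hl := ptY_lower K 15 (40000 * K) z
  have hu := ptY_upper K 15 (40000 * K) z (by norm_num) hB
  set y := ptY K 15 (40000 * K) z with hy
  set ω : ℝ := (1 / 2) ^ (K + 2) with hω
  have hω0 : 0 < ω := by positivity
  have h4 : (1 / 2 : ℝ) ^ (K + 4) = ω / 4 := by
    rw [hω, pow_add, pow_add]; norm_num; ring
  rw [h4] at hu ⊢
  have h2K : (2 : ℝ) ^ K * ω = 1 / 4 := by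
    rw [hω, pow_add, ← mul_assoc, ← mul_pow]; norm_num
  have hz0' : (z0 : ℝ) + 1 ≤ (2 : ℝ) ^ K := by
    have : z0 + 1 ≤ 2 ^ K := hz0
    exact_mod_cast this
  have hz' : (z : ℝ) + 1 ≤ (2 : ℝ) ^ K := by
    have : z + 1 ≤ 2 ^ K := hz
    exact_mod_cast this
  have hz00 : (0 : ℝ) ≤ z0 := Nat.cast_nonneg _
  have hz1 : (0 : ℝ) ≤ z := Nat.cast_nonneg _
  have hA1 : ((z0 : ℝ) + 1) * ω ≤ 1 / 4 := by
    rw [← h2K]; exact mul_le_mul_of_nonneg_right hz0' hω0.le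
  have hA2 : ((z : ℝ) + 1) * ω ≤ 1 / 4 := by
    rw [← h2K]; exact mul_le_mul_of_nonneg_right hz' hω0.le
  rcases le_or_gt z z0 with hc | hc
  · have hc' : (z : ℝ) ≤ z0 := by exact_mod_cast hc
    have hm : (z : ℝ) * ω ≤ (z0 : ℝ) * ω := mul_le_mul_of_nonneg_right hc' hω0.le
    have hpos : ω / 4 ≤ x - y := by nlinarith
    have hnn : 0 ≤ x - y := by linarith [show 0 ≤ ω / 4 by positivity]
    rw [abs_of_nonneg hnn]
    constructor
    · nlinarith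
    · exact hpos
  · have hc' : (z0 : ℝ) + 1 ≤ z := by exact_mod_cast hc
    have hm : ((z0 : ℝ) + 1) * ω ≤ (z : ℝ) * ω := mul_le_mul_of_nonneg_right hc' hω0.le
    have hneg : x - y ≤ - (ω / 4) := by nlinarith
    have hnp : x - y ≤ 0 := by linarith [show 0 ≤ ω / 4 by positivity]
    rw [abs_of_nonpos hnp]
    constructor
    · nlinarith
    · linarith

private lemma rem_le_one (K : ℕ) (hK : 100 ≤ K) (w : ℝ) (hw : (1 / 2 : ℝ) ^ (K + 2) ≤ w) :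
    4 / ((Lsize K : ℝ) * w ^ 2) ≤ 1 := by
  have hω0 : (0 : ℝ) < (1 / 2 : ℝ) ^ (K + 2) := by positivity
  have hw0 : 0 < w := lt_of_lt_of_le hω0 hw
  have hL : (0 : ℝ) < Lsize K := by
    unfold Lsize; positivity
  rw [div_le_one (by positivity)]
  have hw2 : ((1 / 2 : ℝ) ^ (K + 2)) ^ 2 ≤ w ^ 2 := by gcongr
  have hn : 2 * K + 4 ≤ nTop K 15 (40000 * K) := by
    unfold nTop
    nlinarith [Nat.zero_le (K * (2 * 15 * (40000 * K))), show K ≤ K * (2 * 15 * (40000 * K)) by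
      apply Nat.le_mul_of_pos_right; omega]
  have hL2 : (2 : ℝ) ^ (2 * K + 6) ≤ Lsize K := by
    unfold Lsize
    push_cast
    exact pow_le_pow_right₀ (by norm_num) (by omega)
  have h1 : (2 : ℝ) ^ (2 * K + 6) * ((1 / 2 : ℝ) ^ (K + 2)) ^ 2 = 4 := by
    rw [← pow_mul, show (K + 2) * 2 = 2 * K + 4 by ring, show 2 * K + 6 = (2 * K + 4) + 2 by ring,
      pow_add, mul_right_comm, ← mul_pow]
    norm_num
  calc (4 : ℝ) = (2 : ℝ) ^ (2 * K + 6) * ((1 / 2 : ℝ) ^ (K + 2)) ^ 2 := h1.symm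
    _ ≤ (Lsize K : ℝ) * w ^ 2 := by gcongr

/-- The block lower bound. -/
theorem block_lower (K z0 : ℕ) (hK : 100 ≤ K) (hz0 : z0 < 2 ^ K) (x : ℝ)
    (hx1 : ((z0 : ℝ) + 1 / 2) * (1 / 2) ^ (K + 2) ≤ x)
    (hx2 : x < ((z0 : ℝ) + 3 / 4) * (1 / 2) ^ (K + 2)) :
    ∃ m : ℕ, m < Lsize K ∧ (K : ℝ) / 100 ≤
      ‖∑ z ∈ range (2 ^ K), ∑ b ∈ range (Lsize K), ∑ a ∈ range (Lsize K),
        (if (a : ℤ) ≤ (b : ℤ) + (m : ℤ) then
          (1 / 2 : ℂ) ^ K * (1 / (Lsize K : ℂ)) *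
            e (((a : ℝ) - (b : ℝ)) * (x - ptY K 15 (40000 * K) z)) else 0)‖ := by
  have hB : 1 ≤ 40000 * K := by omega
  obtain ⟨hN1, hN2⟩ := freqN_le K 15 (40000 * K) z0 (by norm_num) hB
  set N := freqN K 15 (40000 * K) z0 with hN
  set n := nTop K 15 (40000 * K) with hn
  have hLdef : Lsize K = 2 * 2 ^ (n + 1) := by
    unfold Lsize; rw [← hn]; ring
  set L := Lsize K with hLset
  have hL0 : 0 < L := by rw [hLdef]; positivity
  refine ⟨N - 1, by omega, ?_⟩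
  have hmN : ((N - 1 : ℕ) : ℝ) + 1 = N := by
    have : N - 1 + 1 = N := by omega
    exact_mod_cast this
  set m := N - 1 with hm
  have hLR : (0 : ℝ) < L := by exact_mod_cast hL0
  have hmL : (m : ℝ) / L ≤ 1 / 2 := by
    rw [div_le_iff₀ hLR]
    have : 2 * m ≤ L := by omega
    have h' : (2 : ℝ) * m ≤ L := by exact_mod_cast this
    linarith
  -- facts on each point
  have hfact : ∀ z ∈ range (2 ^ K), e (x - ptY K 15 (40000 * K) z) ≠ 1 ∧
      (1 / 2 : ℝ) ^ (K + 2) ≤ ‖e (x - ptY K 15 (40000 * K) z) - 1‖ := by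
    intro z hz
    obtain ⟨h1, h2⟩ := u_bounds K z0 z hK hz0 (mem_range.mp hz) x hx1 hx2
    have h3 := norm_e_sub_one_ge _ h1
    have h4 : (1 / 2 : ℝ) ^ (K + 2) ≤ ‖e (x - ptY K 15 (40000 * K) z) - 1‖ := by
      have : (1 / 2 : ℝ) ^ (K + 2) = 4 * (1 / 2 : ℝ) ^ (K + 4) := by
        rw [pow_add, pow_add]; norm_num; ring
      rw [this]; linarith
    refine ⟨?_, h4⟩
    intro h
    rw [h, sub_self, norm_zero] at h4
    have : (0 : ℝ) < (1 / 2 : ℝ) ^ (K + 2) := by positivity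
    linarith
  -- the remainder
  let R : ℕ → ℂ := fun z =>
    (1 / ((L : ℂ) * (e (x - ptY K 15 (40000 * K) z) - 1))) *
      (∑ i ∈ range m, e (((i : ℝ) + 1) * (x - ptY K 15 (40000 * K) z)) -
        ∑ b ∈ range L, e (-((b : ℝ) * (x - ptY K 15 (40000 * K) z))))
  have hR : ∀ z ∈ range (2 ^ K), ‖R z‖ ≤ 1 := by
    intro z hz
    obtain ⟨h1, h2⟩ := hfact z hz
    refine (fejer_rem_norm L m hL0 _ h1).trans ?_
    exact rem_le_one K hK _ h2
  set c : ℂ := (1 / 2 : ℂ) ^ K with hc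
  set T0 : ℂ := ∑ z ∈ range (2 ^ K), c *
      (e (-((N : ℝ) * ptY K 15 (40000 * K) z)) / (e (x - ptY K 15 (40000 * K) z) - 1)) with hT0
  have hT0lb : 3 * (K : ℝ) / 64 - 1 / 2 ≤ ‖T0‖ := kernel_lower K z0 hK hz0 x hx1 hx2
  -- rewrite the triple sum
  have hmain : (∑ z ∈ range (2 ^ K), ∑ b ∈ range L, ∑ a ∈ range L,
        (if (a : ℤ) ≤ (b : ℤ) + (m : ℤ) then
          c * (1 / (L : ℂ)) * e (((a : ℝ) - (b : ℝ)) * (x - ptY K 15 (40000 * K) z)) else 0)) =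
      (1 - (m : ℂ) / L) * e ((N : ℝ) * x) * T0 + ∑ z ∈ range (2 ^ K), c * R z := by
    rw [hT0, mul_sum, ← sum_add_distrib]
    refine sum_congr rfl fun z hz => ?_
    obtain ⟨h1, _⟩ := hfact z hz
    have hF := fejer_formula L m (by omega) (x - ptY K 15 (40000 * K) z) h1
    have hpull : (∑ b ∈ range L, ∑ a ∈ range L,
        (if (a : ℤ) ≤ (b : ℤ) + (m : ℤ) then
          c * (1 / (L : ℂ)) * e (((a : ℝ) - (b : ℝ)) * (x - ptY K 15 (40000 * K) z)) else 0)) =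
        c * ((1 / (L : ℂ)) * ∑ b ∈ range L, ∑ a ∈ range L,
        (if (a : ℤ) ≤ (b : ℤ) + (m : ℤ) then
          e (((a : ℝ) - (b : ℝ)) * (x - ptY K 15 (40000 * K) z)) else 0)) := by
      rw [← mul_assoc, mul_sum]
      refine sum_congr rfl fun b _ => ?_
      rw [mul_sum]
      refine sum_congr rfl fun a _ => ?_
      split_ifs <;> simp
    rw [hpull, hF]
    have hexp : e (((m : ℝ) + 1) * (x - ptY K 15 (40000 * K) z)) =
        e ((N : ℝ) * x) * e (-((N : ℝ) * ptY K 15 (40000 * K) z)) := by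
      rw [hmN, ← e_add]
      congr 1
      ring
    rw [hexp]
    simp only [R]
    ring
  rw [hmain]
  -- norms
  have hsecond : ‖∑ z ∈ range (2 ^ K), c * R z‖ ≤ 1 := by
    refine (norm_sum_le _ _).trans ?_
    have : ∀ z ∈ range (2 ^ K), ‖c * R z‖ ≤ (1 / 2 : ℝ) ^ K := by
      intro z hz
      rw [norm_mul, hc, norm_pow]
      have hh : ‖(1 / 2 : ℂ)‖ = 1 / 2 := by norm_num
      rw [hh]
      have := hR z hz
      have hp : (0 : ℝ) ≤ (1 / 2 : ℝ) ^ K := by positivity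
      nlinarith
    refine (sum_le_sum this).trans ?_
    rw [sum_const, card_range, nsmul_eq_mul]
    push_cast
    rw [← mul_pow]
    norm_num
  have hfirst : (1 / 2 : ℝ) * ‖T0‖ ≤ ‖(1 - (m : ℂ) / L) * e ((N : ℝ) * x) * T0‖ := by
    rw [norm_mul, norm_mul, norm_e, mul_one]
    have hcoef : (1 - (m : ℂ) / L) = ((1 - (m : ℝ) / L : ℝ) : ℂ) := by push_cast; rfl
    rw [hcoef, Complex.norm_real, Real.norm_eq_abs, abs_of_nonneg (by linarith)]
    gcongr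
    linarith
  have hK' : (100 : ℝ) ≤ K := by exact_mod_cast hK
  have htri : ‖(1 - (m : ℂ) / L) * e ((N : ℝ) * x) * T0‖ - ‖∑ z ∈ range (2 ^ K), c * R z‖ ≤
      ‖(1 - (m : ℂ) / L) * e ((N : ℝ) * x) * T0 + ∑ z ∈ range (2 ^ K), c * R z‖ := by
    have := norm_sub_le ((1 - (m : ℂ) / L) * e ((N : ℝ) * x) * T0 + ∑ z ∈ range (2 ^ K), c * R z)
      (∑ z ∈ range (2 ^ K), c * R z)
    rw [add_sub_cancel_right] at this
    linarith
  linarith

end Vale.Agent.Lib.P091
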