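import Mathlib

namespace Vale.Agent.Lib.P091

open Finset Real

/-- Every real number is caught by one of 16 translates of the middle parts of the cells. -/
theorem cover (K : ℕ) (t : ℝ) :
    ∃ (i l : ℕ) (ν : ℤ) (z0 : ℕ), i < 4 ∧ l < 4 ∧ z0 < 2 ^ K ∧
      ((z0 : ℝ) + 1 / 2) * (1 / 2) ^ (K + 2) ≤
        t - ((i : ℝ) / 4 + ((l : ℝ) - 2) * (1 / 2) ^ (K + 4)) - ν ∧
      t - ((i : ℝ) / 4 + ((l : ℝ) - 2) * (1 / 2) ^ (K + 4)) - ν <
        ((z0 : ℝ) + 3 / 4) * (1 / 2) ^ (K + 2) := by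
  set a : ℤ := ⌊4 * t⌋ with ha
  set ρ : ℝ := 4 * t - a with hρ
  have hρ0 : 0 ≤ ρ := by
    have := Int.floor_le (4 * t)
    rw [hρ, ha]; linarith
  have hρ1 : ρ < 1 := by
    have := Int.lt_floor_add_one (4 * t)
    rw [hρ, ha]; linarith
  set W : ℝ := 2 ^ K with hW
  have hWpos : 0 < W := by positivity
  set z : ℕ := ⌊ρ * W⌋₊ with hz
  have hρW : 0 ≤ ρ * W := by positivity
  have hz1 : (z : ℝ) ≤ ρ * W := Nat.floor_le hρW
  have hz2 : ρ * W < z + 1 := Nat.lt_floor_add_one _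
  have hzlt : z < 2 ^ K := by
    have : (z : ℝ) < 2 ^ K := by
      calc (z : ℝ) ≤ ρ * W := hz1
        _ < 1 * W := by exact mul_lt_mul_of_pos_right hρ1 hWpos
        _ = 2 ^ K := by rw [one_mul]
    exact_mod_cast this
  set ω : ℝ := (1 / 2) ^ (K + 2) with hω
  have hω4 : (1 / 2 : ℝ) ^ (K + 4) = ω / 4 := by
    rw [hω, pow_add, pow_add]; norm_num; ring
  have hωW : ω * W = 1 / 4 := by
    rw [hω, hW, pow_add, mul_right_comm, ← mul_pow]; norm_num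
  have hωpos : 0 < ω := by positivity
  set f : ℝ := ρ * W - z with hf
  have hf0 : 0 ≤ f := by rw [hf]; linarith
  have hf1 : f < 1 := by rw [hf]; linarith
  -- the decomposition of a
  have hamod : 0 ≤ a % 4 := Int.emod_nonneg _ (by norm_num)
  have hamod2 : a % 4 < 4 := Int.emod_lt_of_pos _ (by norm_num)
  have hadec : (a : ℝ) = 4 * ((a / 4 : ℤ) : ℝ) + ((a % 4 : ℤ) : ℝ) := by
    have := Int.mul_ediv_add_emod a 4
    exact_mod_cast this.symm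
  set i : ℕ := (a % 4).toNat with hi
  have hicast : ((i : ℕ) : ℝ) = ((a % 4 : ℤ) : ℝ) := by
    have : ((i : ℕ) : ℤ) = a % 4 := Int.toNat_of_nonneg hamod
    exact_mod_cast this
  have hilt : i < 4 := by omega
  -- the main identity
  have key : ∀ l : ℕ, t - ((i : ℝ) / 4 + ((l : ℝ) - 2) * (1 / 2) ^ (K + 4)) - ((a / 4 : ℤ) : ℝ)
      = ((z : ℝ) + f - ((l : ℝ) - 2) / 4) * ω := by
    intro l
    rw [hω4, hicast]
    have h1 : t - ((a % 4 : ℤ) : ℝ) / 4 - ((a / 4 : ℤ) : ℝ) = ρ / 4 := by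
      rw [hρ, hadec]; ring
    have h2 : ρ / 4 = ρ * W * ω := by
      have : ρ * W * ω = ρ * (ω * W) := by ring
      rw [this, hωW]; ring
    have h3 : (z : ℝ) + f = ρ * W := by rw [hf]; ring
    rw [h3]
    have h4 : t - (((a % 4 : ℤ) : ℝ) / 4 + ((l : ℝ) - 2) * (ω / 4)) - ((a / 4 : ℤ) : ℝ)
        = (t - ((a % 4 : ℤ) : ℝ) / 4 - ((a / 4 : ℤ) : ℝ)) - ((l : ℝ) - 2) * (ω / 4) := by ring
    rw [h4, h1, h2]; ring
  have final : ∀ l : ℕ, l < 4 → 1 / 2 ≤ f - ((l : ℝ) - 2) / 4 → f - ((l : ℝ) - 2) / 4 < 3 / 4 →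
      ∃ (i l : ℕ) (ν : ℤ) (z0 : ℕ), i < 4 ∧ l < 4 ∧ z0 < 2 ^ K ∧
      ((z0 : ℝ) + 1 / 2) * ω ≤
        t - ((i : ℝ) / 4 + ((l : ℝ) - 2) * (1 / 2) ^ (K + 4)) - ν ∧
      t - ((i : ℝ) / 4 + ((l : ℝ) - 2) * (1 / 2) ^ (K + 4)) - ν <
        ((z0 : ℝ) + 3 / 4) * ω := by
    intro l hl h1 h2
    refine ⟨i, l, a / 4, z, hilt, hl, hzlt, ?_, ?_⟩
    · rw [key l]; apply mul_le_mul_of_nonneg_right _ hωpos.le; linarith
    · rw [key l]; apply mul_lt_mul_of_pos_right _ hωpos; linarith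
  by_cases c1 : f < 1 / 4
  · exact final 0 (by norm_num) (by norm_num; linarith) (by norm_num; linarith)
  by_cases c2 : f < 1 / 2
  · exact final 1 (by norm_num) (by norm_num; linarith) (by norm_num; linarith)
  by_cases c3 : f < 3 / 4
  · exact final 2 (by norm_num) (by norm_num; linarith) (by norm_num; linarith)
  · exact final 3 (by norm_num) (by norm_num; linarith) (by norm_num; linarith)

end Vale.Agent.Lib.P091
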