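import Mathlib

namespace Vale.Agent.Lib.P091

open Finset Real MeasureTheory Filter Topology AddCircle

section Glide

variable {T : ℝ} [hT : Fact (0 < T)]

theorem integral_fourier_haar (k : ℤ) :
    ∫ x : AddCircle T, fourier k x ∂haarAddCircle = if k = 0 then 1 else 0 := by
  split_ifs with h
  · subst h
    simp
  · exact integral_eq_zero_of_add_right_eq_neg (μ := haarAddCircle)
      (fourier_add_half_inv_index h hT.elim)

theorem fourierCoeff_finsum {α : Type*} (I : Finset α) (a : α → ℂ) (b : α → ℤ) (n : ℤ) :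
    fourierCoeff (fun x : AddCircle T => ∑ j ∈ I, a j • fourier (b j) x) n =
      ∑ j ∈ I, if b j = n then a j else 0 := by
  unfold fourierCoeff
  have hi : ∀ j ∈ I, Integrable (fun x : AddCircle T => fourier (-n) x • (a j • fourier (b j) x))
      haarAddCircle := by
    intro j _
    have hc : Continuous (fun x : AddCircle T => fourier (-n) x • (a j • fourier (b j) x)) := by
      fun_prop
    exact hc.integrable_of_hasCompactSupport (HasCompactSupport.of_compactSpace _)
  simp_rw [Finset.smul_sum]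
  rw [integral_finsetSum _ hi]
  refine Finset.sum_congr rfl fun j _ => ?_
  have h1 : ∀ x : AddCircle T, fourier (-n) x • (a j • fourier (b j) x) =
      a j * fourier (b j + -n) x := by
    intro x
    rw [fourier_add, smul_eq_mul, smul_eq_mul]
    ring
  simp_rw [h1]
  rw [integral_const_mul, integral_fourier_haar]
  by_cases h : b j = n
  · simp [h]
  · have : b j + -n ≠ 0 := fun h' => h (by omega)
    simp [h, this]

/-- The lower ends of the frequency windows. -/
def Afreq (L : ℕ → ℕ) : ℕ → ℕ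
  | 0 => 1
  | i + 1 => Afreq L i + 2 * L i

/-- The modulation of block i. -/
def Mfreq (L : ℕ → ℕ) (i : ℕ) : ℤ := (Afreq L i : ℤ) + (L i : ℤ)

theorem Afreq_strictMono (L : ℕ → ℕ) (hL : ∀ i, 0 < L i) : StrictMono (Afreq L) := by
  refine strictMono_nat_of_lt_succ fun i => ?_
  have := hL i
  simp only [Afreq]
  omega

theorem Afreq_ge (L : ℕ → ℕ) (hL : ∀ i, 0 < L i) (i : ℕ) : i < Afreq L i := by
  induction i with
  | zero => simp [Afreq]
  | succ i ih =>
    have := hL i
    simp only [Afreq]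
    omega

variable {α : Type*} (I : ℕ → Finset α) (d : ℕ → α → ℂ) (o : ℕ → α → ℤ) (L : ℕ → ℕ) (c : ℕ → ℝ)

/-- The original block. -/
noncomputable def hfun (i : ℕ) (x : AddCircle T) : ℂ := ∑ j ∈ I i, d i j • fourier (o i j) x

/-- The modulated block. -/
noncomputable def gfun (i : ℕ) (x : AddCircle T) : ℂ :=
  ∑ j ∈ I i, d i j • fourier (Mfreq L i + o i j) x

/-- The scaled modulated block. -/
noncomputable def Ffun (i : ℕ) (x : AddCircle T) : ℂ := (c i : ℂ) * gfun I d o L i x

/-- The function with divergent Fourier series. -/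
noncomputable def ffun (x : AddCircle T) : ℂ := ∑' i, Ffun I d o L c i x

theorem gfun_eq (i : ℕ) (x : AddCircle T) :
    gfun I d o L i x = fourier (Mfreq L i) x * hfun I d o i x := by
  unfold gfun hfun
  rw [Finset.mul_sum]
  refine Finset.sum_congr rfl fun j _ => ?_
  rw [fourier_add, smul_eq_mul, smul_eq_mul]
  ring

theorem norm_fourier_apply (n : ℤ) (x : AddCircle T) : ‖fourier n x‖ = 1 := by
  rw [fourier_apply]
  exact Circle.norm_coe _

theorem norm_gfun (i : ℕ) (x : AddCircle T) : ‖gfun I d o L i x‖ = ‖hfun I d o i x‖ := by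
  rw [gfun_eq, norm_mul, norm_fourier_apply, one_mul]

theorem continuous_gfun (i : ℕ) : Continuous (gfun I d o L i : AddCircle T → ℂ) := by
  unfold gfun
  fun_prop

theorem continuous_hfun (i : ℕ) : Continuous (hfun I d o i : AddCircle T → ℂ) := by
  unfold hfun
  fun_prop

theorem continuous_Ffun (i : ℕ) : Continuous (Ffun I d o L c i : AddCircle T → ℂ) := by
  unfold Ffun
  exact continuous_const.mul (continuous_gfun I d o L i)

theorem integrable_of_cont {E : Type*} [NormedAddCommGroup E] {F : AddCircle T → E} (h : Continuous F) :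
    Integrable F haarAddCircle :=
  h.integrable_of_hasCompactSupport (HasCompactSupport.of_compactSpace _)

theorem norm_Ffun (hc : ∀ i, 0 < c i) (i : ℕ) (x : AddCircle T) :
    ‖Ffun I d o L c i x‖ = c i * ‖hfun I d o i x‖ := by
  unfold Ffun
  rw [norm_mul, norm_gfun, Complex.norm_real, Real.norm_of_nonneg (hc i).le]

theorem int_norm_Ffun_le (hc : ∀ i, 0 < c i)
    (hint : ∀ i, ∫ x : AddCircle T, ‖hfun I d o i x‖ ∂haarAddCircle ≤ 1) (i : ℕ) :
    ∫ x : AddCircle T, ‖Ffun I d o L c i x‖ ∂haarAddCircle ≤ c i := by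
  simp_rw [norm_Ffun I d o L c hc]
  rw [integral_const_mul]
  have := hint i
  have h := hc i
  nlinarith

theorem summable_int_norm_Ffun (hc : ∀ i, 0 < c i) (hcs : Summable c)
    (hint : ∀ i, ∫ x : AddCircle T, ‖hfun I d o i x‖ ∂haarAddCircle ≤ 1) :
    Summable fun i => ∫ x : AddCircle T, ‖Ffun I d o L c i x‖ ∂haarAddCircle :=
  Summable.of_nonneg_of_le (fun i => integral_nonneg fun _ => norm_nonneg _)
    (int_norm_Ffun_le I d o L c hc hint) hcs

/-- Almost everywhere summability of the series. -/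
theorem ae_summable_norm (hc : ∀ i, 0 < c i) (hcs : Summable c)
    (hint : ∀ i, ∫ x : AddCircle T, ‖hfun I d o i x‖ ∂haarAddCircle ≤ 1) :
    ∀ᵐ x : AddCircle T ∂haarAddCircle, Summable fun i => ‖Ffun I d o L c i x‖ := by
  have hlin : ∫⁻ x : AddCircle T, ∑' i, ‖Ffun I d o L c i x‖ₑ ∂haarAddCircle < ⊤ := by
    rw [lintegral_tsum fun i => (continuous_Ffun I d o L c i).enorm.aemeasurable]
    have h1 : ∀ i, ∫⁻ x : AddCircle T, ‖Ffun I d o L c i x‖ₑ ∂haarAddCircle ≤ ENNReal.ofReal (c i) := by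
      intro i
      have hi : Integrable (fun x : AddCircle T => ‖Ffun I d o L c i x‖) haarAddCircle :=
        integrable_of_cont (continuous_Ffun I d o L c i).norm
      have h2 := ofReal_integral_eq_lintegral_ofReal hi (Eventually.of_forall fun _ => norm_nonneg _)
      have h3 : ∫⁻ x : AddCircle T, ‖Ffun I d o L c i x‖ₑ ∂haarAddCircle =
          ∫⁻ x : AddCircle T, ENNReal.ofReal ‖Ffun I d o L c i x‖ ∂haarAddCircle := by
        refine lintegral_congr fun x => ?_
        rw [ofReal_norm]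
      rw [h3, ← h2]
      exact ENNReal.ofReal_le_ofReal (int_norm_Ffun_le I d o L c hc hint i)
    calc ∑' i, ∫⁻ x : AddCircle T, ‖Ffun I d o L c i x‖ₑ ∂haarAddCircle
        ≤ ∑' i, ENNReal.ofReal (c i) := ENNReal.tsum_le_tsum h1
      _ < ⊤ := lt_top_iff_ne_top.mpr hcs.tsum_ofReal_ne_top
  have hmeas : AEMeasurable (fun x : AddCircle T => ∑' i, ‖Ffun I d o L c i x‖ₑ) haarAddCircle :=
    (Measurable.tsum fun i => (continuous_Ffun I d o L c i).enorm.measurable).aemeasurable
  filter_upwards [ae_lt_top' hmeas hlin.ne] with x hx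
  have h4 : (∑' i, ‖Ffun I d o L c i x‖ₑ) ≠ ⊤ := hx.ne
  have h5 : ∀ i, ‖Ffun I d o L c i x‖ₑ = ENNReal.ofReal ‖Ffun I d o L c i x‖ := fun i =>
    (ofReal_norm _).symm
  simp_rw [h5] at h4
  have h6 := ENNReal.summable_toReal h4
  refine h6.congr fun i => ?_
  rw [ENNReal.toReal_ofReal (norm_nonneg _)]

theorem aestronglyMeasurable_ffun (hc : ∀ i, 0 < c i) (hcs : Summable c)
    (hint : ∀ i, ∫ x : AddCircle T, ‖hfun I d o i x‖ ∂haarAddCircle ≤ 1) :
    AEStronglyMeasurable (ffun I d o L c : AddCircle T → ℂ) haarAddCircle := by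
  refine aestronglyMeasurable_of_tendsto_ae atTop
    (f := fun (n : ℕ) (x : AddCircle T) => ∑ i ∈ range n, Ffun I d o L c i x) ?_ ?_
  · intro n
    have : Continuous fun x : AddCircle T => ∑ i ∈ range n, Ffun I d o L c i x :=
      continuous_finsetSum _ fun i _ => continuous_Ffun I d o L c i
    exact this.aestronglyMeasurable
  · filter_upwards [ae_summable_norm I d o L c hc hcs hint] with x hx
    exact (hx.of_norm).hasSum.tendsto_sum_nat

theorem integrable_ffun (hc : ∀ i, 0 < c i) (hcs : Summable c)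
    (hint : ∀ i, ∫ x : AddCircle T, ‖hfun I d o i x‖ ∂haarAddCircle ≤ 1) :
    Integrable (ffun I d o L c : AddCircle T → ℂ) haarAddCircle := by
  refine ⟨aestronglyMeasurable_ffun I d o L c hc hcs hint, ?_⟩
  have h1 : ∀ x : AddCircle T, ‖ffun I d o L c x‖ₑ ≤ ∑' i, ‖Ffun I d o L c i x‖ₑ := fun x =>
    enorm_tsum_le_tsum_enorm
  refine lt_of_le_of_lt (lintegral_mono h1) ?_
  rw [lintegral_tsum fun i => (continuous_Ffun I d o L c i).enorm.aemeasurable]
  have h2 : ∀ i, ∫⁻ x : AddCircle T, ‖Ffun I d o L c i x‖ₑ ∂haarAddCircle ≤ ENNReal.ofReal (c i) := by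
    intro i
    have hi : Integrable (fun x : AddCircle T => ‖Ffun I d o L c i x‖) haarAddCircle :=
      integrable_of_cont (continuous_Ffun I d o L c i).norm
    have h2 := ofReal_integral_eq_lintegral_ofReal hi (Eventually.of_forall fun _ => norm_nonneg _)
    have h3 : ∫⁻ x : AddCircle T, ‖Ffun I d o L c i x‖ₑ ∂haarAddCircle =
        ∫⁻ x : AddCircle T, ENNReal.ofReal ‖Ffun I d o L c i x‖ ∂haarAddCircle := by
      refine lintegral_congr fun x => ?_
      rw [ofReal_norm]
    rw [h3, ← h2]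
    exact ENNReal.ofReal_le_ofReal (int_norm_Ffun_le I d o L c hc hint i)
  calc ∑' i, ∫⁻ x : AddCircle T, ‖Ffun I d o L c i x‖ₑ ∂haarAddCircle
      ≤ ∑' i, ENNReal.ofReal (c i) := ENNReal.tsum_le_tsum h2
    _ < ⊤ := lt_top_iff_ne_top.mpr hcs.tsum_ofReal_ne_top

/-- Fourier coefficients of the series, termwise. -/
theorem fourierCoeff_ffun (hc : ∀ i, 0 < c i) (hcs : Summable c)
    (hint : ∀ i, ∫ x : AddCircle T, ‖hfun I d o i x‖ ∂haarAddCircle ≤ 1) (n : ℤ) :
    HasSum (fun i => (c i : ℂ) * ∑ j ∈ I i, if Mfreq L i + o i j = n then d i j else 0)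
      (fourierCoeff (ffun I d o L c : AddCircle T → ℂ) n) := by
  have h1 := hasSum_integral_of_summable_integral_norm (μ := haarAddCircle)
    (F := fun (i : ℕ) (x : AddCircle T) => fourier (-n) x • Ffun I d o L c i x) ?_ ?_
  · have h2 : fourierCoeff (ffun I d o L c : AddCircle T → ℂ) n =
        ∫ x : AddCircle T, ∑' i, fourier (-n) x • Ffun I d o L c i x ∂haarAddCircle := by
      unfold fourierCoeff ffun
      refine integral_congr_ae (Eventually.of_forall fun x => ?_)
      simp only [smul_eq_mul]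
      rw [tsum_mul_left]
    rw [h2]
    have h4 : (fun i => (c i : ℂ) * ∑ j ∈ I i, if Mfreq L i + o i j = n then d i j else 0) =
        fun i => ∫ x : AddCircle T, fourier (-n) x • Ffun I d o L c i x ∂haarAddCircle := by
      funext i
      have h3 : ∀ x : AddCircle T, fourier (-n) x • Ffun I d o L c i x =
          (c i : ℂ) * (fourier (-n) x • gfun I d o L i x) := by
        intro x
        unfold Ffun
        simp only [smul_eq_mul]
        ring
      simp_rw [h3]
      rw [integral_const_mul]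
      congr 1
      exact (fourierCoeff_finsum (I i) (d i) (fun j => Mfreq L i + o i j) n).symm
    rw [h4]
    exact h1
  · intro i
    apply integrable_of_cont
    exact (fourier (-n)).continuous.smul (continuous_Ffun I d o L c i)
  · refine (summable_int_norm_Ffun I d o L c hc hcs hint).congr fun i => ?_
    refine integral_congr_ae (Eventually.of_forall fun x => ?_)
    simp only [smul_eq_mul, norm_mul, norm_fourier_apply, one_mul]

/-- All frequencies of block k lie strictly between the window ends. -/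
theorem freq_range (hL : ∀ i, 0 < L i) (ho : ∀ i, ∀ j ∈ I i, |o i j| < L i) (k : ℕ) (j : α) (hj : j ∈ I k) :
    (Afreq L k : ℤ) < Mfreq L k + o k j ∧ Mfreq L k + o k j < (Afreq L (k + 1) : ℤ) := by
  have h := ho k j hj
  rw [abs_lt] at h
  unfold Mfreq
  simp only [Afreq]
  push_cast
  constructor <;> linarith [h.1, h.2]

/-- The coefficient vanishes for frequencies outside all windows up to the given one. -/
theorem coeff_eq_block (hc : ∀ i, 0 < c i) (hcs : Summable c)
    (hL : ∀ i, 0 < L i) (ho : ∀ i, ∀ j ∈ I i, |o i j| < L i)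
    (hint : ∀ i, ∫ x : AddCircle T, ‖hfun I d o i x‖ ∂haarAddCircle ≤ 1)
    (i : ℕ) (n : ℤ) (hn1 : (Afreq L i : ℤ) < n) (hn2 : n < (Afreq L (i + 1) : ℤ)) :
    fourierCoeff (ffun I d o L c : AddCircle T → ℂ) n =
      (c i : ℂ) * ∑ j ∈ I i, if Mfreq L i + o i j = n then d i j else 0 := by
  have h := fourierCoeff_ffun (T := T) I d o L c hc hcs hint n
  rw [← h.tsum_eq]
  refine tsum_eq_single i fun k hk => ?_
  have hzero : ∑ j ∈ I k, (if Mfreq L k + o k j = n then d k j else 0) = 0 := by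
    refine Finset.sum_eq_zero fun j hj => ?_
    have hr := freq_range I o L hL ho k j hj
    have hmono := Afreq_strictMono L hL
    rw [if_neg]
    intro heq
    rcases lt_or_gt_of_ne hk with hlt | hgt
    · have : Afreq L (k + 1) ≤ Afreq L i := hmono.monotone hlt
      have h5 : ((Afreq L (k + 1) : ℕ) : ℤ) ≤ (Afreq L i : ℤ) := by exact_mod_cast this
      omega
    · have : Afreq L (i + 1) ≤ Afreq L k := hmono.monotone hgt
      have h5 : ((Afreq L (i + 1) : ℕ) : ℤ) ≤ (Afreq L k : ℤ) := by exact_mod_cast this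
      omega
  rw [hzero, mul_zero]

theorem coeff_eq_zero_of_nonpos (hc : ∀ i, 0 < c i) (hcs : Summable c)
    (hL : ∀ i, 0 < L i) (ho : ∀ i, ∀ j ∈ I i, |o i j| < L i)
    (hint : ∀ i, ∫ x : AddCircle T, ‖hfun I d o i x‖ ∂haarAddCircle ≤ 1)
    (n : ℤ) (hn : n ≤ 0) :
    fourierCoeff (ffun I d o L c : AddCircle T → ℂ) n = 0 := by
  have h := fourierCoeff_ffun (T := T) I d o L c hc hcs hint n
  rw [← h.tsum_eq]
  have hzero : ∀ k, ∑ j ∈ I k, (if Mfreq L k + o k j = n then d k j else 0) = 0 := by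
    intro k
    refine Finset.sum_eq_zero fun j hj => ?_
    have hr := freq_range I o L hL ho k j hj
    rw [if_neg]
    intro heq
    have : (0 : ℤ) ≤ (Afreq L k : ℤ) := by positivity
    omega
  simp [hzero]

/-- The symmetric sum of f. -/
noncomputable def Ssum (f : AddCircle T → ℂ) (N : ℕ) (x : AddCircle T) : ℂ :=
  ∑ n ∈ Finset.Icc (-(N : ℤ)) (N : ℤ), fourierCoeff f n • fourier n x

/-- The difference of two symmetric sums only sees the positive frequencies in between. -/
theorem Ssum_sub (f : AddCircle T → ℂ) (hneg : ∀ n : ℤ, n ≤ 0 → fourierCoeff f n = 0)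
    (N1 N2 : ℕ) (h12 : N1 ≤ N2) (x : AddCircle T) :
    Ssum f N2 x - Ssum f N1 x =
      ∑ n ∈ Finset.Ioc (N1 : ℤ) (N2 : ℤ), fourierCoeff f n • fourier n x := by
  unfold Ssum
  have hsub : Finset.Icc (-(N1 : ℤ)) (N1 : ℤ) ⊆ Finset.Icc (-(N2 : ℤ)) (N2 : ℤ) := by
    intro n hn
    simp only [Finset.mem_Icc] at hn ⊢
    have : (N1 : ℤ) ≤ N2 := by exact_mod_cast h12
    omega
  rw [← Finset.sum_sdiff hsub, add_sub_cancel_right]
  symm
  refine Finset.sum_subset ?_ ?_
  · intro n hn
    simp only [Finset.mem_Ioc, Finset.mem_sdiff, Finset.mem_Icc] at hn ⊢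
    omega
  · intro n hn hn2
    simp only [Finset.mem_Ioc, Finset.mem_sdiff, Finset.mem_Icc] at hn hn2
    have : n ≤ 0 := by omega
    rw [hneg n this, zero_smul]

/-- The key identity: the jump of the symmetric sums inside block i. -/
theorem Ssum_jump (hc : ∀ i, 0 < c i) (hcs : Summable c)
    (hL : ∀ i, 0 < L i) (ho : ∀ i, ∀ j ∈ I i, |o i j| < L i)
    (hint : ∀ i, ∫ x : AddCircle T, ‖hfun I d o i x‖ ∂haarAddCircle ≤ 1)
    (i m : ℕ) (hm : m < L i) (x : AddCircle T) :
    Ssum (ffun I d o L c) (Afreq L i + L i + m) x - Ssum (ffun I d o L c) (Afreq L i) x =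
      (c i : ℂ) * (fourier (Mfreq L i) x *
        ∑ j ∈ (I i).filter (fun j => o i j ≤ (m : ℤ)), d i j • fourier (o i j) x) := by
  rw [Ssum_sub _ (coeff_eq_zero_of_nonpos I d o L c hc hcs hL ho hint) _ _ (by omega)]
  have h1 : ∀ n ∈ Finset.Ioc ((Afreq L i : ℕ) : ℤ) ((Afreq L i + L i + m : ℕ) : ℤ),
      fourierCoeff (ffun I d o L c : AddCircle T → ℂ) n • fourier n x =
        (c i : ℂ) * ∑ j ∈ I i, (if Mfreq L i + o i j = n then d i j * fourier n x else 0) := by
    intro n hn
    simp only [Finset.mem_Ioc] at hn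
    rw [coeff_eq_block I d o L c hc hcs hL ho hint i n hn.1 (by
      simp only [Afreq]; push_cast at hn ⊢; have := hn.2; omega)]
    rw [smul_eq_mul, mul_assoc, Finset.sum_mul]
    congr 1
    refine Finset.sum_congr rfl fun j _ => ?_
    split_ifs <;> simp
  rw [Finset.sum_congr rfl h1, ← Finset.mul_sum]
  congr 1
  rw [Finset.sum_comm]
  have h2 : ∀ j ∈ I i, ∑ n ∈ Finset.Ioc ((Afreq L i : ℕ) : ℤ) ((Afreq L i + L i + m : ℕ) : ℤ),
      (if Mfreq L i + o i j = n then d i j * fourier n x else 0) =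
        if o i j ≤ (m : ℤ) then d i j * fourier (Mfreq L i + o i j) x else 0 := by
    intro j hj
    rw [Finset.sum_ite_eq]
    have hr := freq_range I o L hL ho i j hj
    have hiff : (Mfreq L i + o i j ∈ Finset.Ioc ((Afreq L i : ℕ) : ℤ) ((Afreq L i + L i + m : ℕ) : ℤ)) ↔
        o i j ≤ (m : ℤ) := by
      simp only [Finset.mem_Ioc]
      unfold Mfreq
      push_cast
      constructor
      · intro h
        have := h.2
        omega
      · intro h
        refine ⟨?_, by omega⟩
        have := hr.1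
        unfold Mfreq at this
        omega
    by_cases hcase : o i j ≤ (m : ℤ)
    · rw [if_pos (hiff.mpr hcase), if_pos hcase]
    · rw [if_neg (fun h => hcase (hiff.mp h)), if_neg hcase]
  rw [Finset.sum_congr rfl h2, Finset.sum_filter, Finset.mul_sum]
  refine Finset.sum_congr rfl fun j _ => ?_
  split_ifs
  · rw [fourier_add, smul_eq_mul]
    ring
  · simp

/-- Unboundedness of the symmetric sums at every point covered with growing size. -/
theorem unbounded_Ssum (hc : ∀ i, 0 < c i) (hcs : Summable c)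
    (hL : ∀ i, 0 < L i) (ho : ∀ i, ∀ j ∈ I i, |o i j| < L i)
    (hint : ∀ i, ∫ x : AddCircle T, ‖hfun I d o i x‖ ∂haarAddCircle ≤ 1)
    (x : AddCircle T)
    (hcov : ∀ n : ℕ, ∃ i, n ≤ i ∧ ∃ m : ℕ, m < L i ∧
      (n : ℝ) ≤ c i * ‖∑ j ∈ (I i).filter (fun j => o i j ≤ (m : ℤ)), d i j • fourier (o i j) x‖)
    (C : ℝ) : ∃ N : ℕ, C < ‖Ssum (ffun I d o L c) N x‖ := by
  obtain ⟨n, hn⟩ := exists_nat_gt (2 * C)
  obtain ⟨i, _, m, hm, hlarge⟩ := hcov n
  have h1 := Ssum_jump I d o L c hc hcs hL ho hint i m hm x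
  have h2 : ‖Ssum (ffun I d o L c) (Afreq L i + L i + m) x - Ssum (ffun I d o L c) (Afreq L i) x‖ ≥ n := by
    rw [h1, norm_mul, norm_mul, norm_fourier_apply, one_mul, Complex.norm_real,
      Real.norm_of_nonneg (hc i).le]
    exact hlarge
  have h3 := norm_sub_le (Ssum (ffun I d o L c) (Afreq L i + L i + m) x) (Ssum (ffun I d o L c) (Afreq L i) x)
  by_contra hno
  simp only [not_exists, not_lt] at hno
  have h4 := hno (Afreq L i + L i + m)
  have h5 := hno (Afreq L i)
  linarith

theorem phi_pointwise (φ : ℝ → ℝ) (η : ℕ → ℝ) (hφm : MonotoneOn φ (Set.Ici 0))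
    (hc : ∀ i, 0 < c i) (hsup : ∀ i (x : AddCircle T), ‖hfun I d o i x‖ ≤ L i)
    (hη : ∀ i v, 1 ≤ v → v ≤ c i * L i * 2 ^ (i + 2) → φ v ≤ v * η i) (x : AddCircle T) :
    ENNReal.ofReal (φ ‖ffun I d o L c x‖) ≤
      ENNReal.ofReal (φ 1) +
        ∑' i, ENNReal.ofReal (η i * (c i * 2 ^ (i + 2) * ‖hfun I d o i x‖)) := by
  by_cases hs : Summable fun i => ‖Ffun I d o L c i x‖
  · set A := ∑' i, ‖Ffun I d o L c i x‖ with hA
    have hA0 : 0 ≤ A := tsum_nonneg fun _ => norm_nonneg _
    have hfA : ‖ffun I d o L c x‖ ≤ A := norm_tsum_le_tsum_norm hs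
    have hf0 : 0 ≤ ‖ffun I d o L c x‖ := norm_nonneg _
    by_cases hA1 : A ≤ 1
    · have : φ ‖ffun I d o L c x‖ ≤ φ 1 :=
        hφm (Set.mem_Ici.mpr hf0) (Set.mem_Ici.mpr zero_le_one) (hfA.trans hA1)
      exact (ENNReal.ofReal_le_ofReal this).trans le_self_add
    · rw [not_le] at hA1
      have hex : ∃ i, A ≤ c i * 2 ^ (i + 2) * ‖hfun I d o i x‖ := by
        by_contra hno
        simp only [not_exists, not_le] at hno
        have hle : ∀ i, ‖Ffun I d o L c i x‖ ≤ A * (1 / 2) ^ (i + 2) := by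
          intro i
          rw [norm_Ffun I d o L c hc]
          have h1 := (hno i).le
          have h2 : (0 : ℝ) < 2 ^ (i + 2) := by positivity
          have h3 : ((1 : ℝ) / 2) ^ (i + 2) = 1 / 2 ^ (i + 2) := by
            rw [one_div, one_div, inv_pow]
          rw [h3, mul_one_div, le_div_iff₀ h2]
          nlinarith
        have hgeo : HasSum (fun i : ℕ => A * ((1 : ℝ) / 2) ^ (i + 2)) (A * (1 / 2)) := by
          have h1 : HasSum (fun i : ℕ => ((1 : ℝ) / 2) ^ i) 2 := hasSum_geometric_two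
          have h2 : HasSum (fun i : ℕ => ((1 : ℝ) / 2) ^ i * (1 / 4)) (2 * (1 / 4)) := h1.mul_right _
          have h3 : HasSum (fun i : ℕ => ((1 : ℝ) / 2) ^ (i + 2)) (1 / 2) := by
            convert h2 using 1
            · funext i
              rw [pow_add]
              norm_num
            · norm_num
          exact h3.mul_left A
        have hAle : A ≤ A * (1 / 2) := by
          rw [← hgeo.tsum_eq]
          exact hs.tsum_le_tsum hle hgeo.summable
        linarith
      obtain ⟨i, hi⟩ := hex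
      have hv1 : 1 ≤ c i * 2 ^ (i + 2) * ‖hfun I d o i x‖ := by linarith
      have hv2 : c i * 2 ^ (i + 2) * ‖hfun I d o i x‖ ≤ c i * L i * 2 ^ (i + 2) := by
        have h1 := hsup i x
        have h2 := hc i
        have h3 : (0 : ℝ) < 2 ^ (i + 2) := by positivity
        have h4 : 0 < c i * 2 ^ (i + 2) := by positivity
        nlinarith
      have h5 := hη i _ hv1 hv2
      have h6 : φ ‖ffun I d o L c x‖ ≤ φ (c i * 2 ^ (i + 2) * ‖hfun I d o i x‖) :=
        hφm (Set.mem_Ici.mpr hf0) (Set.mem_Ici.mpr (by linarith)) (by linarith)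
      have h7 : φ ‖ffun I d o L c x‖ ≤ η i * (c i * 2 ^ (i + 2) * ‖hfun I d o i x‖) := by
        nlinarith
      calc ENNReal.ofReal (φ ‖ffun I d o L c x‖)
          ≤ ENNReal.ofReal (η i * (c i * 2 ^ (i + 2) * ‖hfun I d o i x‖)) :=
            ENNReal.ofReal_le_ofReal h7
        _ ≤ ∑' i, ENNReal.ofReal (η i * (c i * 2 ^ (i + 2) * ‖hfun I d o i x‖)) :=
            ENNReal.le_tsum i
        _ ≤ _ := le_add_self
  · have hns : ¬ Summable fun i => Ffun I d o L c i x := fun h => hs h.norm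
    have h0 : ffun I d o L c x = 0 := by
      unfold ffun
      exact tsum_eq_zero_of_not_summable hns
    rw [h0, norm_zero]
    have : φ 0 ≤ φ 1 :=
      hφm (Set.mem_Ici.mpr le_rfl) (Set.mem_Ici.mpr zero_le_one) zero_le_one
    exact (ENNReal.ofReal_le_ofReal this).trans le_self_add

theorem integrable_phi (φ : ℝ → ℝ) (η : ℕ → ℝ) (hφm : MonotoneOn φ (Set.Ici 0))
    (hφ0 : ∀ u, 0 ≤ u → 0 ≤ φ u)
    (hc : ∀ i, 0 < c i) (hcs : Summable c) (hsup : ∀ i (x : AddCircle T), ‖hfun I d o i x‖ ≤ L i)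
    (hint : ∀ i, ∫ x : AddCircle T, ‖hfun I d o i x‖ ∂haarAddCircle ≤ 1)
    (hη : ∀ i v, 1 ≤ v → v ≤ c i * L i * 2 ^ (i + 2) → φ v ≤ v * η i) (hη0 : ∀ i, 0 ≤ η i)
    (hηs : Summable fun i => η i * (c i * 2 ^ (i + 2))) :
    Integrable (fun x : AddCircle T => φ ‖ffun I d o L c x‖) haarAddCircle := by
  have hf := aestronglyMeasurable_ffun (T := T) I d o L c hc hcs hint
  have hmeasφ : Measurable fun u : ℝ => φ (max u 0) := by
    have : Monotone fun u : ℝ => φ (max u 0) := by
      intro a b hab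
      exact hφm (Set.mem_Ici.mpr (le_max_right _ _)) (Set.mem_Ici.mpr (le_max_right _ _))
        (max_le_max hab le_rfl)
    exact this.measurable
  have hcomp : AEStronglyMeasurable (fun x : AddCircle T => φ ‖ffun I d o L c x‖) haarAddCircle := by
    have h1 : AEMeasurable (fun x : AddCircle T => ‖ffun I d o L c x‖) haarAddCircle :=
      hf.norm.aemeasurable
    have h2 := (hmeasφ.comp_aemeasurable h1).aestronglyMeasurable
    refine h2.congr (Eventually.of_forall fun x => ?_)
    simp only [Function.comp]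
    rw [max_eq_left (norm_nonneg _)]
  refine ⟨hcomp, ?_⟩
  rw [hasFiniteIntegral_iff_ofReal (Eventually.of_forall fun x => hφ0 _ (norm_nonneg _))]
  have hcont : ∀ i, Continuous fun x : AddCircle T =>
      η i * (c i * 2 ^ (i + 2) * ‖hfun I d o i x‖) := by
    intro i
    exact continuous_const.mul (continuous_const.mul (continuous_hfun I d o i).norm)
  have hterm : ∀ i, ∫⁻ x : AddCircle T, ENNReal.ofReal (η i * (c i * 2 ^ (i + 2) * ‖hfun I d o i x‖))
      ∂haarAddCircle ≤ ENNReal.ofReal (η i * (c i * 2 ^ (i + 2))) := by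
    intro i
    have hnn : ∀ x : AddCircle T, 0 ≤ η i * (c i * 2 ^ (i + 2) * ‖hfun I d o i x‖) := by
      intro x
      have := hη0 i
      have := hc i
      positivity
    rw [← ofReal_integral_eq_lintegral_ofReal (integrable_of_cont (hcont i))
      (Eventually.of_forall hnn)]
    apply ENNReal.ofReal_le_ofReal
    rw [integral_const_mul, integral_const_mul]
    have h1 := hint i
    have h2 : 0 ≤ η i * (c i * 2 ^ (i + 2)) := by
      have := hη0 i
      have := hc i
      positivity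
    nlinarith
  calc ∫⁻ x : AddCircle T, ENNReal.ofReal (φ ‖ffun I d o L c x‖) ∂haarAddCircle
      ≤ ∫⁻ x : AddCircle T, (ENNReal.ofReal (φ 1) +
          ∑' i, ENNReal.ofReal (η i * (c i * 2 ^ (i + 2) * ‖hfun I d o i x‖))) ∂haarAddCircle :=
        lintegral_mono fun x => phi_pointwise I d o L c φ η hφm hc hsup hη x
    _ = ENNReal.ofReal (φ 1) + ∑' i, ∫⁻ x : AddCircle T,
          ENNReal.ofReal (η i * (c i * 2 ^ (i + 2) * ‖hfun I d o i x‖)) ∂haarAddCircle := by
        rw [lintegral_add_left measurable_const, lintegral_const, measure_univ, mul_one,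
          lintegral_tsum fun i => (hcont i).measurable.ennreal_ofReal.aemeasurable]
    _ < ⊤ := by
        refine ENNReal.add_lt_top.mpr ⟨ENNReal.ofReal_lt_top, ?_⟩
        exact lt_of_le_of_lt (ENNReal.tsum_le_tsum hterm) (lt_top_iff_ne_top.mpr hηs.tsum_ofReal_ne_top)

end Glide

/-- The abstract gliding hump. -/
theorem glide {T : ℝ} [hT : Fact (0 < T)] {α : Type*} (φ : ℝ → ℝ)
    (hφm : MonotoneOn φ (Set.Ici 0)) (hφ0 : ∀ u, 0 ≤ u → 0 ≤ φ u)
    (I : ℕ → Finset α) (d : ℕ → α → ℂ) (o : ℕ → α → ℤ) (L : ℕ → ℕ) (c η : ℕ → ℝ)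
    (hL : ∀ i, 0 < L i) (ho : ∀ i, ∀ j ∈ I i, |o i j| < L i)
    (hsup : ∀ i (x : AddCircle T), ‖∑ j ∈ I i, d i j • fourier (o i j) x‖ ≤ L i)
    (hint : ∀ i, ∫ x : AddCircle T, ‖∑ j ∈ I i, d i j • fourier (o i j) x‖ ∂haarAddCircle ≤ 1)
    (hc : ∀ i, 0 < c i) (hcs : Summable c)
    (hη : ∀ i v, 1 ≤ v → v ≤ c i * L i * 2 ^ (i + 2) → φ v ≤ v * η i) (hη0 : ∀ i, 0 ≤ η i)
    (hηs : Summable fun i => η i * (c i * 2 ^ (i + 2)))
    (hcov : ∀ (x : AddCircle T) (n : ℕ), ∃ i, n ≤ i ∧ ∃ m : ℕ, m < L i ∧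
      (n : ℝ) ≤ c i * ‖∑ j ∈ (I i).filter (fun j => o i j ≤ (m : ℤ)), d i j • fourier (o i j) x‖) :
    ∃ f : AddCircle T → ℂ, Integrable f haarAddCircle ∧
      Integrable (fun x => φ ‖f x‖) haarAddCircle ∧
      ∀ (x : AddCircle T) (C : ℝ), ∃ N : ℕ,
        C < ‖∑ n ∈ Finset.Icc (-(N : ℤ)) (N : ℤ), fourierCoeff f n • fourier n x‖ := by
  refine ⟨ffun I d o L c, integrable_ffun I d o L c hc hcs hint,
    integrable_phi I d o L c φ η hφm hφ0 hc hcs hsup hint hη hη0 hηs, fun x C => ?_⟩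
  exact unbounded_Ssum I d o L c hc hcs hL ho hint x (hcov x) C

end Vale.Agent.Lib.P091
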