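import Vale.Agent.Lib.P091.Block
import Vale.Agent.Lib.P091.Cover
import Vale.Agent.Lib.P091.Glide

namespace Vale.Agent.Lib.P091

open Finset Real MeasureTheory Filter Topology AddCircle

/-- The coefficients of a translated block with translation τ. -/
noncomputable def blockCoef (K : ℕ) (τ : ℝ) (q : ℕ × ℕ × ℕ) : ℂ :=
  (1 / 2 : ℂ) ^ K * (1 / (Lsize K : ℂ)) *
    e (-(((q.2.1 : ℝ) - (q.2.2 : ℝ)) * (ptY K 15 (40000 * K) q.1 + τ)))

/-- The frequency offsets of a block. -/
def blockOff (q : ℕ × ℕ × ℕ) : ℤ := (q.2.1 : ℤ) - (q.2.2 : ℤ)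

/-- The index set of a block: q = (z, a, b). -/
def blockIdx (K : ℕ) : Finset (ℕ × ℕ × ℕ) :=
  range (2 ^ K) ×ˢ range (Lsize K) ×ˢ range (Lsize K)

theorem blockOff_lt (K : ℕ) (q : ℕ × ℕ × ℕ) (hq : q ∈ blockIdx K) : |blockOff q| < Lsize K := by
  simp only [blockIdx, mem_product, mem_range] at hq
  obtain ⟨_, ha, hb⟩ := hq
  unfold blockOff
  rw [abs_lt]
  constructor <;> omega

theorem cb_Lsize_pos (K : ℕ) : 0 < Lsize K := by
  unfold Lsize
  positivity

theorem cb_norm_blockCoef (K : ℕ) (τ : ℝ) (q : ℕ × ℕ × ℕ) :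
    ‖blockCoef K τ q‖ = (1 / 2 : ℝ) ^ K * (1 / (Lsize K : ℝ)) := by
  unfold blockCoef
  rw [norm_mul, norm_mul, norm_e, norm_pow, norm_div, norm_div]
  simp

theorem cb_card_blockIdx (K : ℕ) : (blockIdx K).card = 2 ^ K * (Lsize K * Lsize K) := by
  simp [blockIdx, card_product]

theorem block_sup {T : ℝ} [hT : Fact (0 < T)] (K : ℕ) (τ : ℝ) (x : AddCircle T) :
    ‖∑ q ∈ blockIdx K, blockCoef K τ q • fourier (blockOff q) x‖ ≤ Lsize K := by
  have hL : (0 : ℝ) < Lsize K := by exact_mod_cast cb_Lsize_pos K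
  calc ‖∑ q ∈ blockIdx K, blockCoef K τ q • fourier (blockOff q) x‖
      ≤ ∑ q ∈ blockIdx K, ‖blockCoef K τ q • fourier (blockOff q) x‖ := norm_sum_le _ _
    _ = ∑ q ∈ blockIdx K, (1 / 2 : ℝ) ^ K * (1 / (Lsize K : ℝ)) := by
        refine Finset.sum_congr rfl fun q _ => ?_
        rw [norm_smul, norm_fourier_apply, mul_one, cb_norm_blockCoef]
    _ = (Lsize K : ℝ) := by
        rw [Finset.sum_const, cb_card_blockIdx, nsmul_eq_mul]
        push_cast
        have h2 : ((2 : ℝ) ^ K) * (1 / 2 : ℝ) ^ K = 1 := by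
          rw [← mul_pow]
          norm_num
        field_simp
        rw [one_div, inv_pow]
        field_simp
    _ ≤ _ := le_refl _

theorem cb_conj_e (t : ℝ) : (starRingEnd ℂ) (e t) = e (-t) := by
  unfold e
  rw [← Complex.exp_conj]
  congr 1
  simp only [map_mul, Complex.conj_ofReal, Complex.conj_I]
  push_cast
  simp only [map_ofNat]
  ring

/-- One term of the block, as a square. -/
theorem cb_block_term_sq {T : ℝ} [Fact (0 < T)] (w : ℝ) (L : ℕ) (x : AddCircle T) :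
    ∑ a ∈ range L, ∑ b ∈ range L,
      e (-(((a : ℝ) - (b : ℝ)) * w)) • fourier ((a : ℤ) - (b : ℤ)) x =
    ((Complex.normSq (∑ a ∈ range L, e (-((a : ℝ) * w)) * fourier (a : ℤ) x) : ℝ) : ℂ) := by
  rw [← Complex.mul_conj, map_sum, Finset.sum_mul_sum]
  refine Finset.sum_congr rfl fun a _ => Finset.sum_congr rfl fun b _ => ?_
  have h2 : fourier ((a : ℤ) - (b : ℤ)) x = fourier (a : ℤ) x * fourier (-(b : ℤ)) x := by
    rw [sub_eq_add_neg, fourier_add]
  rw [map_mul, cb_conj_e, ← fourier_neg, h2, smul_eq_mul]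
  have h1 : e (-(((a : ℝ) - (b : ℝ)) * w)) = e (-((a : ℝ) * w)) * e (-(-((b : ℝ) * w))) := by
    rw [← e_add]
    congr 1
    ring
  rw [h1]
  ring

theorem cb_block_fun_eq {T : ℝ} [hT : Fact (0 < T)] (K : ℕ) (τ : ℝ) (x : AddCircle T) :
    ∑ q ∈ blockIdx K, blockCoef K τ q • fourier (blockOff q) x =
      ((∑ z ∈ range (2 ^ K), (1 / 2 : ℝ) ^ K * (1 / (Lsize K : ℝ)) *
        Complex.normSq (∑ a ∈ range (Lsize K),
          e (-((a : ℝ) * (ptY K 15 (40000 * K) z + τ))) * fourier (a : ℤ) x) : ℝ) : ℂ) := by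
  unfold blockIdx
  rw [Finset.sum_product]
  push_cast
  refine Finset.sum_congr rfl fun z _ => ?_
  rw [Finset.sum_product]
  have h := cb_block_term_sq (T := T) (ptY K 15 (40000 * K) z + τ) (Lsize K) x
  rw [← h, Finset.mul_sum]
  refine Finset.sum_congr rfl fun a _ => ?_
  rw [Finset.mul_sum]
  refine Finset.sum_congr rfl fun b _ => ?_
  unfold blockCoef blockOff
  simp only [smul_eq_mul]
  ring

theorem cb_block_int_complex {T : ℝ} [hT : Fact (0 < T)] (K : ℕ) (τ : ℝ) :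
    ∫ x : AddCircle T, ∑ q ∈ blockIdx K, blockCoef K τ q • fourier (blockOff q) x ∂haarAddCircle
      = 1 := by
  have hL : (Lsize K : ℂ) ≠ 0 := by exact_mod_cast (cb_Lsize_pos K).ne'
  have hi : ∀ q ∈ blockIdx K, Integrable
      (fun x : AddCircle T => blockCoef K τ q • fourier (blockOff q) x) haarAddCircle := by
    intro q _
    have hc : Continuous (fun x : AddCircle T => blockCoef K τ q • fourier (blockOff q) x) := by
      fun_prop
    exact hc.integrable_of_hasCompactSupport (HasCompactSupport.of_compactSpace _)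
  rw [integral_finsetSum _ hi]
  simp_rw [integral_smul, integral_fourier_haar]
  unfold blockIdx
  rw [Finset.sum_product]
  have hz : ∀ z ∈ range (2 ^ K),
      ∑ y ∈ range (Lsize K) ×ˢ range (Lsize K),
        blockCoef K τ (z, y) • (if blockOff (z, y) = 0 then (1 : ℂ) else 0) =
      (1 / 2 : ℂ) ^ K := by
    intro z _
    rw [Finset.sum_product]
    have ha : ∀ a ∈ range (Lsize K),
        ∑ b ∈ range (Lsize K),
          blockCoef K τ (z, a, b) • (if blockOff (z, a, b) = 0 then (1 : ℂ) else 0) =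
        (1 / 2 : ℂ) ^ K * (1 / (Lsize K : ℂ)) := by
      intro a ha
      rw [Finset.sum_eq_single a]
      · have : blockOff (z, a, a) = 0 := by simp [blockOff]
        rw [if_pos this]
        unfold blockCoef
        simp [e_zero]
      · intro b _ hba
        have : blockOff (z, a, b) ≠ 0 := by
          simp only [blockOff]
          omega
        rw [if_neg this, smul_zero]
      · intro h
        exact absurd ha h
    rw [Finset.sum_congr rfl ha, Finset.sum_const, card_range, nsmul_eq_mul]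
    field_simp
  rw [Finset.sum_congr rfl hz, Finset.sum_const, card_range, nsmul_eq_mul]
  push_cast
  rw [← mul_pow]
  norm_num

theorem block_int {T : ℝ} [hT : Fact (0 < T)] (K : ℕ) (τ : ℝ) :
    ∫ x : AddCircle T, ‖∑ q ∈ blockIdx K, blockCoef K τ q • fourier (blockOff q) x‖ ∂haarAddCircle ≤ 1 := by
  have h1 : ∀ x : AddCircle T,
      ((‖∑ q ∈ blockIdx K, blockCoef K τ q • fourier (blockOff q) x‖ : ℝ) : ℂ) =
        ∑ q ∈ blockIdx K, blockCoef K τ q • fourier (blockOff q) x := by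
    intro x
    rw [cb_block_fun_eq, Complex.norm_real, Real.norm_eq_abs, abs_of_nonneg]
    refine Finset.sum_nonneg fun z _ => ?_
    have := Complex.normSq_nonneg (∑ a ∈ range (Lsize K),
          e (-((a : ℝ) * (ptY K 15 (40000 * K) z + τ))) * fourier (a : ℤ) x)
    positivity
  have h2 : ((∫ x : AddCircle T, ‖∑ q ∈ blockIdx K, blockCoef K τ q • fourier (blockOff q) x‖
      ∂haarAddCircle : ℝ) : ℂ) = 1 := by
    rw [← integral_complex_ofReal]
    simp_rw [h1]
    exact cb_block_int_complex K τ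
  have h3 : (∫ x : AddCircle T, ‖∑ q ∈ blockIdx K, blockCoef K τ q • fourier (blockOff q) x‖
      ∂haarAddCircle) = 1 := by
    exact_mod_cast h2
  exact h3.le

theorem cb_fourier_coe_eq_e {T : ℝ} [hT : Fact (0 < T)] (k : ℤ) (t : ℝ) :
    fourier k ((T * t : ℝ) : AddCircle T) = e ((k : ℝ) * t) := by
  rw [fourier_coe_apply]
  unfold e
  congr 1
  have hTne : (T : ℂ) ≠ 0 := by exact_mod_cast hT.out.ne'
  push_cast
  field_simp

/-- Every point of the circle is caught at stage K by one of the 16 translates. -/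
theorem block_cover {T : ℝ} [hT : Fact (0 < T)] (K : ℕ) (hK : 100 ≤ K) (x : AddCircle T) :
    ∃ (i l : ℕ), i < 4 ∧ l < 4 ∧ ∃ m : ℕ, m < Lsize K ∧ (K : ℝ) / 100 ≤
      ‖∑ q ∈ (blockIdx K).filter (fun q => blockOff q ≤ (m : ℤ)),
        blockCoef K ((i : ℝ) / 4 + ((l : ℝ) - 2) * (1 / 2) ^ (K + 4)) q • fourier (blockOff q) x‖ := by
  obtain ⟨s, rfl⟩ := QuotientAddGroup.mk_surjective x
  have hTne : T ≠ 0 := hT.out.ne'
  set t : ℝ := s / T with ht
  have hs : s = T * t := by rw [ht]; field_simp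
  obtain ⟨i, l, ν, z0, hi, hl, hz0, h1, h2⟩ := cover K t
  refine ⟨i, l, hi, hl, ?_⟩
  obtain ⟨m, hm, hbl⟩ := block_lower K z0 hK hz0 _ h1 h2
  refine ⟨m, hm, hbl.trans (le_of_eq ?_)⟩
  congr 1
  set τ : ℝ := (i : ℝ) / 4 + ((l : ℝ) - 2) * (1 / 2) ^ (K + 4) with hτ
  rw [Finset.sum_filter]
  unfold blockIdx
  rw [Finset.sum_product]
  refine Finset.sum_congr rfl fun z _ => ?_
  rw [Finset.sum_product]
  conv_rhs => rw [Finset.sum_comm]
  refine Finset.sum_congr rfl fun b _ => Finset.sum_congr rfl fun a _ => ?_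
  have hoff : blockOff (z, a, b) = (a : ℤ) - (b : ℤ) := rfl
  by_cases hc : blockOff (z, a, b) ≤ (m : ℤ)
  · have hc' : (a : ℤ) ≤ (b : ℤ) + (m : ℤ) := by rw [hoff] at hc; omega
    rw [if_pos hc', if_pos hc, hoff]
    unfold blockCoef
    simp only []
    rw [smul_eq_mul]
    have hcoe : ((s : ℝ) : AddCircle T) = ((T * t : ℝ) : AddCircle T) := by rw [hs]
    change _ = _ * _ * e _ * fourier _ ((s : ℝ) : AddCircle T)
    rw [hcoe, cb_fourier_coe_eq_e]
    rw [mul_assoc _ (e _) (e _), ← e_add]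
    have hint : e (((a : ℝ) - (b : ℝ)) * (t - τ - (ν : ℝ) - ptY K 15 (40000 * K) z)) =
        e (-(((a : ℝ) - (b : ℝ)) * (ptY K 15 (40000 * K) z + τ)) +
          (((a : ℤ) - (b : ℤ) : ℤ) : ℝ) * t) := by
      have h3 : -(((a : ℝ) - (b : ℝ)) * (ptY K 15 (40000 * K) z + τ)) +
          (((a : ℤ) - (b : ℤ) : ℤ) : ℝ) * t =
          ((a : ℝ) - (b : ℝ)) * (t - τ - (ν : ℝ) - ptY K 15 (40000 * K) z) +
            (((((a : ℤ) - (b : ℤ)) * ν : ℤ)) : ℝ) := by
        push_cast
        ring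
      rw [h3, e_add, e_int, mul_one]
    rw [hint]
  · have hc' : ¬ (a : ℤ) ≤ (b : ℤ) + (m : ℤ) := by rw [hoff] at hc; omega
    rw [if_neg hc', if_neg hc]

end Vale.Agent.Lib.P091
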