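import Mathlib

/-!
Definitions for the digit configuration of points used in the divergence construction.
All numbers z below are naturals smaller than 2^K, read as K binary digits, most significant first.
-/

namespace Vale.Agent.Lib.P091

open Finset Real

/-- The character of period one. -/
noncomputable def e (t : ℝ) : ℂ := Complex.exp (2 * (π : ℂ) * Complex.I * (t : ℂ))

/-- The first j binary digits of z, read as a number. -/
def pre (K j z : ℕ) : ℕ := z / 2 ^ (K - j)

/-- The binary digit of z with index j (index 0 is the most significant one). -/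
def bit (K j z : ℕ) : ℕ := z / 2 ^ (K - 1 - j) % 2

/-- The bucket of the first j digits of z. -/
def hsh (K B j z : ℕ) : ℕ := pre K j z % B

/-- The digit position reserved for the bucket v of level j. -/
def pos (K g B j v : ℕ) : ℕ := K + 4 + j * (2 * g * B) + g * v

/-- The total number of binary digits used. -/
def nTop (K g B : ℕ) : ℕ := K + 4 + K * (2 * g * B)

/-- The point attached to z. -/
noncomputable def ptY (K g B z : ℕ) : ℝ :=
  (z : ℝ) * (1 / 2) ^ (K + 2) +
    ∑ j ∈ (range K).filter (fun j => bit K j z = 1), (1 / 2 : ℝ) ^ (pos K g B j (hsh K B j z) + 1)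

/-- The frequency attached to z0. -/
def freqN (K g B z0 : ℕ) : ℕ :=
  2 ^ nTop K g B + ∑ j ∈ (range K).filter (fun j => bit K j z0 = 0), 2 ^ pos K g B j (hsh K B j z0)

/-- The phase of level j (same block). -/
noncomputable def sameTerm (K g B j z z0 : ℕ) : ℝ :=
  if hsh K B j z0 ≤ hsh K B j z then (1 / 2 : ℝ) ^ (g * (hsh K B j z - hsh K B j z0) + 1) else 0

/-- The phases coming from later blocks. -/
noncomputable def crossTerm (K g B z z0 : ℕ) : ℝ :=
  ∑ j ∈ (range K).filter (fun j => bit K j z0 = 0),
    ∑ j' ∈ (range K).filter (fun j' => bit K j' z = 1 ∧ j < j'),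
      (1 / 2 : ℝ) ^ (pos K g B j' (hsh K B j' z) - pos K g B j (hsh K B j z0) + 1)

/-- The total error phase of the pair (z, z0). -/
noncomputable def rest (K g B z z0 : ℕ) : ℝ :=
  ∑ j ∈ (range K).filter (fun j => bit K j z = 1 ∧ bit K j z0 = 0 ∧ pre K j z ≠ pre K j z0),
      sameTerm K g B j z z0 +
    crossTerm K g B z z0

end Vale.Agent.Lib.P091
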