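import Vale.Agent.Lib.P091.Defs

namespace Vale.Agent.Lib.P091

open Finset Real

/-! ### Digit arithmetic -/

theorem pre_succ (K j z : ℕ) (hj : j < K) : pre K (j + 1) z = 2 * pre K j z + bit K j z := by
  unfold pre bit
  have h1 : K - j = (K - 1 - j) + 1 := by omega
  have h2 : K - (j + 1) = K - 1 - j := by omega
  rw [h1, h2, pow_succ, ← Nat.div_div_eq_div_mul]
  exact (Nat.div_add_mod _ 2).symm

theorem bit_lt (K j z : ℕ) : bit K j z < 2 := Nat.mod_lt _ (by norm_num)

theorem pre_zero_of_lt (K z : ℕ) (hz : z < 2 ^ K) : pre K 0 z = 0 := by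
  unfold pre
  simpa using Nat.div_eq_of_lt hz

theorem pre_top (K z : ℕ) : pre K K z = z := by
  unfold pre
  simp

theorem pre_mono_z (K j : ℕ) {z z' : ℕ} (h : z ≤ z') : pre K j z ≤ pre K j z' :=
  Nat.div_le_div_right h

/-- Equality of heads passes to shorter heads. -/
theorem pre_eq_of_le (K : ℕ) {i j : ℕ} (hij : i ≤ j) (hj : j ≤ K) {z z0 : ℕ}
    (h : pre K j z = pre K j z0) : pre K i z = pre K i z0 := by
  have key : ∀ w, pre K i w = pre K j w / 2 ^ (j - i) := by
    intro w
    unfold pre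
    rw [Nat.div_div_eq_div_mul, ← pow_add]
    congr 2
    omega
  rw [key z, key z0, h]

/-- Exactly one level carries the true phase when z0 < z, none otherwise. -/
theorem count_true (K z z0 : ℕ) (hz : z < 2 ^ K) (hz0 : z0 < 2 ^ K) :
    ((range K).filter (fun j => bit K j z = 1 ∧ bit K j z0 = 0 ∧ pre K j z = pre K j z0)).card =
      if z0 < z then 1 else 0 := by
  split_ifs with hlt
  · -- existence
    have hQ : ∃ i, pre K i z ≠ pre K i z0 := ⟨K, by
      rw [pre_top, pre_top]; omega⟩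
    classical
    let i := Nat.find hQ
    have hi : pre K i z ≠ pre K i z0 := Nat.find_spec hQ
    have hiK : i ≤ K := Nat.find_min' hQ (by rw [pre_top, pre_top]; omega)
    have hi0 : i ≠ 0 := by
      intro h0
      apply hi
      rw [h0, pre_zero_of_lt K z hz, pre_zero_of_lt K z0 hz0]
    obtain ⟨j, hj⟩ : ∃ j, i = j + 1 := Nat.exists_eq_succ_of_ne_zero hi0
    have hjK : j < K := by omega
    have hpre : pre K j z = pre K j z0 := by
      by_contra hne
      have := Nat.find_min' hQ hne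
      omega
    rw [hj, pre_succ K j z hjK, pre_succ K j z0 hjK, hpre] at hi
    have hle : pre K (j + 1) z0 ≤ pre K (j + 1) z := pre_mono_z K (j + 1) hlt.le
    rw [pre_succ K j z hjK, pre_succ K j z0 hjK, hpre] at hle
    have hb := bit_lt K j z
    have hb0 := bit_lt K j z0
    have hbz : bit K j z = 1 := by omega
    have hbz0 : bit K j z0 = 0 := by omega
    rw [Finset.card_eq_one]
    refine ⟨j, ?_⟩
    ext j'
    simp only [Finset.mem_filter, Finset.mem_range, Finset.mem_singleton]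
    constructor
    · rintro ⟨hj'K, hb1, hb2, hp⟩
      by_contra hne
      rcases lt_or_gt_of_ne hne with h | h
      · -- j' < j : head j'+1 equal but the bits differ
        have h1 : pre K (j' + 1) z = pre K (j' + 1) z0 :=
          pre_eq_of_le K (by omega) (by omega) hpre
        rw [pre_succ K j' z hj'K, pre_succ K j' z0 hj'K, hp, hb1, hb2] at h1
        omega
      · have h1 : pre K (j + 1) z = pre K (j + 1) z0 :=
          pre_eq_of_le K (by omega) (by omega) hp
        rw [pre_succ K j z hjK, pre_succ K j z0 hjK, hpre, hbz, hbz0] at h1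
        omega
    · rintro rfl
      exact ⟨hjK, hbz, hbz0, hpre⟩
  · rw [Finset.card_eq_zero, Finset.filter_eq_empty_iff]
    rintro j hj ⟨hb1, hb2, hp⟩
    have hjK : j < K := Finset.mem_range.mp hj
    have hle : pre K (j + 1) z ≤ pre K (j + 1) z0 := pre_mono_z K (j + 1) (not_lt.mp hlt)
    rw [pre_succ K j z hjK, pre_succ K j z0 hjK, hp, hb1, hb2] at hle
    omega

theorem sameTerm_nonneg (K g B j z z0 : ℕ) : 0 ≤ sameTerm K g B j z z0 := by
  unfold sameTerm
  split_ifs <;> positivity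

theorem crossTerm_nonneg (K g B z z0 : ℕ) : 0 ≤ crossTerm K g B z z0 := by
  unfold crossTerm
  exact Finset.sum_nonneg fun _ _ => Finset.sum_nonneg fun _ _ => by positivity

theorem rest_nonneg (K g B z z0 : ℕ) : 0 ≤ rest K g B z z0 := by
  unfold rest
  exact add_nonneg (Finset.sum_nonneg fun _ _ => sameTerm_nonneg _ _ _ _ _ _) (crossTerm_nonneg _ _ _ _ _)

theorem hsh_lt (K B j z : ℕ) (hB : 1 ≤ B) : hsh K B j z < B := Nat.mod_lt _ (by omega)

/-- The gap between positions of different levels. -/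
theorem pos_gap (K g B j j' v v' : ℕ) (hjj' : j < j') (hv : v < B) :
    pos K g B j v + g * B ≤ pos K g B j' v' := by
  unfold pos
  have h1 : (j + 1) * (2 * g * B) ≤ j' * (2 * g * B) := Nat.mul_le_mul_right _ (by omega)
  have h2 : g * v ≤ g * B := Nat.mul_le_mul_left _ hv.le
  have h3 : (j + 1) * (2 * g * B) = j * (2 * g * B) + 2 * (g * B) := by ring
  omega

/-- The crude bound for the phases from later blocks. -/
theorem crossTerm_le (K g B z z0 : ℕ) (_hg : 1 ≤ g) (_hz : z < 2 ^ K) (_hz0 : z0 < 2 ^ K) (hB : 1 ≤ B) :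
    crossTerm K g B z z0 ≤ (K : ℝ) ^ 2 * (1 / 2 : ℝ) ^ (g * B + 1) := by
  unfold crossTerm
  set t : ℝ := (1 / 2 : ℝ) ^ (g * B + 1) with ht
  have ht0 : 0 ≤ t := by positivity
  have hterm : ∀ j j', j < j' →
      (1 / 2 : ℝ) ^ (pos K g B j' (hsh K B j' z) - pos K g B j (hsh K B j z0) + 1) ≤ t := by
    intro j j' hjj'
    apply pow_le_pow_of_le_one (by norm_num) (by norm_num)
    have := pos_gap K g B j j' (hsh K B j z0) (hsh K B j' z) hjj' (hsh_lt K B j z0 hB)
    omega
  calc ∑ j ∈ (range K).filter (fun j => bit K j z0 = 0),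
        ∑ j' ∈ (range K).filter (fun j' => bit K j' z = 1 ∧ j < j'),
          (1 / 2 : ℝ) ^ (pos K g B j' (hsh K B j' z) - pos K g B j (hsh K B j z0) + 1)
      ≤ ∑ j ∈ range K, ∑ j' ∈ range K, t := by
        refine (Finset.sum_le_sum ?_).trans
          (Finset.sum_le_sum_of_subset_of_nonneg (Finset.filter_subset _ _)
            (fun _ _ _ => Finset.sum_nonneg fun _ _ => ht0))
        intro j _
        refine (Finset.sum_le_sum ?_).trans
          (Finset.sum_le_sum_of_subset_of_nonneg (Finset.filter_subset _ _)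
            (fun _ _ _ => ht0))
        intro j' hj'
        exact hterm j j' (Finset.mem_filter.mp hj').2.2
    _ = (K : ℝ) ^ 2 * t := by
        simp only [Finset.sum_const, Finset.card_range, nsmul_eq_mul]
        ring

/-! ### Integers -/

/-- A real number is an integer. -/
def IsI (x : ℝ) : Prop := ∃ w : ℤ, x = w

theorem IsI.add {x y : ℝ} (hx : IsI x) (hy : IsI y) : IsI (x + y) := by
  obtain ⟨a, rfl⟩ := hx
  obtain ⟨b, rfl⟩ := hy
  exact ⟨a + b, by push_cast; ring⟩

theorem isI_zero : IsI 0 := ⟨0, by simp⟩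

theorem isI_sum {ι : Type*} (s : Finset ι) (f : ι → ℝ) (h : ∀ i ∈ s, IsI (f i)) :
    IsI (∑ i ∈ s, f i) := by
  classical
  induction s using Finset.induction_on with
  | empty => simpa using isI_zero
  | insert a s ha ih =>
    rw [Finset.sum_insert ha]
    exact (h a (Finset.mem_insert_self _ _)).add
      (ih fun i hi => h i (Finset.mem_insert_of_mem hi))

/-- A power of two times a smaller negative power of two is an integer. -/
theorem isI_pow_mul (a b : ℕ) (hab : b ≤ a) : IsI ((2 : ℝ) ^ a * (1 / 2 : ℝ) ^ b) := by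
  refine ⟨2 ^ (a - b), ?_⟩
  push_cast
  have : a = (a - b) + b := by omega
  conv_lhs => rw [this, pow_add]
  rw [mul_assoc, ← mul_pow]
  norm_num

/-- The value of a power of two times a larger negative power of two. -/
theorem pow_mul_half (a b : ℕ) (hab : a < b) :
    (2 : ℝ) ^ a * (1 / 2 : ℝ) ^ (b + 1) = (1 / 2 : ℝ) ^ (b - a + 1) := by
  have : b + 1 = (b - a + 1) + a := by omega
  rw [this, pow_add, mul_comm ((1 / 2 : ℝ) ^ (b - a + 1)), ← mul_assoc, ← mul_pow]
  norm_num

theorem pow_mul_half_eq (a : ℕ) :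
    (2 : ℝ) ^ a * (1 / 2 : ℝ) ^ (a + 1) = 1 / 2 := by
  rw [pow_succ, ← mul_assoc, ← mul_pow]
  norm_num

/-- One term of the product of the digit expansions. -/
theorem term_decomp (K g B z z0 j j' : ℕ) (hg : 1 ≤ g) (hB : 1 ≤ B) (_hj : j < K) (_hj' : j' < K) :
    ∃ w : ℤ, (2 : ℝ) ^ pos K g B j (hsh K B j z0) *
        (1 / 2 : ℝ) ^ (pos K g B j' (hsh K B j' z) + 1) =
      (w : ℝ) + (if j' = j then sameTerm K g B j z z0 else 0) +
        (if j < j' then
          (1 / 2 : ℝ) ^ (pos K g B j' (hsh K B j' z) - pos K g B j (hsh K B j z0) + 1) else 0) := by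
  rcases lt_trichotomy j' j with h | h | h
  · -- j' < j : integer
    have h1 := pos_gap K g B j' j (hsh K B j' z) (hsh K B j z0) h (hsh_lt K B j' z hB)
    have hgB : 1 ≤ g * B := Nat.mul_pos hg hB
    obtain ⟨w, hw⟩ := isI_pow_mul (pos K g B j (hsh K B j z0))
      (pos K g B j' (hsh K B j' z) + 1) (by omega)
    refine ⟨w, ?_⟩
    rw [hw, if_neg (by omega), if_neg (by omega)]
    ring
  · subst h
    rw [if_pos rfl, if_neg (lt_irrefl _)]
    unfold sameTerm
    by_cases hle : hsh K B j' z0 ≤ hsh K B j' z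
    · refine ⟨0, ?_⟩
      rw [if_pos hle]
      rcases hle.eq_or_lt with heq | hlt
      · rw [← heq]
        have : g * (hsh K B j' z0 - hsh K B j' z0) + 1 = 1 := by simp
        rw [this, pow_mul_half_eq]
        norm_num
      · have hposlt : pos K g B j' (hsh K B j' z0) < pos K g B j' (hsh K B j' z) := by
          unfold pos
          have : g * hsh K B j' z0 < g * hsh K B j' z :=
            Nat.mul_lt_mul_of_pos_left hlt (by omega)
          omega
        rw [pow_mul_half _ _ hposlt]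
        have hsub : pos K g B j' (hsh K B j' z) - pos K g B j' (hsh K B j' z0) =
            g * (hsh K B j' z - hsh K B j' z0) := by
          unfold pos
          rw [Nat.mul_sub]
          omega
        rw [hsub]
        push_cast
        ring
    · rw [if_neg hle]
      have hlt : hsh K B j' z < hsh K B j' z0 := not_le.mp hle
      have hposlt : pos K g B j' (hsh K B j' z) + 1 ≤ pos K g B j' (hsh K B j' z0) := by
        unfold pos
        have : g * hsh K B j' z + g ≤ g * hsh K B j' z0 := by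
          rw [← Nat.mul_succ]
          exact Nat.mul_le_mul_left _ hlt
        omega
      obtain ⟨w, hw⟩ := isI_pow_mul _ _ hposlt
      refine ⟨w, ?_⟩
      rw [hw]
      ring
  · -- j < j'
    have h1 := pos_gap K g B j j' (hsh K B j z0) (hsh K B j' z) h (hsh_lt K B j z0 hB)
    have hgB : 1 ≤ g * B := Nat.mul_pos hg hB
    refine ⟨0, ?_⟩
    rw [if_neg (by omega), if_pos h, pow_mul_half _ _ (by omega)]
    push_cast
    ring

/-- The bound on positions. -/
theorem pos_le (K g B j v : ℕ) (hg : 1 ≤ g) (hv : v < B) :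
    pos K g B j v + 1 ≤ K + 4 + (j + 1) * (2 * g * B) := by
  unfold pos
  have h1 : g * v + 1 ≤ g * B := by
    calc g * v + 1 ≤ g * v + g := by omega
      _ = g * (v + 1) := by ring
      _ ≤ g * B := Nat.mul_le_mul_left _ hv
  have h3 : (j + 1) * (2 * g * B) = j * (2 * g * B) + 2 * (g * B) := by ring
  omega

theorem pos_lt_nTop (K g B j v : ℕ) (hg : 1 ≤ g) (hv : v < B) (hj : j < K) :
    pos K g B j v + 1 ≤ nTop K g B := by
  have h := pos_le K g B j v hg hv
  unfold nTop
  have : (j + 1) * (2 * g * B) ≤ K * (2 * g * B) := Nat.mul_le_mul_right _ hj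
  omega

theorem sum_same_split (K g B z z0 : ℕ) (hz : z < 2 ^ K) (hz0 : z0 < 2 ^ K) :
    ∑ j ∈ (range K).filter (fun j => bit K j z = 1 ∧ bit K j z0 = 0), sameTerm K g B j z z0 =
      (if z0 < z then 1 / 2 else 0) +
        ∑ j ∈ (range K).filter (fun j => bit K j z = 1 ∧ bit K j z0 = 0 ∧ pre K j z ≠ pre K j z0),
          sameTerm K g B j z z0 := by
  classical
  have hsplit := Finset.sum_filter_add_sum_filter_not
    ((range K).filter (fun j => bit K j z = 1 ∧ bit K j z0 = 0))
    (fun j => pre K j z = pre K j z0) (fun j => sameTerm K g B j z z0)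
  rw [← hsplit, Finset.filter_filter, Finset.filter_filter]
  have h1 : (range K).filter (fun j => (bit K j z = 1 ∧ bit K j z0 = 0) ∧ pre K j z = pre K j z0) =
      (range K).filter (fun j => bit K j z = 1 ∧ bit K j z0 = 0 ∧ pre K j z = pre K j z0) := by
    ext j; simp [and_assoc]
  have h2 : (range K).filter (fun j => (bit K j z = 1 ∧ bit K j z0 = 0) ∧ ¬ pre K j z = pre K j z0) =
      (range K).filter (fun j => bit K j z = 1 ∧ bit K j z0 = 0 ∧ pre K j z ≠ pre K j z0) := by
    ext j; simp [and_assoc]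
  rw [h1, h2]
  congr 1
  have hterm : ∀ j ∈ (range K).filter
      (fun j => bit K j z = 1 ∧ bit K j z0 = 0 ∧ pre K j z = pre K j z0),
      sameTerm K g B j z z0 = 1 / 2 := by
    intro j hj
    have hp := (Finset.mem_filter.mp hj).2.2.2
    unfold sameTerm hsh
    rw [hp, if_pos le_rfl]
    simp
  rw [Finset.sum_congr rfl hterm, Finset.sum_const, count_true K z z0 hz hz0]
  split_ifs <;> simp

/-- Phase decomposition. -/
theorem phase_decomp (K g B z z0 : ℕ) (hg : 1 ≤ g) (hB : 1 ≤ B) (hz : z < 2 ^ K) (hz0 : z0 < 2 ^ K) :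
    ∃ w : ℤ, (freqN K g B z0 : ℝ) * ptY K g B z =
      (w : ℝ) + (if z0 < z then 1 / 2 else 0) + rest K g B z z0 := by
  classical
  set F0 := (range K).filter (fun j => bit K j z0 = 0) with hF0
  set F1 := (range K).filter (fun j => bit K j z = 1) with hF1
  set om : ℝ := (1 / 2 : ℝ) ^ (K + 2) with hom
  -- the integer pieces
  have hi1 : IsI ((2 : ℝ) ^ nTop K g B * ((z : ℝ) * om)) := by
    obtain ⟨w, hw⟩ := isI_pow_mul (nTop K g B) (K + 2) (by unfold nTop; omega)
    refine ⟨w * z, ?_⟩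
    push_cast
    rw [← hw]
    ring
  have hi2 : IsI ((2 : ℝ) ^ nTop K g B *
      ∑ j' ∈ F1, (1 / 2 : ℝ) ^ (pos K g B j' (hsh K B j' z) + 1)) := by
    rw [Finset.mul_sum]
    refine isI_sum _ _ fun j' hj' => ?_
    exact isI_pow_mul _ _ (pos_lt_nTop K g B j' _ hg (hsh_lt K B j' z hB)
      (Finset.mem_range.mp (Finset.mem_filter.mp hj').1))
  have hi3 : IsI ((∑ j ∈ F0, (2 : ℝ) ^ pos K g B j (hsh K B j z0)) * ((z : ℝ) * om)) := by
    rw [Finset.sum_mul]
    refine isI_sum _ _ fun j _ => ?_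
    obtain ⟨w, hw⟩ := isI_pow_mul (pos K g B j (hsh K B j z0)) (K + 2)
      (by unfold pos; omega)
    refine ⟨w * z, ?_⟩
    push_cast
    rw [← hw]
    ring
  -- the product of the digit parts
  have hterm : ∀ j ∈ F0, ∀ j' ∈ F1, ∃ w : ℤ, (2 : ℝ) ^ pos K g B j (hsh K B j z0) *
        (1 / 2 : ℝ) ^ (pos K g B j' (hsh K B j' z) + 1) =
      (w : ℝ) + (if j' = j then sameTerm K g B j z z0 else 0) +
        (if j < j' then
          (1 / 2 : ℝ) ^ (pos K g B j' (hsh K B j' z) - pos K g B j (hsh K B j z0) + 1) else 0) := by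
    intro j hj j' hj'
    exact term_decomp K g B z z0 j j' hg hB (Finset.mem_range.mp (Finset.mem_filter.mp hj).1)
      (Finset.mem_range.mp (Finset.mem_filter.mp hj').1)
  choose! W hW using hterm
  have hprod : (∑ j ∈ F0, (2 : ℝ) ^ pos K g B j (hsh K B j z0)) *
      (∑ j' ∈ F1, (1 / 2 : ℝ) ^ (pos K g B j' (hsh K B j' z) + 1)) =
      (∑ j ∈ F0, ∑ j' ∈ F1, (W j j' : ℝ)) +
        ∑ j ∈ F0, ∑ j' ∈ F1, (if j' = j then sameTerm K g B j z z0 else 0) +
        ∑ j ∈ F0, ∑ j' ∈ F1, (if j < j' then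
          (1 / 2 : ℝ) ^ (pos K g B j' (hsh K B j' z) - pos K g B j (hsh K B j z0) + 1) else 0) := by
    rw [Finset.sum_mul_sum, ← Finset.sum_add_distrib, ← Finset.sum_add_distrib]
    refine Finset.sum_congr rfl fun j hj => ?_
    rw [← Finset.sum_add_distrib, ← Finset.sum_add_distrib]
    refine Finset.sum_congr rfl fun j' hj' => ?_
    exact hW j hj j' hj'
  have hi4 : IsI (∑ j ∈ F0, ∑ j' ∈ F1, (W j j' : ℝ)) :=
    isI_sum _ _ fun j _ => isI_sum _ _ fun j' _ => ⟨W j j', rfl⟩
  have hsame : ∑ j ∈ F0, ∑ j' ∈ F1, (if j' = j then sameTerm K g B j z z0 else 0) =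
      ∑ j ∈ (range K).filter (fun j => bit K j z = 1 ∧ bit K j z0 = 0),
        sameTerm K g B j z z0 := by
    have h1 : ∀ j ∈ F0, ∑ j' ∈ F1, (if j' = j then sameTerm K g B j z z0 else 0) =
        if bit K j z = 1 then sameTerm K g B j z z0 else 0 := by
      intro j hj
      rw [Finset.sum_ite_eq' F1 j (fun _ => sameTerm K g B j z z0)]
      have hjK := (Finset.mem_filter.mp hj).1
      by_cases hb : bit K j z = 1
      · have hm : j ∈ F1 := Finset.mem_filter.mpr ⟨hjK, hb⟩
        rw [if_pos hm, if_pos hb]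
      · have hn : j ∉ F1 := fun h => hb (Finset.mem_filter.mp h).2
        rw [if_neg hn, if_neg hb]
    rw [Finset.sum_congr rfl h1, ← Finset.sum_filter, hF0, Finset.filter_filter]
    refine Finset.sum_congr ?_ fun _ _ => rfl
    ext j
    simp [and_comm]
  have hcross : ∑ j ∈ F0, ∑ j' ∈ F1, (if j < j' then
      (1 / 2 : ℝ) ^ (pos K g B j' (hsh K B j' z) - pos K g B j (hsh K B j z0) + 1) else 0) =
      crossTerm K g B z z0 := by
    unfold crossTerm
    refine Finset.sum_congr rfl fun j _ => ?_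
    rw [← Finset.sum_filter, hF1, Finset.filter_filter]
  -- assemble
  have hI := (((hi1.add hi2).add hi3).add hi4)
  obtain ⟨w, hw⟩ := hI
  refine ⟨w, ?_⟩
  have hN : (freqN K g B z0 : ℝ) = (2 : ℝ) ^ nTop K g B +
      ∑ j ∈ F0, (2 : ℝ) ^ pos K g B j (hsh K B j z0) := by
    unfold freqN
    push_cast
    rfl
  have hY : ptY K g B z = (z : ℝ) * om +
      ∑ j' ∈ F1, (1 / 2 : ℝ) ^ (pos K g B j' (hsh K B j' z) + 1) := rfl
  rw [hN, hY, add_mul, mul_add, mul_add, hprod, hsame, hcross, sum_same_split K g B z z0 hz hz0]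
  unfold rest
  rw [← hw]
  ring

theorem ptY_lower (K g B z : ℕ) : (z : ℝ) * (1 / 2) ^ (K + 2) ≤ ptY K g B z := by
  unfold ptY
  have : 0 ≤ ∑ j ∈ (range K).filter (fun j => bit K j z = 1),
      (1 / 2 : ℝ) ^ (pos K g B j (hsh K B j z) + 1) :=
    Finset.sum_nonneg fun _ _ => by positivity
  linarith

theorem geom_half_lt (K a : ℕ) :
    ∑ j ∈ range K, (1 / 2 : ℝ) ^ (a + 1 + j) < (1 / 2 : ℝ) ^ a := by
  have h : ∑ j ∈ range K, (1 / 2 : ℝ) ^ (a + 1 + j) =
      (1 / 2 : ℝ) ^ a * (1 - (1 / 2 : ℝ) ^ K) := by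
    induction K with
    | zero => simp
    | succ n ih =>
      rw [Finset.sum_range_succ, ih, pow_add, pow_add, pow_succ]
      ring
  rw [h]
  have h1 : (0 : ℝ) < (1 / 2 : ℝ) ^ a := by positivity
  have h2 : (0 : ℝ) < (1 / 2 : ℝ) ^ K := by positivity
  nlinarith

theorem ptY_upper (K g B z : ℕ) (hg : 1 ≤ g) (hB : 1 ≤ B) :
    ptY K g B z < (z : ℝ) * (1 / 2) ^ (K + 2) + (1 / 2) ^ (K + 4) := by
  unfold ptY
  have h1 : ∑ j ∈ (range K).filter (fun j => bit K j z = 1),
      (1 / 2 : ℝ) ^ (pos K g B j (hsh K B j z) + 1) ≤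
      ∑ j ∈ range K, (1 / 2 : ℝ) ^ (K + 4 + 1 + j) := by
    refine (Finset.sum_le_sum (f := fun j => (1 / 2 : ℝ) ^ (pos K g B j (hsh K B j z) + 1))
      (g := fun j => (1 / 2 : ℝ) ^ (K + 4 + 1 + j)) ?_).trans
      (Finset.sum_le_sum_of_subset_of_nonneg (Finset.filter_subset _ _)
        (fun _ _ _ => by positivity))
    intro j _
    apply pow_le_pow_of_le_one (by norm_num) (by norm_num)
    unfold pos
    have : j * 1 ≤ j * (2 * g * B) := Nat.mul_le_mul_left _ (by
      have : 1 ≤ g * B := Nat.mul_pos hg hB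
      nlinarith)
    omega
  have h2 := geom_half_lt K (K + 4)
  linarith

theorem sum_pow_le (D m : ℕ) (hD : 1 ≤ D) :
    ∑ j ∈ range m, 2 ^ ((j + 1) * D) ≤ 2 ^ (m * D + 1) := by
  induction m with
  | zero => simp
  | succ n ih =>
    rw [Finset.sum_range_succ]
    have h1 : n * D + 1 ≤ (n + 1) * D := by nlinarith
    have h2 : (2 : ℕ) ^ (n * D + 1) ≤ 2 ^ ((n + 1) * D) := Nat.pow_le_pow_right (by norm_num) h1
    have h3 : (2 : ℕ) ^ ((n + 1) * D + 1) = 2 * 2 ^ ((n + 1) * D) := by
      rw [pow_succ]; ring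
    omega

theorem freqN_le (K g B z0 : ℕ) (hg : 1 ≤ g) (hB : 1 ≤ B) :
    1 ≤ freqN K g B z0 ∧ freqN K g B z0 ≤ 2 ^ (nTop K g B + 1) := by
  constructor
  · unfold freqN
    have : 1 ≤ 2 ^ nTop K g B := Nat.one_le_two_pow
    omega
  · unfold freqN
    have hD : 1 ≤ 2 * g * B := by
      have : 1 ≤ g * B := Nat.mul_pos hg hB
      nlinarith
    have h1 : ∑ j ∈ (range K).filter (fun j => bit K j z0 = 0), 2 ^ pos K g B j (hsh K B j z0) ≤
        ∑ j ∈ range K, 2 ^ (K + 3) * 2 ^ ((j + 1) * (2 * g * B)) := by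
      refine (Finset.sum_le_sum (f := fun j => 2 ^ pos K g B j (hsh K B j z0))
        (g := fun j => 2 ^ (K + 3) * 2 ^ ((j + 1) * (2 * g * B))) ?_).trans
        (Finset.sum_le_sum_of_subset_of_nonneg (Finset.filter_subset _ _)
          (fun _ _ _ => Nat.zero_le _))
      intro j _
      rw [← pow_add]
      apply Nat.pow_le_pow_right (by norm_num)
      have := pos_le K g B j (hsh K B j z0) hg (hsh_lt K B j z0 hB)
      omega
    have h2 : ∑ j ∈ range K, 2 ^ (K + 3) * 2 ^ ((j + 1) * (2 * g * B)) ≤ 2 ^ nTop K g B := by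
      rw [← Finset.mul_sum]
      calc 2 ^ (K + 3) * ∑ j ∈ range K, 2 ^ ((j + 1) * (2 * g * B))
          ≤ 2 ^ (K + 3) * 2 ^ (K * (2 * g * B) + 1) :=
            Nat.mul_le_mul_left _ (sum_pow_le _ _ hD)
        _ = 2 ^ nTop K g B := by
            rw [← pow_add]
            unfold nTop
            congr 1
            omega
    have h3 : (2 : ℕ) ^ (nTop K g B + 1) = 2 * 2 ^ nTop K g B := by
      rw [pow_succ]; ring
    omega

end Vale.Agent.Lib.P091
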