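import Vale.Agent.Lib.P091.Weighted
import Vale.Agent.Lib.P091.Basic

namespace Vale.Agent.Lib.P091

open Finset Real

/-- The cotangent used in this file. -/
noncomputable def cotR (u : ℝ) : ℝ := Real.cos (π * u) / Real.sin (π * u)

theorem cotR_neg (u : ℝ) : cotR (-u) = - cotR u := by
  unfold cotR
  rw [mul_neg, Real.cos_neg, Real.sin_neg, div_neg]

theorem one_sub_le_cos {t : ℝ} (ht : 0 ≤ t) : 1 - t ≤ Real.cos t := by
  by_cases h : t ≤ 2
  · have := Real.one_sub_sq_div_two_le_cos (x := t)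
    nlinarith
  · have := Real.neg_one_le_cos t
    push Not at h
    linarith

theorem sin_pi_pos {u : ℝ} (h0 : 0 < u) (h1 : u < 1 / 4) : 0 < Real.sin (π * u) := by
  apply Real.sin_pos_of_pos_of_lt_pi
  · positivity
  · have := Real.pi_pos
    nlinarith

theorem sin_pi_lower {u : ℝ} (h0 : 0 < u) (h1 : u < 1 / 4) : 2 * u ≤ Real.sin (π * u) := by
  have hpi := Real.pi_pos
  have h2 : π * u ≤ π / 2 := by nlinarith
  have h3 := Real.mul_le_sin (x := π * u) (by positivity) h2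
  have h4 : 2 / π * (π * u) = 2 * u := by
    field_simp
  linarith

theorem cotR_upper {u : ℝ} (h0 : 0 < u) (h1 : u < 1 / 4) : cotR u ≤ 1 / (2 * u) := by
  unfold cotR
  have hs := sin_pi_pos h0 h1
  have hl := sin_pi_lower h0 h1
  have hc : Real.cos (π * u) ≤ 1 := Real.cos_le_one _
  calc Real.cos (π * u) / Real.sin (π * u) ≤ 1 / Real.sin (π * u) := by gcongr
    _ ≤ 1 / (2 * u) := by gcongr

theorem cos_pi_lower {u : ℝ} (h0 : 0 < u) (h1 : u < 1 / 4) : 1 / 2 ≤ Real.cos (π * u) := by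
  have hpi := Real.pi_pos
  have h2 := Real.one_sub_sq_div_two_le_cos (x := π * u)
  have hpi2 : π < 4 := Real.pi_lt_four
  have h3 : π * u < 1 := by nlinarith
  have h4 : 0 < π * u := by positivity
  nlinarith

theorem cotR_lower {u : ℝ} (h0 : 0 < u) (h1 : u < 1 / 4) : 1 / (8 * u) ≤ cotR u := by
  unfold cotR
  have hs := sin_pi_pos h0 h1
  have hc := cos_pi_lower h0 h1
  have hsu : Real.sin (π * u) ≤ π * u := Real.sin_le (by positivity)
  have hpi2 : π < 4 := Real.pi_lt_four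
  rw [div_le_div_iff₀ (by positivity) hs]
  nlinarith [Real.pi_pos]

theorem cotR_pos {u : ℝ} (h0 : 0 < u) (h1 : u < 1 / 4) : 0 < cotR u := by
  have := cotR_lower h0 h1
  have h2 : 0 < 1 / (8 * u) := by positivity
  linarith

/-- The identity between the Cauchy kernel and the cotangent. -/
theorem inv_e_sub_one (u : ℝ) (hs : Real.sin (π * u) ≠ 0) :
    (e u - 1)⁻¹ = -(1 / 2 : ℂ) - (Complex.I / 2) * (cotR u : ℂ) := by
  have hs' : ((Real.sin (π * u) : ℝ) : ℂ) ≠ 0 := by exact_mod_cast hs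
  have h4 := Real.sin_sq_add_cos_sq (π * u)
  have h5 : ((Real.sin (π * u) : ℝ) : ℂ) ^ 2 + ((Real.cos (π * u) : ℝ) : ℂ) ^ 2 = 1 := by
    exact_mod_cast h4
  have hcot : ((cotR u : ℝ) : ℂ) = ((Real.cos (π * u) : ℝ) : ℂ) / ((Real.sin (π * u) : ℝ) : ℂ) := by
    unfold cotR
    push_cast
    rfl
  have key : e u - 1 = 2 * Complex.I * ((Real.sin (π * u) : ℝ) : ℂ) *
      (((Real.cos (π * u) : ℝ) : ℂ) + ((Real.sin (π * u) : ℝ) : ℂ) * Complex.I) := by
    rw [e_eq_cos_add_sin]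
    have h2 : 2 * π * u = 2 * (π * u) := by ring
    rw [h2, Real.cos_two_mul, Real.sin_two_mul]
    generalize Real.sin (π * u) = s at *
    generalize Real.cos (π * u) = c at *
    push_cast
    have hI : Complex.I ^ 2 = -1 := Complex.I_sq
    linear_combination (2 : ℂ) * h5 + (-2 : ℂ) * (s : ℂ) ^ 2 * hI
  rw [hcot, key]
  generalize Real.sin (π * u) = s at *
  generalize Real.cos (π * u) = c at *
  apply inv_eq_of_mul_eq_one_left
  have hI : Complex.I ^ 2 = -1 := Complex.I_sq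
  have h6 : ((c : ℂ) / (s : ℂ)) * (s : ℂ) = c := div_mul_cancel₀ _ hs'
  have h7 : (-(1 / 2 : ℂ) - (Complex.I / 2) * ((c : ℂ) / (s : ℂ))) * (2 * Complex.I * (s : ℂ) * ((c : ℂ) + (s : ℂ) * Complex.I)) =
      -Complex.I * (s : ℂ) * ((c : ℂ) + (s : ℂ) * Complex.I) - Complex.I ^ 2 * (((c : ℂ) / (s : ℂ)) * (s : ℂ)) * ((c : ℂ) + (s : ℂ) * Complex.I) := by
    ring
  rw [h7, h6]
  linear_combination h5 - ((s : ℂ) ^ 2 + (c : ℂ) ^ 2 + Complex.I * (s : ℂ) * (c : ℂ)) * hI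

/-- The harmonic lower bound on the longer side of z0. -/
theorem harmonic_side (K z0 : ℕ) (hK : 4 ≤ K) (hz0 : z0 < 2 ^ K) :
    (K : ℝ) / 2 ≤ ∑ z ∈ (range (2 ^ K)).erase z0, 1 / |(z : ℝ) - z0| := by
  obtain ⟨K', rfl⟩ : ∃ K', K = K' + 1 := ⟨K - 1, by omega⟩
  -- harmonic sum up to 2^K'
  have hH : ((K' + 1 : ℕ) : ℝ) / 2 ≤ ∑ s ∈ range (2 ^ K'), 1 / ((s : ℝ) + 1) := by
    have h1 := log_add_one_le_harmonic (2 ^ K')
    have h2 : ((harmonic (2 ^ K') : ℚ) : ℝ) = ∑ s ∈ range (2 ^ K'), 1 / ((s : ℝ) + 1) := by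
      unfold harmonic
      push_cast
      simp [one_div]
    rw [h2] at h1
    have h3 : (K' : ℝ) * Real.log 2 ≤ Real.log ((2 ^ K' + 1 : ℕ) : ℝ) := by
      have : Real.log ((2:ℝ) ^ K') = (K' : ℝ) * Real.log 2 := by rw [Real.log_pow]
      rw [← this]
      apply Real.log_le_log (by positivity)
      push_cast
      linarith
    have h4 := Real.log_two_gt_d9
    have hK'3 : (3 : ℝ) ≤ K' := by
      have : 3 ≤ K' := by omega
      exact_mod_cast this
    push_cast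
    nlinarith
  refine le_trans hH ?_
  -- an injection of the harmonic range into the longer side
  by_cases hside : 2 ^ K' ≤ z0
  · -- left side: z = z0 - 1 - s
    have : ∑ s ∈ range (2 ^ K'), 1 / ((s : ℝ) + 1) =
        ∑ z ∈ (range (2 ^ K')).image (fun s => z0 - 1 - s), 1 / |(z : ℝ) - z0| := by
      rw [sum_image]
      · apply sum_congr rfl
        intro s hs
        have hs' := mem_range.mp hs
        have h1 : ((z0 - 1 - s : ℕ) : ℝ) = (z0 : ℝ) - 1 - s := by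
          rw [Nat.sub_sub, Nat.cast_sub (by omega)]
          push_cast
          ring
        rw [h1]
        have h2 : (z0 : ℝ) - 1 - s - z0 = -((s : ℝ) + 1) := by ring
        rw [h2, abs_neg, abs_of_pos (by positivity)]
      · intro a ha b hb hab
        have ha' := mem_range.mp (mem_coe.mp ha)
        have hb' := mem_range.mp (mem_coe.mp hb)
        simp only at hab
        omega
    rw [this]
    apply sum_le_sum_of_subset_of_nonneg
    · intro z hz
      obtain ⟨s, hs, rfl⟩ := mem_image.mp hz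
      have hs' := mem_range.mp hs
      apply mem_erase.mpr
      constructor
      · omega
      · apply mem_range.mpr
        omega
    · intro z _ _
      positivity
  · -- right side: z = z0 + 1 + s
    push Not at hside
    have : ∑ s ∈ range (2 ^ K'), 1 / ((s : ℝ) + 1) =
        ∑ z ∈ (range (2 ^ K')).image (fun s => z0 + 1 + s), 1 / |(z : ℝ) - z0| := by
      rw [sum_image]
      · apply sum_congr rfl
        intro s hs
        push_cast
        have h2 : (z0 : ℝ) + 1 + s - z0 = (s : ℝ) + 1 := by ring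
        rw [h2, abs_of_pos (by positivity)]
      · intro a ha b hb hab
        simp only at hab
        omega
    rw [this]
    apply sum_le_sum_of_subset_of_nonneg
    · intro z hz
      obtain ⟨s, hs, rfl⟩ := mem_image.mp hz
      have hs' := mem_range.mp hs
      apply mem_erase.mpr
      constructor
      · omega
      · apply mem_range.mpr
        rw [pow_succ]
        omega
    · intro z _ _
      positivity

/-- Location of the differences, to the right of z0. -/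
theorem loc_right (K g B z z0 : ℕ) (hg : 1 ≤ g) (hB : 1 ≤ B) (hz : z < 2 ^ K) (h : z0 < z) (x : ℝ)
    (hx1 : ((z0 : ℝ) + 1 / 2) * (1 / 2) ^ (K + 2) ≤ x)
    (hx2 : x < ((z0 : ℝ) + 3 / 4) * (1 / 2) ^ (K + 2)) :
    0 < ptY K g B z - x ∧
      ((z : ℝ) - z0) * (1 / 2) ^ (K + 2) / 4 ≤ ptY K g B z - x ∧
      ptY K g B z - x ≤ 2 * ((z : ℝ) - z0) * (1 / 2) ^ (K + 2) ∧
      ptY K g B z - x < 1 / 4 := by
  have h1 := ptY_lower K g B z
  have h2 := ptY_upper K g B z hg hB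
  have h3 : ((1 / 2 : ℝ)) ^ (K + 4) = (1 / 2) ^ (K + 2) / 4 := by ring
  rw [h3] at h2
  have h4 : (2 : ℝ) ^ K * (1 / 2) ^ (K + 2) = 1 / 4 := by
    rw [pow_add, ← mul_assoc, ← mul_pow]
    norm_num
  have h5 : (z : ℝ) + 1 ≤ 2 ^ K := by exact_mod_cast hz
  have h6 : (z0 : ℝ) + 1 ≤ z := by exact_mod_cast h
  have h7 : (0 : ℝ) ≤ z0 := by positivity
  generalize ptY K g B z = y at *
  generalize ((1 / 2 : ℝ)) ^ (K + 2) = w at *
  have hw : 0 < w := by
    by_contra hw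
    push Not at hw
    have : (2 : ℝ) ^ K * w ≤ 0 := mul_nonpos_of_nonneg_of_nonpos (by positivity) hw
    linarith
  have h8 : w ≤ ((z : ℝ) - z0) * w := by nlinarith
  have h9 : (z : ℝ) * w + w ≤ 2 ^ K * w := by nlinarith
  refine ⟨?_, ?_, ?_, ?_⟩
  · nlinarith
  · nlinarith
  · nlinarith
  · nlinarith

/-- Location of the differences, to the left of z0. -/
theorem loc_left (K g B z z0 : ℕ) (hg : 1 ≤ g) (hB : 1 ≤ B) (hz0 : z0 < 2 ^ K) (h : z < z0) (x : ℝ)
    (hx1 : ((z0 : ℝ) + 1 / 2) * (1 / 2) ^ (K + 2) ≤ x)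
    (hx2 : x < ((z0 : ℝ) + 3 / 4) * (1 / 2) ^ (K + 2)) :
    0 < x - ptY K g B z ∧
      ((z0 : ℝ) - z) * (1 / 2) ^ (K + 2) / 4 ≤ x - ptY K g B z ∧
      x - ptY K g B z ≤ 2 * ((z0 : ℝ) - z) * (1 / 2) ^ (K + 2) ∧
      x - ptY K g B z < 1 / 4 := by
  have h1 := ptY_lower K g B z
  have h2 := ptY_upper K g B z hg hB
  have h3 : ((1 / 2 : ℝ)) ^ (K + 4) = (1 / 2) ^ (K + 2) / 4 := by ring
  rw [h3] at h2
  have h4 : (2 : ℝ) ^ K * (1 / 2) ^ (K + 2) = 1 / 4 := by
    rw [pow_add, ← mul_assoc, ← mul_pow]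
    norm_num
  have h5 : (z0 : ℝ) + 1 ≤ 2 ^ K := by exact_mod_cast hz0
  have h6 : (z : ℝ) + 1 ≤ z0 := by exact_mod_cast h
  have h7 : (0 : ℝ) ≤ z := by positivity
  generalize ptY K g B z = y at *
  generalize ((1 / 2 : ℝ)) ^ (K + 2) = w at *
  have hw : 0 < w := by
    by_contra hw
    push Not at hw
    have : (2 : ℝ) ^ K * w ≤ 0 := mul_nonpos_of_nonneg_of_nonpos (by positivity) hw
    linarith
  have h8 : w ≤ ((z0 : ℝ) - z) * w := by nlinarith
  have h9 : (z0 : ℝ) * w + w ≤ 2 ^ K * w := by nlinarith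
  have h10 : 0 ≤ (z : ℝ) * w := by positivity
  refine ⟨?_, ?_, ?_, ?_⟩
  · nlinarith
  · nlinarith
  · nlinarith
  · nlinarith

/-- Location of the difference at z0. -/
theorem loc_self (K g B z0 : ℕ) (hg : 1 ≤ g) (hB : 1 ≤ B) (x : ℝ)
    (hx1 : ((z0 : ℝ) + 1 / 2) * (1 / 2) ^ (K + 2) ≤ x)
    (hx2 : x < ((z0 : ℝ) + 3 / 4) * (1 / 2) ^ (K + 2)) :
    0 < x - ptY K g B z0 ∧ x - ptY K g B z0 < 1 / 4 := by
  have h1 := ptY_lower K g B z0
  have h2 := ptY_upper K g B z0 hg hB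
  have h3 : ((1 / 2 : ℝ)) ^ (K + 4) = (1 / 2) ^ (K + 2) / 4 := by ring
  rw [h3] at h2
  have hw : (0 : ℝ) < (1 / 2) ^ (K + 2) := by positivity
  have hw1 : ((1 / 2 : ℝ)) ^ (K + 2) ≤ 1 / 4 := by
    rw [pow_add]
    have : ((1 / 2 : ℝ)) ^ K ≤ 1 := pow_le_one₀ (by norm_num) (by norm_num)
    nlinarith
  generalize ptY K g B z0 = y at *
  generalize ((1 / 2 : ℝ)) ^ (K + 2) = w at *
  constructor
  · nlinarith
  · nlinarith

/-- The phase at z against the frequency of z0. -/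
theorem phase_e (K g B z z0 : ℕ) (hg : 1 ≤ g) (hB : 1 ≤ B) (hz : z < 2 ^ K) (hz0 : z0 < 2 ^ K) :
    e (-((freqN K g B z0 : ℝ) * ptY K g B z)) =
      (if z0 < z then -1 else 1) * e (-(rest K g B z z0)) := by
  obtain ⟨w, hw⟩ := phase_decomp K g B z z0 hg hB hz hz0
  rw [hw]
  have h1 : -((w : ℝ) + (if z0 < z then 1 / 2 else 0) + rest K g B z z0) =
      ((-w : ℤ) : ℝ) + (-(if z0 < z then (1 / 2 : ℝ) else 0)) + (-(rest K g B z z0)) := by
    push_cast
    ring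
  rw [h1, e_add, e_add, e_int, one_mul]
  congr 1
  split_ifs
  · rw [e_neg, e_half]
    norm_num
  · simp [e_zero]

theorem re_e_neg (r : ℝ) : (e (-r)).re = Real.cos (2 * π * r) := by
  rw [e_eq_cos_add_sin]
  simp only [Complex.add_re, Complex.ofReal_re, Complex.mul_re, Complex.I_re, Complex.ofReal_im,
    Complex.I_im]
  have : 2 * π * -r = -(2 * π * r) := by ring
  rw [this, Real.cos_neg]
  ring

/-- The real part of one term: the signs cooperate. -/
theorem term_re (K g B z z0 : ℕ) (hg : 1 ≤ g) (hB : 1 ≤ B) (hz : z < 2 ^ K) (hz0 : z0 < 2 ^ K)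
    (x : ℝ) :
    ((e (-((freqN K g B z0 : ℝ) * ptY K g B z))) * ((cotR (x - ptY K g B z) : ℝ) : ℂ)).re =
      (if z0 < z then - cotR (x - ptY K g B z) else cotR (x - ptY K g B z)) *
        Real.cos (2 * π * rest K g B z z0) := by
  rw [phase_e K g B z z0 hg hB hz hz0]
  rw [Complex.re_mul_ofReal]
  split_ifs
  · simp only [neg_mul, one_mul, Complex.neg_re, re_e_neg]
    ring
  · simp only [one_mul, re_e_neg]
    ring

/-- The lower bound for a term with z different from z0. -/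
theorem term_lower (P w a s r : ℝ) (hP : 0 < P) (hw : w = P / 4) (hs : 0 < s) (hr : 0 ≤ r)
    (ha0 : 0 < a) (ha1 : a < 1 / 4) (h1 : s * w / 4 ≤ a) (h2 : a ≤ 2 * s * w) :
    1 / 4 * (1 / s) - 51 * (r / s) ≤ P * (cotR a * Real.cos (2 * π * r)) := by
  subst hw
  have hcot := cotR_pos ha0 ha1
  have hcos : 1 - 2 * π * r ≤ Real.cos (2 * π * r) := one_sub_le_cos (by positivity)
  have hlow : 1 / 4 * (1 / s) ≤ P * cotR a := by
    have h3 := cotR_lower ha0 ha1
    have h4 : 1 / 4 * (1 / s) ≤ P * (1 / (8 * a)) := by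
      have : 1 / 4 * (1 / s) = P * (1 / (8 * (2 * s * (P / 4)))) := by
        field_simp
        ring
      rw [this]
      gcongr
    have : P * (1 / (8 * a)) ≤ P * cotR a := by gcongr
    linarith
  have hup : P * cotR a ≤ 8 * (1 / s) := by
    have h3 := cotR_upper ha0 ha1
    have h4 : P * (1 / (2 * a)) ≤ 8 * (1 / s) := by
      have : 8 * (1 / s) = P * (1 / (2 * (s * (P / 4) / 4))) := by
        field_simp
        ring
      rw [this]
      gcongr
    have : P * cotR a ≤ P * (1 / (2 * a)) := by gcongr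
    linarith
  have hpi : π < 3.15 := Real.pi_lt_d2
  have hrs : 0 ≤ r * (1 / s) := by positivity
  have e1 : r / s = r * (1 / s) := by ring
  rw [e1]
  have hmain : P * (cotR a * Real.cos (2 * π * r)) ≥ P * cotR a * (1 - 2 * π * r) := by
    have : P * cotR a * (1 - 2 * π * r) ≤ P * cotR a * Real.cos (2 * π * r) := by gcongr
    linarith
  have h5 : P * cotR a * (2 * π * r) ≤ 8 * (1 / s) * (2 * π * r) := by gcongr
  have h6 : 8 * (1 / s) * (2 * π * r) = 16 * π * (r * (1 / s)) := by ring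
  have h7 : 16 * π * (r * (1 / s)) ≤ 51 * (r * (1 / s)) := by
    have : 16 * π ≤ 51 := by linarith
    gcongr
  nlinarith

/-- The error phase of z0 against itself is tiny. -/
theorem rest_self_le (K z0 : ℕ) (hK : 100 ≤ K) (hz0 : z0 < 2 ^ K) :
    rest K 15 (40000 * K) z0 z0 ≤ 1 / 8 := by
  have h1 : rest K 15 (40000 * K) z0 z0 = crossTerm K 15 (40000 * K) z0 z0 := by
    unfold rest
    rw [filter_false_of_mem]
    · simp
    · intro j _ h
      have h2 := h.1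
      have h3 := h.2.1
      omega
  rw [h1]
  have h2 := crossTerm_le K 15 (40000 * K) z0 z0 (by norm_num) hz0 hz0 (by omega)
  refine le_trans h2 ?_
  have h3 : (K : ℝ) ≤ 2 ^ K := by exact_mod_cast Nat.lt_two_pow_self.le
  have h4 : (K : ℝ) ^ 2 ≤ (2 ^ K) ^ 2 := by gcongr
  have h5 : 15 * (40000 * K) + 1 = 2 * K + (3 + (15 * (40000 * K) - 2 * K - 2)) := by omega
  rw [h5, pow_add]
  have h6 : ((1 / 2 : ℝ)) ^ (2 * K) * (2 ^ K) ^ 2 = 1 := by
    have h61 : ((1 / 2 : ℝ)) ^ K * 2 ^ K = 1 := by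
      rw [← mul_pow]
      norm_num
    calc ((1 / 2 : ℝ)) ^ (2 * K) * (2 ^ K) ^ 2 = (((1 / 2 : ℝ)) ^ K * 2 ^ K) ^ 2 := by ring
      _ = 1 := by rw [h61, one_pow]
  have h7 : ((1 / 2 : ℝ)) ^ (3 + (15 * (40000 * K) - 2 * K - 2)) ≤ 1 / 8 := by
    rw [pow_add]
    have : ((1 / 2 : ℝ)) ^ (15 * (40000 * K) - 2 * K - 2) ≤ 1 :=
      pow_le_one₀ (by norm_num) (by norm_num)
    have h8 : (0 : ℝ) ≤ (1 / 2) ^ (15 * (40000 * K) - 2 * K - 2) := by positivity
    nlinarith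
  have h9 : (0 : ℝ) ≤ (1 / 2) ^ (2 * K) := by positivity
  have h10 : (0 : ℝ) ≤ (1 / 2) ^ (3 + (15 * (40000 * K) - 2 * K - 2)) := by positivity
  calc (K : ℝ) ^ 2 * ((1 / 2) ^ (2 * K) * (1 / 2) ^ (3 + (15 * (40000 * K) - 2 * K - 2)))
      ≤ (2 ^ K) ^ 2 * ((1 / 2) ^ (2 * K) * (1 / 2) ^ (3 + (15 * (40000 * K) - 2 * K - 2))) := by
        gcongr
    _ = ((1 / 2) ^ (2 * K) * (2 ^ K) ^ 2) * (1 / 2) ^ (3 + (15 * (40000 * K) - 2 * K - 2)) := by
        ring
    _ ≤ 1 / 8 := by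
        rw [h6]
        linarith

/-- The real part of the cotangent sum. -/
theorem re_cot_sum (K z0 : ℕ) (hK : 100 ≤ K) (hz0 : z0 < 2 ^ K) (x : ℝ)
    (hx1 : ((z0 : ℝ) + 1 / 2) * (1 / 2) ^ (K + 2) ≤ x)
    (hx2 : x < ((z0 : ℝ) + 3 / 4) * (1 / 2) ^ (K + 2)) :
    19 * (K : ℝ) / 200 ≤ ∑ z ∈ range (2 ^ K), (1 / 2 : ℝ) ^ K *
      ((e (-((freqN K 15 (40000 * K) z0 : ℝ) * ptY K 15 (40000 * K) z))) *
        ((cotR (x - ptY K 15 (40000 * K) z) : ℝ) : ℂ)).re := by
  have hB : 1 ≤ 40000 * K := by omega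
  have hg : 1 ≤ 15 := by norm_num
  have hP : (0 : ℝ) < (1 / 2) ^ K := by positivity
  have hw : ((1 / 2 : ℝ)) ^ (K + 2) = (1 / 2) ^ K / 4 := by ring
  rw [← add_sum_erase _ _ (mem_range.mpr hz0)]
  -- the term at z0
  have hself : 0 ≤ (1 / 2 : ℝ) ^ K *
      ((e (-((freqN K 15 (40000 * K) z0 : ℝ) * ptY K 15 (40000 * K) z0))) *
        ((cotR (x - ptY K 15 (40000 * K) z0) : ℝ) : ℂ)).re := by
    rw [term_re K 15 (40000 * K) z0 z0 hg hB hz0 hz0 x]
    rw [if_neg (lt_irrefl z0)]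
    obtain ⟨h1, h2⟩ := loc_self K 15 (40000 * K) z0 hg hB x hx1 hx2
    have hc := cotR_pos h1 h2
    have hr := rest_self_le K z0 hK hz0
    have hr0 := rest_nonneg K 15 (40000 * K) z0 z0
    have hcos : 0 ≤ Real.cos (2 * π * rest K 15 (40000 * K) z0 z0) := by
      apply Real.cos_nonneg_of_mem_Icc
      have := Real.pi_pos
      constructor <;> nlinarith
    positivity
  -- the other terms
  have hother : ∀ z ∈ (range (2 ^ K)).erase z0,
      1 / 4 * (1 / |(z : ℝ) - z0|) - 51 * (rest K 15 (40000 * K) z z0 / |(z : ℝ) - z0|) ≤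
      (1 / 2 : ℝ) ^ K *
      ((e (-((freqN K 15 (40000 * K) z0 : ℝ) * ptY K 15 (40000 * K) z))) *
        ((cotR (x - ptY K 15 (40000 * K) z) : ℝ) : ℂ)).re := by
    intro z hz
    have hne := (mem_erase.mp hz).1
    have hzr := mem_range.mp (mem_erase.mp hz).2
    rw [term_re K 15 (40000 * K) z z0 hg hB hzr hz0 x]
    have hr0 := rest_nonneg K 15 (40000 * K) z z0
    rcases lt_or_gt_of_ne hne with h | h
    · -- z < z0
      rw [if_neg (by omega)]
      obtain ⟨h1, h2, h3, h4⟩ := loc_left K 15 (40000 * K) z z0 hg hB hz0 h x hx1 hx2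
      have hs : (z : ℝ) < z0 := by exact_mod_cast h
      have habs : |(z : ℝ) - z0| = (z0 : ℝ) - z := by
        rw [abs_of_neg (by linarith)]
        ring
      rw [habs]
      rw [hw] at h2 h3
      exact term_lower _ _ _ _ _ hP rfl (by linarith) hr0 h1 h4 h2 h3
    · -- z0 < z
      rw [if_pos h]
      obtain ⟨h1, h2, h3, h4⟩ := loc_right K 15 (40000 * K) z z0 hg hB hzr h x hx1 hx2
      have hs : (z0 : ℝ) < z := by exact_mod_cast h
      have habs : |(z : ℝ) - z0| = (z : ℝ) - z0 := by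
        rw [abs_of_pos (by linarith)]
      rw [habs]
      rw [hw] at h2 h3
      have hcn : - cotR (x - ptY K 15 (40000 * K) z) = cotR (ptY K 15 (40000 * K) z - x) := by
        rw [← cotR_neg]
        congr 1
        ring
      rw [hcn]
      exact term_lower _ _ _ _ _ hP rfl (by linarith) hr0 h1 h4 h2 h3
  have hsum := sum_le_sum hother
  rw [sum_sub_distrib, ← mul_sum, ← mul_sum] at hsum
  have hH := harmonic_side K z0 (by omega) hz0
  have hW := weighted_rest_le_spec K z0 hK hz0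
  have hK0 : (0 : ℝ) ≤ K := by positivity
  linarith

/-- The lower bound for the kernel sum. -/
theorem kernel_lower (K z0 : ℕ) (hK : 100 ≤ K) (hz0 : z0 < 2 ^ K) (x : ℝ)
    (hx1 : ((z0 : ℝ) + 1 / 2) * (1 / 2) ^ (K + 2) ≤ x)
    (hx2 : x < ((z0 : ℝ) + 3 / 4) * (1 / 2) ^ (K + 2)) :
    3 * (K : ℝ) / 64 - 1 / 2 ≤
      ‖∑ z ∈ range (2 ^ K), (1 / 2 : ℂ) ^ K *
          (e (-((freqN K 15 (40000 * K) z0 : ℝ) * ptY K 15 (40000 * K) z)) /
            (e (x - ptY K 15 (40000 * K) z) - 1))‖ := by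
  have hB : 1 ≤ 40000 * K := by omega
  have hg : 1 ≤ 15 := by norm_num
  -- sine is nonzero everywhere
  have hsin : ∀ z ∈ range (2 ^ K), Real.sin (π * (x - ptY K 15 (40000 * K) z)) ≠ 0 := by
    intro z hz
    have hzr := mem_range.mp hz
    rcases lt_trichotomy z z0 with h | h | h
    · obtain ⟨h1, _, _, h4⟩ := loc_left K 15 (40000 * K) z z0 hg hB hz0 h x hx1 hx2
      exact (sin_pi_pos h1 h4).ne'
    · subst h
      obtain ⟨h1, h4⟩ := loc_self K 15 (40000 * K) z hg hB x hx1 hx2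
      exact (sin_pi_pos h1 h4).ne'
    · obtain ⟨h1, _, _, h4⟩ := loc_right K 15 (40000 * K) z z0 hg hB hzr h x hx1 hx2
      have h5 := sin_pi_pos h1 h4
      have h6 : Real.sin (π * (x - ptY K 15 (40000 * K) z)) =
          - Real.sin (π * (ptY K 15 (40000 * K) z - x)) := by
        rw [← Real.sin_neg]
        congr 1
        ring
      rw [h6]
      exact (neg_neg_of_pos h5).ne
  -- the abbreviations
  set E : ℕ → ℂ := fun z => e (-((freqN K 15 (40000 * K) z0 : ℝ) * ptY K 15 (40000 * K) z)) with hE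
  set ct : ℕ → ℂ := fun z => ((cotR (x - ptY K 15 (40000 * K) z) : ℝ) : ℂ) with hct
  have hdecomp : ∑ z ∈ range (2 ^ K), (1 / 2 : ℂ) ^ K *
          (e (-((freqN K 15 (40000 * K) z0 : ℝ) * ptY K 15 (40000 * K) z)) /
            (e (x - ptY K 15 (40000 * K) z) - 1)) =
      -(1 / 2 : ℂ) * (∑ z ∈ range (2 ^ K), (1 / 2 : ℂ) ^ K * E z) -
        (Complex.I / 2) * (∑ z ∈ range (2 ^ K), (1 / 2 : ℂ) ^ K * (E z * ct z)) := by
    rw [mul_sum, mul_sum, ← sum_sub_distrib]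
    apply sum_congr rfl
    intro z hz
    have h := inv_e_sub_one _ (hsin z hz)
    have h2 : e (-((freqN K 15 (40000 * K) z0 : ℝ) * ptY K 15 (40000 * K) z)) /
            (e (x - ptY K 15 (40000 * K) z) - 1) = 
        e (-((freqN K 15 (40000 * K) z0 : ℝ) * ptY K 15 (40000 * K) z)) *
            (e (x - ptY K 15 (40000 * K) z) - 1)⁻¹ := div_eq_mul_inv _ _
    rw [h2, h]
    simp only [hE, hct]
    ring
  rw [hdecomp]
  have hD : ‖∑ z ∈ range (2 ^ K), (1 / 2 : ℂ) ^ K * E z‖ ≤ 1 := by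
    calc ‖∑ z ∈ range (2 ^ K), (1 / 2 : ℂ) ^ K * E z‖
        ≤ ∑ z ∈ range (2 ^ K), ‖(1 / 2 : ℂ) ^ K * E z‖ := norm_sum_le _ _
      _ = ∑ z ∈ range (2 ^ K), (1 / 2 : ℝ) ^ K := by
          apply sum_congr rfl
          intro z _
          simp only [hE]
          rw [norm_mul, norm_e, mul_one, norm_pow]
          norm_num
      _ = 1 := by
          rw [sum_const, card_range, nsmul_eq_mul]
          push_cast
          rw [← mul_pow]
          norm_num
  have hC : 19 * (K : ℝ) / 200 ≤ ‖∑ z ∈ range (2 ^ K), (1 / 2 : ℂ) ^ K * (E z * ct z)‖ := by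
    refine le_trans ?_ (Complex.re_le_norm _)
    rw [Complex.re_sum]
    have hre : ∀ z ∈ range (2 ^ K), ((1 / 2 : ℂ) ^ K * (E z * ct z)).re =
        (1 / 2 : ℝ) ^ K * (E z * ct z).re := by
      intro z _
      have : (1 / 2 : ℂ) ^ K = (((1 / 2 : ℝ) ^ K : ℝ) : ℂ) := by
        push_cast
        rfl
      rw [this, Complex.re_ofReal_mul]
    rw [sum_congr rfl hre]
    exact re_cot_sum K z0 hK hz0 x hx1 hx2
  have htri := norm_sub_norm_le
    ((Complex.I / 2) * (∑ z ∈ range (2 ^ K), (1 / 2 : ℂ) ^ K * (E z * ct z)))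
    (-(1 / 2 : ℂ) * (∑ z ∈ range (2 ^ K), (1 / 2 : ℂ) ^ K * E z))
  have hn1 : ‖(Complex.I / 2) * (∑ z ∈ range (2 ^ K), (1 / 2 : ℂ) ^ K * (E z * ct z))‖ =
      (1 / 2) * ‖∑ z ∈ range (2 ^ K), (1 / 2 : ℂ) ^ K * (E z * ct z)‖ := by
    rw [norm_mul, norm_div, Complex.norm_I]
    norm_num
  have hn2 : ‖-(1 / 2 : ℂ) * (∑ z ∈ range (2 ^ K), (1 / 2 : ℂ) ^ K * E z)‖ =
      (1 / 2) * ‖∑ z ∈ range (2 ^ K), (1 / 2 : ℂ) ^ K * E z‖ := by
    rw [norm_mul, norm_neg, norm_div]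
    norm_num
  rw [hn1, hn2] at htri
  have hcomm : ‖-(1 / 2 : ℂ) * (∑ z ∈ range (2 ^ K), (1 / 2 : ℂ) ^ K * E z) -
      (Complex.I / 2) * (∑ z ∈ range (2 ^ K), (1 / 2 : ℂ) ^ K * (E z * ct z))‖ =
      ‖(Complex.I / 2) * (∑ z ∈ range (2 ^ K), (1 / 2 : ℂ) ^ K * (E z * ct z)) -
        -(1 / 2 : ℂ) * (∑ z ∈ range (2 ^ K), (1 / 2 : ℂ) ^ K * E z)‖ := norm_sub_rev _ _
  rw [hcomm]
  have hK0 : (0 : ℝ) ≤ K := by positivity
  linarith

end Vale.Agent.Lib.P091
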