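import Vale.Agent.Lib.P091.CircleBlock

namespace Vale.Agent.Lib.P091

open Finset Real MeasureTheory Filter Topology AddCircle

/-- The small constants of the stages. -/
noncomputable def epsStage (k : ℕ) : ℝ := (1 / 2) ^ (2 * (16 * k + 16) + k)

theorem epsStage_pos (k : ℕ) : 0 < epsStage k := by
  unfold epsStage
  positivity

/-- The translation of block i at stage parameter K. -/
noncomputable def tauOf (K s : ℕ) : ℝ := (((s / 4 : ℕ) : ℝ) / 4 + (((s % 4 : ℕ) : ℝ) - 2) * (1 / 2) ^ (K + 4))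

theorem Lsize_pos (K : ℕ) : 0 < Lsize K := by
  unfold Lsize
  positivity

/-- The logarithm bound behind the choice of constants. -/
theorem log_bound (K i : ℕ) (r : ℝ) (hr : 0 < r) (hK : 100 ≤ K) (hi : i ≤ K) (hrK : r ≤ K) :
    √(Real.log ((r / (K : ℝ)) * (Lsize K : ℝ) * 2 ^ (i + 2))) ≤ 1100 * K := by
  have hK0 : (0 : ℝ) < K := by
    have : (100 : ℝ) ≤ K := by exact_mod_cast hK
    linarith
  have hK100 : (100 : ℝ) ≤ K := by exact_mod_cast hK
  have hpos : 0 < (r / (K : ℝ)) * (Lsize K : ℝ) * 2 ^ (i + 2) := by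
    have := Lsize_pos K
    positivity
  have h100 : (r / (K : ℝ)) ≤ 1 := by
    rw [div_le_one hK0]
    exact hrK
  have hlog2 : Real.log 2 ≤ 1 := by
    have := Real.log_two_lt_d9
    linarith
  have hL : (Lsize K : ℝ) = 2 ^ (nTop K 15 (40000 * K) + 2) := by
    unfold Lsize
    push_cast
    rfl
  have hle : (r / (K : ℝ)) * (Lsize K : ℝ) * 2 ^ (i + 2) ≤ 2 ^ (nTop K 15 (40000 * K) + 2 + (i + 2)) := by
    rw [hL, pow_add (2 : ℝ) (nTop K 15 (40000 * K) + 2) (i + 2)]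
    have h2 : (0 : ℝ) < 2 ^ (nTop K 15 (40000 * K) + 2) * 2 ^ (i + 2) := by positivity
    nlinarith
  have hloglt : Real.log ((r / (K : ℝ)) * (Lsize K : ℝ) * 2 ^ (i + 2)) ≤
      ((nTop K 15 (40000 * K) + 2 + (i + 2) : ℕ) : ℝ) := by
    refine (Real.log_le_log hpos hle).trans ?_
    rw [Real.log_pow]
    have : (0 : ℝ) ≤ ((nTop K 15 (40000 * K) + 2 + (i + 2) : ℕ) : ℝ) := by positivity
    nlinarith
  have hn : ((nTop K 15 (40000 * K) + 2 + (i + 2) : ℕ) : ℝ) ≤ 1210000 * (K : ℝ) ^ 2 := by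
    unfold nTop
    push_cast
    have hi' : (i : ℝ) ≤ K := by exact_mod_cast hi
    nlinarith
  have hfin : Real.log ((r / (K : ℝ)) * (Lsize K : ℝ) * 2 ^ (i + 2)) ≤ (1100 * (K : ℝ)) ^ 2 := by
    nlinarith
  calc √(Real.log ((r / (K : ℝ)) * (Lsize K : ℝ) * 2 ^ (i + 2)))
      ≤ √((1100 * (K : ℝ)) ^ 2) := Real.sqrt_le_sqrt hfin
    _ = 1100 * K := Real.sqrt_sq (by positivity)

/-- The main theorem: for every increasing phi that is o(u sqrt(log u)) there is f in phi(L) whose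
symmetric Fourier sums are unbounded at every point. -/
theorem main_unbounded {T : ℝ} [hT : Fact (0 < T)] (φ : ℝ → ℝ)
    (hφm : MonotoneOn φ (Set.Ici 0)) (hφ0 : ∀ u, 0 ≤ u → 0 ≤ φ u)
    (hφo : Tendsto (fun u : ℝ => φ u / (u * √(Real.log u))) atTop (𝓝 0)) :
    ∃ f : AddCircle T → ℂ, Integrable f haarAddCircle ∧
      Integrable (fun x => φ ‖f x‖) haarAddCircle ∧
      ∀ (x : AddCircle T) (C : ℝ), ∃ N : ℕ,
        C < ‖∑ n ∈ Finset.Icc (-(N : ℤ)) (N : ℤ), fourierCoeff f n • fourier n x‖ := by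
  -- the thresholds
  have hu : ∀ k : ℕ, ∃ u0 : ℝ, 3 ≤ u0 ∧ ∀ u, u0 ≤ u → φ u ≤ epsStage k * (u * √(Real.log u)) := by
    intro k
    have h1 := (tendsto_order.mp hφo).2 (epsStage k) (epsStage_pos k)
    obtain ⟨u1, hu1⟩ := eventually_atTop.mp h1
    refine ⟨max 3 u1, le_max_left _ _, fun u hu => ?_⟩
    have hu3 : 3 ≤ u := (le_max_left _ _).trans hu
    have hlt := hu1 u ((le_max_right _ _).trans hu)
    have hlog : 0 < Real.log u := Real.log_pos (by linarith)
    have hden : 0 < u * √(Real.log u) := by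
      have := Real.sqrt_pos.mpr hlog
      positivity
    rw [div_lt_iff₀ hden] at hlt
    exact hlt.le
  choose u0 hu03 hu0 using hu
  -- the stage parameters
  set Kf : ℕ → ℕ := fun k => 100 * (k + 1) * 2 ^ (16 * k + 16) + ⌈φ (u0 k) / epsStage k⌉₊ with hKf
  have hpow : ∀ k : ℕ, 1 ≤ 2 ^ (16 * k + 16) := fun k => Nat.one_le_two_pow
  have hKfa : ∀ k, 100 * (k + 1) * 2 ^ (16 * k + 16) ≤ Kf k := fun k => by
    simp only [hKf]
    exact Nat.le_add_right _ _
  have hKf100 : ∀ k, 100 ≤ Kf k := fun k => by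
    refine le_trans ?_ (hKfa k)
    have := hpow k
    nlinarith
  have hKf2 : ∀ k, 2 ^ (16 * k + 16) ≤ Kf k := fun k => by
    refine le_trans ?_ (hKfa k)
    have := hpow k
    nlinarith
  have hKfr : ∀ k : ℕ, 100 * ((k : ℝ) + 1) ≤ (Kf k : ℝ) := fun k => by
    have h1 : 100 * (k + 1) ≤ Kf k := by
      refine le_trans ?_ (hKfa k)
      have := hpow k
      nlinarith
    exact_mod_cast h1
  have hKfr2 : ∀ k : ℕ, 100 * ((k : ℝ) + 1) * 2 ^ (16 * k + 16) ≤ (Kf k : ℝ) := fun k => by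
    exact_mod_cast hKfa k
  have hKfphi : ∀ k, φ (u0 k) / epsStage k ≤ (Kf k : ℝ) := fun k => by
    have h1 : φ (u0 k) / epsStage k ≤ (⌈φ (u0 k) / epsStage k⌉₊ : ℝ) := Nat.le_ceil _
    have h2 : ((⌈φ (u0 k) / epsStage k⌉₊ : ℕ) : ℝ) ≤ (Kf k : ℝ) := by
      have : ⌈φ (u0 k) / epsStage k⌉₊ ≤ Kf k := by
        simp only [hKf]
        exact Nat.le_add_left _ _
      exact_mod_cast this
    linarith
  -- stage of an index
  have hstage : ∀ i : ℕ, i + 1 ≤ 16 * (i / 16) + 16 := fun i => by omega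
  have hstage2 : ∀ i : ℕ, 2 ^ (i + 1) ≤ Kf (i / 16) := fun i =>
    (Nat.pow_le_pow_right (by norm_num) (hstage i)).trans (hKf2 _)
  have hiK : ∀ i : ℕ, i ≤ Kf (i / 16) := fun i => by
    have h1 : i + 1 < 2 ^ (i + 1) := Nat.lt_two_pow_self
    have := hstage2 i
    omega
  have hKreal : ∀ i : ℕ, (2 : ℝ) ^ (i + 1) ≤ (Kf (i / 16) : ℝ) := fun i => by
    exact_mod_cast hstage2 i
  have hKpos : ∀ i : ℕ, (0 : ℝ) < (Kf (i / 16) : ℝ) := fun i =>
    lt_of_lt_of_le (by positivity) (hKreal i)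
  have hrpos : ∀ i : ℕ, (0 : ℝ) < 100 * (((i / 16 : ℕ) : ℝ) + 1) := fun i => by positivity
  -- apply the gliding hump
  refine glide φ hφm hφ0 (fun i => blockIdx (Kf (i / 16)))
    (fun i => blockCoef (Kf (i / 16)) (tauOf (Kf (i / 16)) (i % 16)))
    (fun _ => blockOff) (fun i => Lsize (Kf (i / 16)))
    (fun i => 100 * (((i / 16 : ℕ) : ℝ) + 1) / (Kf (i / 16) : ℝ))
    (fun i => 1100 * (Kf (i / 16) : ℝ) * epsStage (i / 16))
    (fun i => Lsize_pos _) (fun i q hq => blockOff_lt _ q hq)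
    (fun i x => block_sup _ _ x) (fun i => block_int _ _)
    (fun i => div_pos (hrpos i) (hKpos i)) ?_ ?_ ?_ ?_ ?_
  · -- summability of the constants
    refine Summable.of_nonneg_of_le (fun i => (div_pos (hrpos i) (hKpos i)).le) (fun i => ?_)
      (summable_geometric_two)
    rw [div_le_iff₀ (hKpos i)]
    have h1 := hKfr2 (i / 16)
    have h2 : (2 : ℝ) ^ i ≤ 2 ^ (16 * (i / 16) + 16) :=
      pow_le_pow_right₀ (by norm_num) (by omega)
    have h3 : (1 / 2 : ℝ) ^ i * 2 ^ i = 1 := by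
      rw [← mul_pow]
      norm_num
    have h4 : (0 : ℝ) ≤ (1 / 2 : ℝ) ^ i := by positivity
    have h5 := hrpos i
    have h6 : 100 * (((i / 16 : ℕ) : ℝ) + 1) * 2 ^ i ≤ (Kf (i / 16) : ℝ) :=
      le_trans (mul_le_mul_of_nonneg_left h2 h5.le) h1
    have h7 := mul_le_mul_of_nonneg_left h6 h4
    nlinarith
  · -- the bound on phi
    intro i v hv1 hv2
    set K := Kf (i / 16) with hK
    have hK100 := hKf100 (i / 16)
    have hK100r : (100 : ℝ) ≤ (K : ℝ) := by exact_mod_cast hK100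
    have hε := epsStage_pos (i / 16)
    have hvpos : 0 < v := by linarith
    have hφv : 0 ≤ φ (u0 (i / 16)) := hφ0 _ (by linarith [hu03 (i / 16)])
    by_cases hcase : u0 (i / 16) ≤ v
    · have h1 := hu0 (i / 16) v hcase
      have h2 : √(Real.log v) ≤ 1100 * K := by
        refine le_trans (Real.sqrt_le_sqrt (Real.log_le_log hvpos hv2)) ?_
        exact log_bound K i _ (hrpos i) hK100 (hiK i) (hKfr (i / 16))
      have h3 : 0 ≤ epsStage (i / 16) * v := by positivity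
      calc φ v ≤ epsStage (i / 16) * (v * √(Real.log v)) := h1
        _ = (epsStage (i / 16) * v) * √(Real.log v) := by ring
        _ ≤ (epsStage (i / 16) * v) * (1100 * K) := mul_le_mul_of_nonneg_left h2 h3
        _ = v * (1100 * K * epsStage (i / 16)) := by ring
    · rw [not_le] at hcase
      have h1 : φ v ≤ φ (u0 (i / 16)) :=
        hφm (Set.mem_Ici.mpr hvpos.le) (Set.mem_Ici.mpr (by linarith [hu03 (i / 16)])) hcase.le
      have h2 := hKfphi (i / 16)
      rw [div_le_iff₀ hε] at h2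
      have h3 : φ (u0 (i / 16)) ≤ 1100 * K * epsStage (i / 16) := by
        have : (0 : ℝ) ≤ K * epsStage (i / 16) := by positivity
        nlinarith
      have h4 : 0 ≤ 1100 * (K : ℝ) * epsStage (i / 16) := by positivity
      nlinarith
  · intro i
    have := epsStage_pos (i / 16)
    have := hKpos i
    positivity
  · -- summability of the weighted constants
    refine Summable.of_nonneg_of_le (fun i => ?_) (fun i => ?_)
      ((summable_geometric_two).mul_left 110000)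
    · have := epsStage_pos (i / 16)
      have := hKpos i
      have := hrpos i
      positivity
    · have hK := hKpos i
      have hε : (((i / 16 : ℕ) : ℝ) + 1) * epsStage (i / 16) * 2 ^ (i + 2) ≤ (1 / 2) ^ i := by
        unfold epsStage
        have h1 : i + 1 ≤ 16 * (i / 16) + 16 := hstage i
        have h0 : (((i / 16 : ℕ) : ℝ) + 1) * (1 / 2 : ℝ) ^ (i / 16) ≤ 1 := by
          have h01 : ((i / 16 : ℕ) : ℝ) + 1 ≤ 2 ^ (i / 16) := by
            exact_mod_cast Nat.lt_two_pow_self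
          have h02 : (2 : ℝ) ^ (i / 16) * (1 / 2 : ℝ) ^ (i / 16) = 1 := by
            rw [← mul_pow]
            norm_num
          have h03 : (0 : ℝ) ≤ (1 / 2 : ℝ) ^ (i / 16) := by positivity
          nlinarith
        have h2 : (1 / 2 : ℝ) ^ (2 * (16 * (i / 16) + 16)) ≤ (1 / 2) ^ (2 * (i + 1)) :=
          pow_le_pow_of_le_one (by norm_num) (by norm_num) (by omega)
        have h3 : (1 / 2 : ℝ) ^ (2 * (i + 1)) * 2 ^ (i + 2) = (1 / 2) ^ i := by
          have h4 : (2 * (i + 1)) = i + (i + 2) := by ring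
          rw [h4, pow_add, mul_assoc, ← mul_pow]
          norm_num
        have h5 : (0 : ℝ) < 2 ^ (i + 2) := by positivity
        rw [pow_add (1 / 2 : ℝ) (2 * (16 * (i / 16) + 16)) (i / 16)]
        have h6 : (0 : ℝ) ≤ (1 / 2 : ℝ) ^ (2 * (16 * (i / 16) + 16)) := by positivity
        calc (((i / 16 : ℕ) : ℝ) + 1) * ((1 / 2 : ℝ) ^ (2 * (16 * (i / 16) + 16)) * (1 / 2) ^ (i / 16)) * 2 ^ (i + 2)
            = ((((i / 16 : ℕ) : ℝ) + 1) * (1 / 2 : ℝ) ^ (i / 16)) * ((1 / 2 : ℝ) ^ (2 * (16 * (i / 16) + 16)) * 2 ^ (i + 2)) := by ring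
          _ ≤ 1 * ((1 / 2 : ℝ) ^ (2 * (16 * (i / 16) + 16)) * 2 ^ (i + 2)) :=
              mul_le_mul_of_nonneg_right h0 (by positivity)
          _ ≤ 1 * ((1 / 2 : ℝ) ^ (2 * (i + 1)) * 2 ^ (i + 2)) := by
              have := mul_le_mul_of_nonneg_right h2 h5.le
              linarith
          _ = (1 / 2) ^ i := by rw [one_mul, h3]
      have heq : 1100 * (Kf (i / 16) : ℝ) * epsStage (i / 16) *
          (100 * (((i / 16 : ℕ) : ℝ) + 1) / (Kf (i / 16) : ℝ) * 2 ^ (i + 2)) =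
          110000 * ((((i / 16 : ℕ) : ℝ) + 1) * epsStage (i / 16) * 2 ^ (i + 2)) := by
        field_simp
        ring
      rw [heq]
      nlinarith
  · -- the covering
    intro x n
    obtain ⟨a, l, ha, hl, m, hm, hlarge⟩ := block_cover (Kf n) (hKf100 n) x
    have hin : (16 * n + (4 * a + l)) / 16 = n := by omega
    have his : (16 * n + (4 * a + l)) % 16 = 4 * a + l := by omega
    have hsa : (4 * a + l) / 4 = a := by omega
    have hsl : (4 * a + l) % 4 = l := by omega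
    refine ⟨16 * n + (4 * a + l), by omega, m, ?_, ?_⟩
    · simp only [hin]
      exact hm
    · simp only [hin, his, tauOf, hsa, hsl]
      have hK : (0 : ℝ) < (Kf n : ℝ) := by
        have := hKf100 n
        have h' : (100 : ℝ) ≤ (Kf n : ℝ) := by exact_mod_cast this
        linarith
      rw [div_mul_eq_mul_div, le_div_iff₀ hK]
      rw [div_le_iff₀ (by norm_num : (0 : ℝ) < 100)] at hlarge
      have hn0 : (0 : ℝ) ≤ (n : ℝ) := Nat.cast_nonneg n
      nlinarith

/-- The divergence form. -/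
theorem main_divergence {T : ℝ} [hT : Fact (0 < T)] (φ : ℝ → ℝ)
    (hφm : MonotoneOn φ (Set.Ici 0)) (hφ0 : ∀ u, 0 ≤ u → 0 ≤ φ u)
    (hφo : Tendsto (fun u : ℝ => φ u / (u * √(Real.log u))) atTop (𝓝 0)) :
    ∃ f : AddCircle T → ℂ, Integrable f haarAddCircle ∧
      Integrable (fun x => φ ‖f x‖) haarAddCircle ∧
      (∀ (x : AddCircle T) (C : ℝ), ∃ N : ℕ,
        C < ‖∑ n ∈ Finset.Icc (-(N : ℤ)) (N : ℤ), fourierCoeff f n • fourier n x‖) ∧
      ∀ x : AddCircle T, ¬ ∃ ℓ : ℂ, Tendsto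
        (fun N : ℕ => ∑ n ∈ Finset.Icc (-(N : ℤ)) (N : ℤ), fourierCoeff f n • fourier n x)
        atTop (𝓝 ℓ) := by
  obtain ⟨f, h1, h2, h3⟩ := main_unbounded (T := T) φ hφm hφ0 hφo
  refine ⟨f, h1, h2, h3, fun x => ?_⟩
  rintro ⟨ℓ, hℓ⟩
  obtain ⟨C, hC⟩ := (hℓ.norm).bddAbove_range
  obtain ⟨N, hN⟩ := h3 x C
  exact absurd (hC (Set.mem_range_self N)) (not_le.mpr hN)

end Vale.Agent.Lib.P091
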