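import Vale.Agent.Lib.P091.Digits

namespace Vale.Agent.Lib.P091

open Finset Real

/-- A sum over a finite set mapped injectively into a second finite set. -/
theorem sum_le_of_injOn {ι κ : Type*} [DecidableEq κ] (s : Finset ι) (t : Finset κ) (φ : ι → κ)
    (f : ι → ℝ) (F : κ → ℝ) (hmap : ∀ x ∈ s, φ x ∈ t) (hinj : Set.InjOn φ s)
    (hle : ∀ x ∈ s, f x ≤ F (φ x)) (hF : ∀ y ∈ t, 0 ≤ F y) :
    ∑ x ∈ s, f x ≤ ∑ y ∈ t, F y := by
  calc ∑ x ∈ s, f x ≤ ∑ x ∈ s, F (φ x) := sum_le_sum hle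
    _ = ∑ y ∈ s.image φ, F y := (sum_image hinj).symm
    _ ≤ ∑ y ∈ t, F y :=
        sum_le_sum_of_subset_of_nonneg (image_subset_iff.2 hmap) (fun y hy _ => hF y hy)

/-- The harmonic sum up to N. -/
noncomputable def harm (N : ℕ) : ℝ := ∑ m ∈ Ioc 0 N, (1 / (m : ℝ))

theorem harm_nonneg (N : ℕ) : 0 ≤ harm N := by
  unfold harm
  exact sum_nonneg (fun m _ => by positivity)

theorem harm_two_pow (j : ℕ) : harm (2 ^ j) ≤ (j : ℝ) + 1 := by
  induction j with
  | zero =>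
    unfold harm
    have h : Ioc 0 (2 ^ 0) = ({1} : Finset ℕ) := by decide
    rw [h]
    simp
  | succ j ih =>
    have hpos : 0 < 2 ^ j := by positivity
    have hsplit : harm (2 ^ (j + 1)) =
        harm (2 ^ j) + ∑ m ∈ Ioc (2 ^ j : ℕ) (2 ^ (j + 1) : ℕ), (1 / (m : ℝ)) := by
      unfold harm
      rw [sum_Ioc_consecutive _ (Nat.zero_le _) (Nat.pow_le_pow_right (by norm_num) (Nat.le_succ j))]
    have hblock : ∑ m ∈ Ioc (2 ^ j : ℕ) (2 ^ (j + 1) : ℕ), (1 / (m : ℝ)) ≤ 1 := by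
      have hcard : (Ioc (2 ^ j : ℕ) (2 ^ (j + 1) : ℕ)).card = 2 ^ j := by
        rw [Nat.card_Ioc, pow_succ]
        omega
      have hterm : ∀ m ∈ Ioc (2 ^ j : ℕ) (2 ^ (j + 1) : ℕ), (1 / (m : ℝ)) ≤ 1 / ((2 ^ j : ℕ) : ℝ) := by
        intro m hm
        rw [mem_Ioc] at hm
        have h1 : ((2 ^ j : ℕ) : ℝ) ≤ (m : ℝ) := by exact_mod_cast hm.1.le
        have h2 : (0 : ℝ) < ((2 ^ j : ℕ) : ℝ) := by exact_mod_cast hpos
        exact one_div_le_one_div_of_le h2 h1
      have := sum_le_card_nsmul _ _ _ hterm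
      rw [hcard, nsmul_eq_mul] at this
      have h2 : ((2 ^ j : ℕ) : ℝ) ≠ 0 := by
        exact_mod_cast hpos.ne'
      rw [mul_one_div_cancel h2] at this
      exact this
    rw [hsplit]
    push_cast
    linarith

/-- The weight of a digit distance. -/
noncomputable def rho (g k : ℕ) : ℝ := (1 / 2 : ℝ) ^ (g * k + 1)

theorem rho_nonneg (g k : ℕ) : 0 ≤ rho g k := by
  unfold rho
  positivity

theorem sum_Ico_half_le (B : ℕ) : ∑ k ∈ Ico 1 B, (1 / 2 : ℝ) ^ k ≤ 1 := by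
  have key : ∀ n : ℕ, ∑ k ∈ Ico 1 (n + 1), (1 / 2 : ℝ) ^ k = 1 - (1 / 2 : ℝ) ^ n := by
    intro n
    induction n with
    | zero => simp
    | succ n ih =>
      rw [sum_Ico_succ_top (by omega), ih, pow_succ]
      ring
  rcases B with _ | n
  · simp
  · rw [key]
    have : (0 : ℝ) ≤ (1 / 2 : ℝ) ^ n := by positivity
    linarith

theorem sum_Ico_rho_le (g B : ℕ) (hg : 1 ≤ g) : ∑ k ∈ Ico 1 B, rho g k ≤ (1 / 2 : ℝ) ^ g := by
  have hterm : ∀ k ∈ Ico 1 B, rho g k ≤ (1 / 2 : ℝ) ^ g * (1 / 2 : ℝ) ^ k := by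
    intro k hk
    rw [mem_Ico] at hk
    unfold rho
    rw [← pow_add]
    apply pow_le_pow_of_le_one (by norm_num) (by norm_num)
    obtain ⟨a, rfl⟩ : ∃ a, g = a + 1 := ⟨g - 1, by omega⟩
    obtain ⟨b, rfl⟩ : ∃ b, k = b + 1 := ⟨k - 1, by omega⟩
    nlinarith [Nat.zero_le (a * b)]
  calc ∑ k ∈ Ico 1 B, rho g k ≤ ∑ k ∈ Ico 1 B, (1 / 2 : ℝ) ^ g * (1 / 2 : ℝ) ^ k := sum_le_sum hterm
    _ = (1 / 2 : ℝ) ^ g * ∑ k ∈ Ico 1 B, (1 / 2 : ℝ) ^ k := by rw [mul_sum]
    _ ≤ (1 / 2 : ℝ) ^ g * 1 := by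
        apply mul_le_mul_of_nonneg_left (sum_Ico_half_le B) (by positivity)
    _ = (1 / 2 : ℝ) ^ g := mul_one _

theorem half_pow_le_half (g : ℕ) (hg : 1 ≤ g) : (1 / 2 : ℝ) ^ g ≤ 1 / 2 := by
  calc (1 / 2 : ℝ) ^ g ≤ (1 / 2 : ℝ) ^ 1 := pow_le_pow_of_le_one (by norm_num) (by norm_num) hg
    _ = 1 / 2 := pow_one _

theorem sum_range_rho_le (g B : ℕ) (hg : 1 ≤ g) (hB : 1 ≤ B) : ∑ k ∈ range B, rho g k ≤ 1 := by
  have hsplit : ∑ k ∈ range B, rho g k = rho g 0 + ∑ k ∈ Ico 1 B, rho g k := by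
    rw [range_eq_Ico, sum_eq_sum_Ico_succ_bot (by omega)]
  rw [hsplit]
  have h1 := sum_Ico_rho_le g B hg
  have h2 := half_pow_le_half g hg
  have h3 : rho g 0 = 1 / 2 := by
    unfold rho
    simp
  rw [h3]
  linarith

/-- The reflected weight, used for points to the left. -/
noncomputable def rhoL (g B e : ℕ) : ℝ := if e = 0 then rho g 0 else rho g (B - e)

theorem rhoL_nonneg (g B e : ℕ) : 0 ≤ rhoL g B e := by
  unfold rhoL
  split_ifs <;> exact rho_nonneg _ _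

theorem sum_Ico_rhoL (g B : ℕ) : ∑ e ∈ Ico 1 B, rhoL g B e = ∑ e ∈ Ico 1 B, rho g e := by
  have h1 : ∑ e ∈ Ico 1 B, rhoL g B e = ∑ e ∈ Ico 1 B, rho g (B - e) := by
    apply sum_congr rfl
    intro e he
    rw [mem_Ico] at he
    unfold rhoL
    rw [if_neg (by omega)]
  rw [h1]
  rcases B with _ | n
  · simp
  · have := sum_Ico_reflect (fun k => rho g k) 1 (m := n + 1) (n := n + 1) (by omega)
    rw [this]
    have e1 : n + 1 + 1 - (n + 1) = 1 := by omega
    have e2 : n + 1 + 1 - 1 = n + 1 := by omega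
    rw [e1, e2]

theorem sum_Ico_rhoL_le (g B : ℕ) (hg : 1 ≤ g) : ∑ e ∈ Ico 1 B, rhoL g B e ≤ (1 / 2 : ℝ) ^ g := by
  rw [sum_Ico_rhoL]
  exact sum_Ico_rho_le g B hg

theorem sum_range_rhoL_le (g B : ℕ) (hg : 1 ≤ g) (hB : 1 ≤ B) : ∑ e ∈ range B, rhoL g B e ≤ 1 := by
  have hsplit : ∑ k ∈ range B, rhoL g B k = rhoL g B 0 + ∑ k ∈ Ico 1 B, rhoL g B k := by
    rw [range_eq_Ico, sum_eq_sum_Ico_succ_bot (by omega)]
  rw [hsplit]
  have h1 := sum_Ico_rhoL_le g B hg
  have h2 := half_pow_le_half g hg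
  have h3 : rhoL g B 0 = 1 / 2 := by
    unfold rhoL rho
    simp
  rw [h3]
  linarith

/-- The basic harmonic estimate along residue classes. -/
theorem sum_mod_div (B N : ℕ) (hB : 1 ≤ B) (ρ : ℕ → ℝ) (δ : ℝ) (h0 : ∀ k, 0 ≤ ρ k)
    (h1 : ∑ e ∈ range B, ρ e ≤ 1) (h2 : ∑ e ∈ Ico 1 B, ρ e ≤ δ) :
    ∑ D ∈ Ioc 0 N, ρ (D % B) / (D : ℝ) ≤ δ + harm N / B := by
  have hBpos : (0 : ℝ) < B := by exact_mod_cast hB
  rw [← sum_filter_add_sum_filter_not (Ioc 0 N) (fun D => D < B)]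
  apply add_le_add
  · have hsub : (Ioc 0 N).filter (fun D => D < B) ⊆ Ico 1 B := by
      intro D hD
      simp only [mem_filter, mem_Ioc, mem_Ico] at hD ⊢
      omega
    have hterm : ∀ D ∈ (Ioc 0 N).filter (fun D => D < B), ρ (D % B) / (D : ℝ) ≤ ρ D := by
      intro D hD
      simp only [mem_filter, mem_Ioc] at hD
      rw [Nat.mod_eq_of_lt hD.2]
      have hD1 : (1 : ℝ) ≤ D := by exact_mod_cast hD.1.1
      exact div_le_self (h0 D) hD1
    calc _ ≤ ∑ D ∈ (Ioc 0 N).filter (fun D => D < B), ρ D := sum_le_sum hterm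
      _ ≤ ∑ e ∈ Ico 1 B, ρ e :=
          sum_le_sum_of_subset_of_nonneg hsub (fun e _ _ => h0 e)
      _ ≤ δ := h2
  · have hle : ∑ D ∈ (Ioc 0 N).filter (fun D => ¬ D < B), ρ (D % B) / (D : ℝ) ≤
        ∑ p ∈ (Ioc 0 N) ×ˢ (range B), ρ p.2 / ((p.1 : ℝ) * B) := by
      apply sum_le_of_injOn _ _ (fun D => (D / B, D % B))
      · intro D hD
        simp only [mem_filter, mem_Ioc, mem_product, mem_range, not_lt] at hD ⊢
        refine ⟨⟨Nat.div_pos hD.2 (by omega), ?_⟩, Nat.mod_lt _ (by omega)⟩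
        exact (Nat.div_le_self _ _).trans hD.1.2
      · intro a _ b _ hab
        simp only [Prod.mk.injEq] at hab
        rw [← Nat.div_add_mod a B, ← Nat.div_add_mod b B, hab.1, hab.2]
      · intro D hD
        simp only [mem_filter, mem_Ioc, not_lt] at hD
        have hdiv : 0 < D / B := Nat.div_pos hD.2 (by omega)
        have hdivR : (0 : ℝ) < ((D / B : ℕ) : ℝ) := by exact_mod_cast hdiv
        have hle : ((D / B : ℕ) : ℝ) * B ≤ D := by
          exact_mod_cast Nat.div_mul_le_self D B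
        exact div_le_div_of_nonneg_left (h0 _) (by positivity) hle
      · intro p _
        exact div_nonneg (h0 _) (by positivity)
    refine hle.trans ?_
    rw [sum_product]
    have hinner : ∀ m ∈ Ioc 0 N, ∑ k ∈ range B, ρ k / ((m : ℝ) * B) ≤ (1 / (m : ℝ)) / B := by
      intro m hm
      rw [mem_Ioc] at hm
      have hm0 : (0 : ℝ) < m := by exact_mod_cast hm.1
      have : ∑ k ∈ range B, ρ k / ((m : ℝ) * B) = (∑ k ∈ range B, ρ k) * ((1 / (m : ℝ)) / B) := by
        rw [sum_mul]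
        apply sum_congr rfl
        intro k _
        field_simp
      rw [this]
      have hpos : 0 ≤ (1 / (m : ℝ)) / B := by positivity
      nlinarith
    calc _ ≤ ∑ m ∈ Ioc 0 N, (1 / (m : ℝ)) / B := sum_le_sum hinner
      _ = harm N / B := by
          unfold harm
          rw [sum_div]

/-- The same block weight, as a function of the block indices. -/
noncomputable def wgt (g B Z0 Z : ℕ) : ℝ :=
  if Z0 % B ≤ Z % B then (1 / 2 : ℝ) ^ (g * (Z % B - Z0 % B) + 1) else 0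

theorem wgt_nonneg (g B Z0 Z : ℕ) : 0 ≤ wgt g B Z0 Z := by
  unfold wgt
  split_ifs <;> positivity

theorem sameTerm_eq (K g B j z z0 : ℕ) :
    sameTerm K g B j z z0 = wgt g B (pre K j z0) (pre K j z) := rfl

theorem wgt_right (g B Z0 Z : ℕ) (hB : 1 ≤ B) (h : Z0 < Z) : wgt g B Z0 Z ≤ rho g ((Z - Z0) % B) := by
  unfold wgt
  split_ifs with hc
  · obtain ⟨D, rfl⟩ : ∃ D, Z = Z0 + D := ⟨Z - Z0, by omega⟩
    have e1 : Z0 + D - Z0 = D := by omega
    rw [e1]
    have hm : (Z0 + D) % B = (Z0 % B + D % B) % B := Nat.add_mod _ _ _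
    have h1 := Nat.mod_lt Z0 (show 0 < B by omega)
    have h2 := Nat.mod_lt D (show 0 < B by omega)
    have h3 : Z0 % B + D % B < B := by
      by_contra hcon
      push Not at hcon
      have h4 : (Z0 % B + D % B) % B = Z0 % B + D % B - B := by
        rw [Nat.mod_eq_sub_mod hcon, Nat.mod_eq_of_lt (by omega)]
      omega
    rw [Nat.mod_eq_of_lt h3] at hm
    have e2 : (Z0 + D) % B - Z0 % B = D % B := by omega
    rw [e2]
    exact le_refl _
  · exact rho_nonneg _ _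

theorem wgt_left (g B Z0 Z : ℕ) (hB : 1 ≤ B) (h : Z < Z0) : wgt g B Z0 Z ≤ rhoL g B ((Z0 - Z) % B) := by
  unfold wgt
  split_ifs with hc
  · obtain ⟨D, rfl⟩ : ∃ D, Z0 = Z + D := ⟨Z0 - Z, by omega⟩
    have e1 : Z + D - Z = D := by omega
    rw [e1]
    have hm : (Z + D) % B = (Z % B + D % B) % B := Nat.add_mod _ _ _
    have h1 := Nat.mod_lt Z (show 0 < B by omega)
    have h2 := Nat.mod_lt D (show 0 < B by omega)
    unfold rhoL
    split_ifs with he
    · rw [he, Nat.add_zero, Nat.mod_eq_of_lt h1] at hm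
      have e2 : Z % B - (Z + D) % B = 0 := by omega
      rw [e2]
      exact le_refl _
    · have h3 : B ≤ Z % B + D % B := by
        by_contra hcon
        push Not at hcon
        rw [Nat.mod_eq_of_lt hcon] at hm
        omega
      have h4 : (Z % B + D % B) % B = Z % B + D % B - B := by
        rw [Nat.mod_eq_sub_mod h3, Nat.mod_eq_of_lt (by omega)]
      have e2 : Z % B - (Z + D) % B = B - D % B := by omega
      rw [e2]
      exact le_refl _
  · exact rhoL_nonneg _ _ _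

/-- The window lemma for the block indices. -/
theorem window (g B N Z0 : ℕ) (hg : 1 ≤ g) (hB : 1 ≤ B) (hZ0 : Z0 < N) :
    ∑ Z ∈ (range N).filter (fun Z => Z ≠ Z0), wgt g B Z0 Z / |(Z : ℝ) - Z0| ≤
      2 * (1 / 2 : ℝ) ^ g + 2 * harm N / B := by
  rw [← sum_filter_add_sum_filter_not ((range N).filter (fun Z => Z ≠ Z0)) (fun Z => Z0 < Z)]
  have hR : ∑ Z ∈ ((range N).filter (fun Z => Z ≠ Z0)).filter (fun Z => Z0 < Z),
      wgt g B Z0 Z / |(Z : ℝ) - Z0| ≤ (1 / 2 : ℝ) ^ g + harm N / B := by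
    have h1 : ∑ Z ∈ ((range N).filter (fun Z => Z ≠ Z0)).filter (fun Z => Z0 < Z),
        wgt g B Z0 Z / |(Z : ℝ) - Z0| ≤ ∑ D ∈ Ioc 0 N, rho g (D % B) / (D : ℝ) := by
      apply sum_le_of_injOn _ _ (fun Z => Z - Z0)
      · intro Z hZ
        simp only [mem_filter, mem_range, mem_Ioc] at hZ ⊢
        omega
      · intro a ha b hb hab
        rw [mem_coe] at ha hb
        simp only [mem_filter, mem_range] at ha hb
        simp only at hab
        omega
      · intro Z hZ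
        simp only [mem_filter, mem_range] at hZ
        have hlt : (Z0 : ℝ) < Z := by exact_mod_cast hZ.2
        have habs : |(Z : ℝ) - Z0| = ((Z - Z0 : ℕ) : ℝ) := by
          rw [abs_of_pos (by linarith), Nat.cast_sub hZ.2.le]
        rw [habs]
        have hD : (0 : ℝ) < ((Z - Z0 : ℕ) : ℝ) := by
          rw [← habs]
          exact abs_pos.mpr (by linarith [hlt] : (Z : ℝ) - Z0 ≠ 0) 
        exact div_le_div_of_nonneg_right (wgt_right g B Z0 Z hB hZ.2) hD.le
      · intro D _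
        exact div_nonneg (rho_nonneg _ _) (by positivity)
    exact h1.trans (sum_mod_div B N hB (rho g) _ (rho_nonneg g) (sum_range_rho_le g B hg hB)
      (sum_Ico_rho_le g B hg))
  have hL : ∑ Z ∈ ((range N).filter (fun Z => Z ≠ Z0)).filter (fun Z => ¬ Z0 < Z),
      wgt g B Z0 Z / |(Z : ℝ) - Z0| ≤ (1 / 2 : ℝ) ^ g + harm N / B := by
    have h1 : ∑ Z ∈ ((range N).filter (fun Z => Z ≠ Z0)).filter (fun Z => ¬ Z0 < Z),
        wgt g B Z0 Z / |(Z : ℝ) - Z0| ≤ ∑ D ∈ Ioc 0 N, rhoL g B (D % B) / (D : ℝ) := by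
      apply sum_le_of_injOn _ _ (fun Z => Z0 - Z)
      · intro Z hZ
        simp only [mem_filter, mem_range, mem_Ioc] at hZ ⊢
        omega
      · intro a ha b hb hab
        rw [mem_coe] at ha hb
        simp only [mem_filter, mem_range] at ha hb
        simp only at hab
        omega
      · intro Z hZ
        simp only [mem_filter, mem_range] at hZ
        have hlt0 : Z < Z0 := by omega
        have hlt : (Z : ℝ) < Z0 := by exact_mod_cast hlt0
        have habs : |(Z : ℝ) - Z0| = ((Z0 - Z : ℕ) : ℝ) := by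
          rw [abs_of_neg (by linarith), Nat.cast_sub hlt0.le]
          ring
        rw [habs]
        have hD : (0 : ℝ) ≤ ((Z0 - Z : ℕ) : ℝ) := by positivity
        exact div_le_div_of_nonneg_right (wgt_left g B Z0 Z hB hlt0) hD
      · intro D _
        exact div_nonneg (rhoL_nonneg _ _ _) (by positivity)
    exact h1.trans (sum_mod_div B N hB (rhoL g B) _ (rhoL_nonneg g B) (sum_range_rhoL_le g B hg hB)
      (sum_Ico_rhoL_le g B hg))
  have : 2 * harm N / (B : ℝ) = harm N / B + harm N / B := by ring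
  rw [this]
  linarith

/-- The sum of the reciprocal distances. -/
theorem sum_inv_dist_le (N z0 : ℕ) (hz0 : z0 < N) :
    ∑ z ∈ (range N).erase z0, (1 / |(z : ℝ) - z0|) ≤ 2 * harm N := by
  have hE : (range N).erase z0 = (range N).filter (fun z => z ≠ z0) := by
    ext z
    simp only [mem_erase, mem_filter, mem_range]
    tauto
  rw [hE, ← sum_filter_add_sum_filter_not ((range N).filter (fun Z => Z ≠ z0)) (fun Z => z0 < Z)]
  have hR : ∑ Z ∈ ((range N).filter (fun Z => Z ≠ z0)).filter (fun Z => z0 < Z),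
      (1 / |(Z : ℝ) - z0|) ≤ harm N := by
    unfold harm
    apply sum_le_of_injOn _ _ (fun Z => Z - z0)
    · intro Z hZ
      simp only [mem_filter, mem_range, mem_Ioc] at hZ ⊢
      omega
    · intro a ha b hb hab
      rw [mem_coe] at ha hb
      simp only [mem_filter, mem_range] at ha hb
      simp only at hab
      omega
    · intro Z hZ
      simp only [mem_filter, mem_range] at hZ
      have hlt : (z0 : ℝ) < Z := by exact_mod_cast hZ.2
      have habs : |(Z : ℝ) - z0| = ((Z - z0 : ℕ) : ℝ) := by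
        rw [abs_of_pos (by linarith), Nat.cast_sub hZ.2.le]
      rw [habs]
    · intro D _
      positivity
  have hL : ∑ Z ∈ ((range N).filter (fun Z => Z ≠ z0)).filter (fun Z => ¬ z0 < Z),
      (1 / |(Z : ℝ) - z0|) ≤ harm N := by
    unfold harm
    apply sum_le_of_injOn _ _ (fun Z => z0 - Z)
    · intro Z hZ
      simp only [mem_filter, mem_range, mem_Ioc] at hZ ⊢
      omega
    · intro a ha b hb hab
      rw [mem_coe] at ha hb
      simp only [mem_filter, mem_range] at ha hb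
      simp only at hab
      omega
    · intro Z hZ
      simp only [mem_filter, mem_range] at hZ
      have hlt0 : Z < z0 := by omega
      have hlt : (Z : ℝ) < z0 := by exact_mod_cast hlt0
      have habs : |(Z : ℝ) - z0| = ((z0 - Z : ℕ) : ℝ) := by
        rw [abs_of_neg (by linarith), Nat.cast_sub hlt0.le]
        ring
      rw [habs]
    · intro D _
      positivity
  linarith

/-- The distance of two points in terms of the distance of their block indices. -/
theorem abs_sub_ge (q z z0 : ℕ) (hq : 0 < q) (hbit : z / q % 2 = 1) (hbit0 : z0 / q % 2 = 0)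
    (h1 : z / (q * 2) ≠ z0 / (q * 2)) (h2 : z / (q * 2) + 1 ≠ z0 / (q * 2)) :
    (q : ℝ) * |((z / (q * 2) : ℕ) : ℝ) - ((z0 / (q * 2) : ℕ) : ℝ)| ≤ |(z : ℝ) - z0| := by
  set Z := z / (q * 2) with hZ
  set Z0 := z0 / (q * 2) with hZ0
  have hw : z / q = 2 * Z + 1 := by
    have := Nat.div_add_mod (z / q) 2
    rw [hbit, Nat.div_div_eq_div_mul] at this
    omega
  have hw0 : z0 / q = 2 * Z0 := by
    have := Nat.div_add_mod (z0 / q) 2
    rw [hbit0, Nat.div_div_eq_div_mul] at this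
    omega
  have hz : z = q * (2 * Z + 1) + z % q := by
    have := Nat.div_add_mod z q
    rw [hw] at this
    omega
  have hz0 : z0 = q * (2 * Z0) + z0 % q := by
    have := Nat.div_add_mod z0 q
    rw [hw0] at this
    omega
  have hr := Nat.mod_lt z hq
  have hr0 := Nat.mod_lt z0 hq
  set r := z % q
  set r0 := z0 % q
  have hzR : (z : ℝ) = q * (2 * Z + 1) + r := by
    have : ((q * (2 * Z + 1) + r : ℕ) : ℝ) = q * (2 * Z + 1) + r := by push_cast; ring
    rw [← this, ← hz]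
  have hz0R : (z0 : ℝ) = q * (2 * Z0) + r0 := by
    have : ((q * (2 * Z0) + r0 : ℕ) : ℝ) = q * (2 * Z0) + r0 := by push_cast; ring
    rw [← this, ← hz0]
  have hqR : (0 : ℝ) < q := by exact_mod_cast hq
  have hrR : (r : ℝ) < q := by exact_mod_cast hr
  have hr0R : (r0 : ℝ) < q := by exact_mod_cast hr0
  have hr00 : (0 : ℝ) ≤ r := by positivity
  have hr000 : (0 : ℝ) ≤ r0 := by positivity
  rcases lt_or_gt_of_ne h1 with hlt | hgt
  · have h3 : Z + 2 ≤ Z0 := by omega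
    have h3R : (Z : ℝ) + 2 ≤ Z0 := by exact_mod_cast h3
    have habs : |(Z : ℝ) - Z0| = (Z0 : ℝ) - Z := by
      rw [abs_of_neg (by linarith)]
      ring
    rw [habs]
    have hmain : (q : ℝ) * ((Z0 : ℝ) - Z) ≤ (z0 : ℝ) - z := by
      rw [hzR, hz0R]
      nlinarith [mul_nonneg hqR.le (sub_nonneg.mpr h3R)]
    calc (q : ℝ) * ((Z0 : ℝ) - Z) ≤ (z0 : ℝ) - z := hmain
      _ ≤ |(z0 : ℝ) - z| := le_abs_self _
      _ = |(z : ℝ) - z0| := abs_sub_comm _ _
  · have h3R : (Z0 : ℝ) ≤ Z := by exact_mod_cast hgt.le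
    have habs : |(Z : ℝ) - Z0| = (Z : ℝ) - Z0 := abs_of_nonneg (by linarith)
    rw [habs]
    have hmain : (q : ℝ) * ((Z : ℝ) - Z0) ≤ (z : ℝ) - z0 := by
      rw [hzR, hz0R]
      nlinarith [mul_nonneg hqR.le (sub_nonneg.mpr h3R)]
    exact hmain.trans (le_abs_self _)

/-- The weight at the exceptional neighbouring block. -/
theorem wgt_neighbour (g B Z : ℕ) (hB : 2 ≤ B) :
    wgt g B (Z + 1) Z ≤ (1 / 2 : ℝ) ^ (g * (B - 1) + 1) := by
  unfold wgt
  split_ifs with hc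
  · have h1 := Nat.mod_lt Z (show 0 < B by omega)
    have hm : (Z + 1) % B = (Z % B + 1 % B) % B := Nat.add_mod _ _ _
    rw [Nat.mod_eq_of_lt (show 1 < B by omega)] at hm
    by_cases he : Z % B + 1 = B
    · rw [he, Nat.mod_self] at hm
      rw [hm]
      have e2 : Z % B - 0 = B - 1 := by omega
      rw [e2]
    · have h4 : (Z % B + 1) % B = Z % B + 1 := Nat.mod_eq_of_lt (by omega)
      rw [h4] at hm
      omega
  · positivity

theorem succ_eq_iff (Z Z0 : ℕ) (h0 : Z0 ≠ 0) : (Z + 1 = Z0) ↔ (Z = Z0 - 1) := by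
  omega

/-- The contribution of one level. -/
theorem level_bound (K g B j z0 : ℕ) (hg : 1 ≤ g) (hB : 2 ≤ B) (hj : j < K) (hz0 : z0 < 2 ^ K)
    (hbit : bit K j z0 = 0) :
    ∑ z ∈ ((range (2 ^ K)).erase z0).filter (fun z => bit K j z = 1 ∧ pre K j z ≠ pre K j z0),
        sameTerm K g B j z z0 / |(z : ℝ) - z0| ≤
      2 * (2 * (1 / 2 : ℝ) ^ g + 2 * harm (2 ^ j) / B) +
        (2 : ℝ) ^ (K - j) * (1 / 2 : ℝ) ^ (g * (B - 1) + 1) := by
  set a := K - 1 - j with ha
  set q := 2 ^ a with hq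
  have hqpos : 0 < q := by positivity
  have hKj : K - j = a + 1 := by omega
  have hM : 2 ^ (K - j) = q * 2 := by rw [hKj, pow_succ]
  have hpre : ∀ z, pre K j z = z / (q * 2) := by
    intro z
    unfold pre
    rw [hM]
  have hbitq : ∀ z, bit K j z = z / q % 2 := by
    intro z
    rfl
  set M := q * 2 with hMdef
  have hMpos : 0 < M := by positivity
  have h2K : 2 ^ K = 2 ^ j * M := by
    rw [← hM, ← pow_add]
    congr 1
    omega
  set Z0 := z0 / M with hZ0
  have hZ0lt : Z0 < 2 ^ j := by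
    rw [hZ0, Nat.div_lt_iff_lt_mul hMpos, ← h2K]
    exact hz0
  set τ : ℝ := (1 / 2 : ℝ) ^ (g * (B - 1) + 1) with hτ
  have hτ0 : 0 ≤ τ := by positivity
  set FZ : ℕ → ℝ := fun Z => if Z + 1 = Z0 then τ else wgt g B Z0 Z / |(Z : ℝ) - Z0| / q with hFZ
  have hFZ0 : ∀ Z, 0 ≤ FZ Z := by
    intro Z
    simp only [hFZ]
    split_ifs
    · exact hτ0
    · exact div_nonneg (div_nonneg (wgt_nonneg _ _ _ _) (abs_nonneg _)) (by positivity)
  have hstep1 : ∑ z ∈ ((range (2 ^ K)).erase z0).filter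
        (fun z => bit K j z = 1 ∧ pre K j z ≠ pre K j z0),
        sameTerm K g B j z z0 / |(z : ℝ) - z0| ≤
      ∑ p ∈ (range (2 ^ j)) ×ˢ (range M), FZ p.1 := by
    apply sum_le_of_injOn _ _ (fun z => (z / M, z % M))
    · intro z hz
      simp only [mem_filter, mem_erase, mem_range, mem_product] at hz ⊢
      refine ⟨?_, Nat.mod_lt _ hMpos⟩
      rw [Nat.div_lt_iff_lt_mul hMpos, ← h2K]
      exact hz.1.2
    · intro a' _ b' _ hab
      simp only [Prod.mk.injEq] at hab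
      rw [← Nat.div_add_mod a' M, ← Nat.div_add_mod b' M, hab.1, hab.2]
    · intro z hz
      simp only [mem_filter, mem_erase, mem_range] at hz
      obtain ⟨⟨hne, _⟩, hb1, hpne⟩ := hz
      have hne' : z / M ≠ Z0 := by
        rw [hpre, hpre] at hpne
        exact hpne
      have hdist : (1 : ℝ) ≤ |(z : ℝ) - z0| := by
        have hint : ((1 : ℤ) : ℝ) ≤ |((z : ℤ) - (z0 : ℤ) : ℤ)| := by
          have : (1 : ℤ) ≤ |(z : ℤ) - (z0 : ℤ)| := by
            apply Int.one_le_abs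
            omega
          exact_mod_cast this
        push_cast at hint
        exact hint
      simp only [hFZ]
      rw [sameTerm_eq, hpre, hpre]
      have hnn : 0 ≤ wgt g B Z0 (z / M) := wgt_nonneg _ _ _ _
      split_ifs with hex
      · have hw : wgt g B Z0 (z / M) ≤ τ := by
          rw [← hex]
          exact wgt_neighbour g B (z / M) hB
        calc wgt g B Z0 (z / M) / |(z : ℝ) - z0| ≤ wgt g B Z0 (z / M) := div_le_self hnn hdist
          _ ≤ τ := hw
      · have hmain := abs_sub_ge q z z0 hqpos (by rw [← hbitq]; exact hb1)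
          (by rw [← hbitq]; exact hbit) hne' hex
        have hZne : ((z / M : ℕ) : ℝ) - (Z0 : ℝ) ≠ 0 := by
          intro h
          apply hne'
          have : ((z / M : ℕ) : ℝ) = (Z0 : ℝ) := by linarith
          exact_mod_cast this
        have hZabs : 0 < |((z / M : ℕ) : ℝ) - (Z0 : ℝ)| := abs_pos.mpr hZne
        have hqR : (0 : ℝ) < q := by exact_mod_cast hqpos
        rw [div_div]
        apply div_le_div_of_nonneg_left hnn (by positivity)
        rw [mul_comm]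
        exact hmain
    · intro p _
      exact hFZ0 _
  refine hstep1.trans ?_
  rw [sum_product]
  have hin : ∀ Z ∈ range (2 ^ j), ∑ _r ∈ range M, FZ Z = (M : ℝ) * FZ Z := by
    intro Z _
    rw [sum_const, card_range, nsmul_eq_mul]
  rw [sum_congr rfl hin, ← mul_sum]
  have hsumF : ∑ Z ∈ range (2 ^ j), FZ Z ≤
      (2 * (1 / 2 : ℝ) ^ g + 2 * harm (2 ^ j) / B) / q + τ := by
    have hle : ∀ Z ∈ range (2 ^ j), FZ Z ≤
        (if Z ≠ Z0 then wgt g B Z0 Z / |(Z : ℝ) - Z0| / q else 0) + (if Z + 1 = Z0 then τ else 0) := by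
      intro Z _
      simp only [hFZ]
      by_cases h1 : Z + 1 = Z0
      · rw [if_pos h1, if_pos h1]
        have : 0 ≤ (if Z ≠ Z0 then wgt g B Z0 Z / |(Z : ℝ) - Z0| / q else 0) := by
          split_ifs
          · exact div_nonneg (div_nonneg (wgt_nonneg _ _ _ _) (abs_nonneg _)) (by positivity)
          · exact le_refl _
        linarith
      · rw [if_neg h1, if_neg h1, add_zero]
        by_cases h2 : Z = Z0
        · rw [h2]
          simp
        · rw [if_pos h2]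
    refine (sum_le_sum hle).trans ?_
    rw [sum_add_distrib]
    apply add_le_add
    · rw [← sum_filter, ← sum_div]
      have hw := window g B (2 ^ j) Z0 hg (show 1 ≤ B from le_trans (by norm_num) hB) hZ0lt
      apply div_le_div_of_nonneg_right hw (by positivity)
    · by_cases h0 : Z0 = 0
      · rw [h0]
        simp [hτ0]
      · have hrw : ∀ Z ∈ range (2 ^ j), (if Z + 1 = Z0 then τ else 0) = (if Z = Z0 - 1 then τ else 0) := by
          intro Z _
          have : (Z + 1 = Z0) ↔ (Z = Z0 - 1) := succ_eq_iff Z Z0 h0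
          simp only [this]
        rw [sum_congr rfl hrw, sum_ite_eq']
        split_ifs
        · exact le_refl _
        · exact hτ0
  have hMR : (M : ℝ) = (q : ℝ) * 2 := by
    rw [hMdef]
    push_cast
    ring
  have hM2 : (2 : ℝ) ^ (K - j) = (M : ℝ) := by
    exact_mod_cast hM
  have hqR : (0 : ℝ) < q := by exact_mod_cast hqpos
  have hMnn : (0 : ℝ) ≤ M := by positivity
  calc (M : ℝ) * ∑ Z ∈ range (2 ^ j), FZ Z
      ≤ (M : ℝ) * ((2 * (1 / 2 : ℝ) ^ g + 2 * harm (2 ^ j) / B) / q + τ) :=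
        mul_le_mul_of_nonneg_left hsumF hMnn
    _ = _ := by
        rw [hM2, hMR]
        field_simp

theorem sum_add_one_range (K : ℕ) : ∑ j ∈ range K, ((j : ℝ) + 1) = (K : ℝ) * ((K : ℝ) + 1) / 2 := by
  induction K with
  | zero => simp
  | succ K ih =>
    rw [sum_range_succ, ih]
    push_cast
    ring

theorem sum_two_pow_sub_le (K : ℕ) : ∑ j ∈ range K, (2 : ℝ) ^ (K - j) ≤ 2 * (2 : ℝ) ^ K := by
  have hterm : ∀ j ∈ range K, (2 : ℝ) ^ (K - j) = (2 : ℝ) ^ K * (1 / 2 : ℝ) ^ j := by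
    intro j hj
    rw [mem_range] at hj
    have h : K = (K - j) + j := by omega
    conv_rhs => rw [h, pow_add]
    have e : K - j + j - j = K - j := by omega
    rw [mul_assoc, ← mul_pow]
    norm_num
  rw [sum_congr rfl hterm, ← mul_sum]
  have h2 := sum_geometric_two_le K
  have hp : (0 : ℝ) ≤ (2 : ℝ) ^ K := by positivity
  nlinarith

/-- The weighted bound for the error phases, uniform in z0. -/
theorem weighted_rest_le (K g B z0 : ℕ) (hg : 1 ≤ g) (hB : 2 ≤ B) (hz0 : z0 < 2 ^ K) :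
    ∑ z ∈ (range (2 ^ K)).erase z0, rest K g B z z0 / |(z : ℝ) - z0| ≤
      (2 * (K : ℝ) ^ 2 + 4 * K) / B + 4 * K * (1 / 2 : ℝ) ^ g +
        2 ^ K * (1 / 2 : ℝ) ^ (g * (B - 1)) +
          2 * ((K : ℝ) + 1) * ((K : ℝ) ^ 2 * (1 / 2 : ℝ) ^ (g * B + 1)) := by
  classical
  set E := (range (2 ^ K)).erase z0 with hE
  have hBpos : (0 : ℝ) < B := by
    have : 0 < B := by omega
    exact_mod_cast this
  -- cross terms
  set c : ℝ := (K : ℝ) ^ 2 * (1 / 2 : ℝ) ^ (g * B + 1) with hc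
  have hc0 : 0 ≤ c := by positivity
  have hcross : ∑ z ∈ E, crossTerm K g B z z0 / |(z : ℝ) - z0| ≤ 2 * ((K : ℝ) + 1) * c := by
    have h1 : ∀ z ∈ E, crossTerm K g B z z0 / |(z : ℝ) - z0| ≤ c * (1 / |(z : ℝ) - z0|) := by
      intro z hz
      rw [hE, mem_erase, mem_range] at hz
      rw [mul_one_div]
      exact div_le_div_of_nonneg_right
        (crossTerm_le K g B z z0 hg hz.2 hz0 (by omega)) (abs_nonneg _)
    refine (sum_le_sum h1).trans ?_
    rw [← mul_sum]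
    have h2 := sum_inv_dist_le (2 ^ K) z0 hz0
    have h3 := harm_two_pow K
    calc c * ∑ z ∈ E, (1 / |(z : ℝ) - z0|) ≤ c * (2 * ((K : ℝ) + 1)) := by
          apply mul_le_mul_of_nonneg_left _ hc0
          linarith
      _ = _ := by ring
  -- the levels
  set τ : ℝ := (1 / 2 : ℝ) ^ (g * (B - 1) + 1) with hτ
  set Lev : ℕ → ℝ := fun j =>
    2 * (2 * (1 / 2 : ℝ) ^ g + 2 * harm (2 ^ j) / B) + (2 : ℝ) ^ (K - j) * τ with hLev
  have hLev0 : ∀ j, 0 ≤ Lev j := by
    intro j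
    simp only [hLev]
    have := harm_nonneg (2 ^ j)
    positivity
  have hlevels : ∑ z ∈ E, (∑ j ∈ (range K).filter
      (fun j => bit K j z = 1 ∧ bit K j z0 = 0 ∧ pre K j z ≠ pre K j z0), sameTerm K g B j z z0)
        / |(z : ℝ) - z0| ≤ ∑ j ∈ range K, Lev j := by
    have h1 : ∀ z ∈ E, (∑ j ∈ (range K).filter
        (fun j => bit K j z = 1 ∧ bit K j z0 = 0 ∧ pre K j z ≠ pre K j z0), sameTerm K g B j z z0)
          / |(z : ℝ) - z0| = ∑ j ∈ range K,
          (if bit K j z = 1 ∧ bit K j z0 = 0 ∧ pre K j z ≠ pre K j z0 then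
            sameTerm K g B j z z0 / |(z : ℝ) - z0| else 0) := by
      intro z _
      rw [sum_div, sum_filter]
    rw [sum_congr rfl h1, sum_comm]
    apply sum_le_sum
    intro j hj
    rw [mem_range] at hj
    by_cases hb : bit K j z0 = 0
    · have h2 : ∑ z ∈ E, (if bit K j z = 1 ∧ bit K j z0 = 0 ∧ pre K j z ≠ pre K j z0 then
            sameTerm K g B j z z0 / |(z : ℝ) - z0| else 0) =
          ∑ z ∈ E.filter (fun z => bit K j z = 1 ∧ pre K j z ≠ pre K j z0),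
            sameTerm K g B j z z0 / |(z : ℝ) - z0| := by
        rw [sum_filter]
        apply sum_congr rfl
        intro z _
        simp only [hb, true_and]
      rw [h2]
      exact level_bound K g B j z0 hg hB hj hz0 hb
    · have h2 : ∑ z ∈ E, (if bit K j z = 1 ∧ bit K j z0 = 0 ∧ pre K j z ≠ pre K j z0 then
            sameTerm K g B j z z0 / |(z : ℝ) - z0| else 0) = 0 := by
        apply sum_eq_zero
        intro z _
        simp [hb]
      rw [h2]
      exact hLev0 j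
  have hsum : ∑ j ∈ range K, Lev j ≤
      (2 * (K : ℝ) ^ 2 + 4 * K) / B + 4 * K * (1 / 2 : ℝ) ^ g + 2 ^ K * (1 / 2 : ℝ) ^ (g * (B - 1)) := by
    have h1 : ∀ j ∈ range K, Lev j ≤
        4 * (1 / 2 : ℝ) ^ g + (4 / (B : ℝ)) * ((j : ℝ) + 1) + τ * (2 : ℝ) ^ (K - j) := by
      intro j _
      simp only [hLev]
      have h3 := harm_two_pow j
      have h4 : 2 * (2 * harm (2 ^ j) / (B : ℝ)) ≤ (4 / (B : ℝ)) * ((j : ℝ) + 1) := by
        have : 2 * (2 * harm (2 ^ j) / (B : ℝ)) = (4 / (B : ℝ)) * harm (2 ^ j) := by ring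
        rw [this]
        exact mul_le_mul_of_nonneg_left h3 (by positivity)
      have h5 : (2 : ℝ) ^ (K - j) * τ = τ * (2 : ℝ) ^ (K - j) := mul_comm _ _
      rw [h5]
      have h6 : 2 * (2 * (1 / 2 : ℝ) ^ g + 2 * harm (2 ^ j) / (B : ℝ)) =
        4 * (1 / 2 : ℝ) ^ g + 2 * (2 * harm (2 ^ j) / (B : ℝ)) := by ring
      rw [h6]
      linarith
    refine (sum_le_sum h1).trans ?_
    rw [sum_add_distrib, sum_add_distrib, sum_const, card_range, nsmul_eq_mul, ← mul_sum, ← mul_sum,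
      sum_add_one_range]
    have h7 := sum_two_pow_sub_le K
    have hτ0 : 0 ≤ τ := by positivity
    have h8 : τ * ∑ j ∈ range K, (2 : ℝ) ^ (K - j) ≤ 2 ^ K * (1 / 2 : ℝ) ^ (g * (B - 1)) := by
      calc τ * ∑ j ∈ range K, (2 : ℝ) ^ (K - j) ≤ τ * (2 * (2 : ℝ) ^ K) :=
            mul_le_mul_of_nonneg_left h7 hτ0
        _ = _ := by
            rw [hτ, pow_succ]
            ring
    have h9 : (K : ℝ) * (4 * (1 / 2 : ℝ) ^ g) = 4 * K * (1 / 2 : ℝ) ^ g := by ring
    have h10 : 4 / (B : ℝ) * ((K : ℝ) * ((K : ℝ) + 1) / 2) ≤ (2 * (K : ℝ) ^ 2 + 4 * K) / B := by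
      have : 4 / (B : ℝ) * ((K : ℝ) * ((K : ℝ) + 1) / 2) = (2 * (K : ℝ) ^ 2 + 2 * K) / B := by
        ring
      rw [this]
      apply div_le_div_of_nonneg_right _ hBpos.le
      have : (0 : ℝ) ≤ K := by positivity
      linarith
    rw [h9]
    linarith
  have hsplit : ∀ z ∈ E, rest K g B z z0 / |(z : ℝ) - z0| =
      (∑ j ∈ (range K).filter
        (fun j => bit K j z = 1 ∧ bit K j z0 = 0 ∧ pre K j z ≠ pre K j z0), sameTerm K g B j z z0)
          / |(z : ℝ) - z0| + crossTerm K g B z z0 / |(z : ℝ) - z0| := by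
    intro z _
    unfold rest
    rw [add_div]
  rw [sum_congr rfl hsplit, sum_add_distrib]
  linarith

/-- The specialised bound with g = 15 and B = 40000 K. -/
theorem weighted_rest_le_spec (K z0 : ℕ) (hK : 100 ≤ K) (hz0 : z0 < 2 ^ K) :
    ∑ z ∈ (range (2 ^ K)).erase z0, rest K 15 (40000 * K) z z0 / |(z : ℝ) - z0| ≤ (K : ℝ) / 1700 := by
  have hmain := weighted_rest_le K 15 (40000 * K) z0 (by norm_num) (by omega) hz0
  refine hmain.trans ?_
  have hKR : (100 : ℝ) ≤ K := by exact_mod_cast hK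
  have hK0 : (0 : ℝ) < K := by linarith
  -- first term
  have h1 : (2 * (K : ℝ) ^ 2 + 4 * K) / ((40000 * K : ℕ) : ℝ) = (K : ℝ) / 20000 + 1 / 10000 := by
    push_cast
    field_simp
    ring
  -- powers of two dominate
  have hpow : (K : ℝ) + 1 ≤ (2 : ℝ) ^ K := by
    have : K + 1 ≤ 2 ^ K := Nat.lt_two_pow_self
    exact_mod_cast this
  have hp0 : (0 : ℝ) < (2 : ℝ) ^ K := by positivity
  have hinv : (2 : ℝ) ^ K * (1 / 2 : ℝ) ^ K = 1 := by
    rw [← mul_pow]
    norm_num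
  -- third term
  have h3 : (2 : ℝ) ^ K * (1 / 2 : ℝ) ^ (15 * (40000 * K - 1)) ≤ 1 / 1024 := by
    have hE : K + 10 ≤ 15 * (40000 * K - 1) := by omega
    have h4 : (1 / 2 : ℝ) ^ (15 * (40000 * K - 1)) ≤ (1 / 2 : ℝ) ^ (K + 10) :=
      pow_le_pow_of_le_one (by norm_num) (by norm_num) hE
    calc (2 : ℝ) ^ K * (1 / 2 : ℝ) ^ (15 * (40000 * K - 1))
        ≤ (2 : ℝ) ^ K * (1 / 2 : ℝ) ^ (K + 10) := mul_le_mul_of_nonneg_left h4 hp0.le
      _ = ((2 : ℝ) ^ K * (1 / 2 : ℝ) ^ K) * (1 / 2 : ℝ) ^ 10 := by rw [pow_add]; ring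
      _ = 1 / 1024 := by rw [hinv]; norm_num
  -- fourth term
  have h5 : 2 * ((K : ℝ) + 1) * ((K : ℝ) ^ 2 * (1 / 2 : ℝ) ^ (15 * (40000 * K) + 1)) ≤ 1 / 512 := by
    have hE : 3 * K + 10 ≤ 15 * (40000 * K) + 1 := by omega
    have h4 : (1 / 2 : ℝ) ^ (15 * (40000 * K) + 1) ≤ (1 / 2 : ℝ) ^ (3 * K + 10) :=
      pow_le_pow_of_le_one (by norm_num) (by norm_num) hE
    have h6 : (K : ℝ) ≤ (2 : ℝ) ^ K := by linarith
    have h7 : (K : ℝ) ^ 2 ≤ ((2 : ℝ) ^ K) ^ 2 := by
      apply pow_le_pow_left₀ hK0.le h6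
    have h8 : ((K : ℝ) + 1) * (K : ℝ) ^ 2 ≤ (2 : ℝ) ^ K * ((2 : ℝ) ^ K) ^ 2 := by
      apply mul_le_mul hpow h7 (by positivity) (by positivity)
    have h9 : (1 / 2 : ℝ) ^ (3 * K + 10) * ((2 : ℝ) ^ K * ((2 : ℝ) ^ K) ^ 2) = 1 / 1024 := by
      have e1 : (1 / 2 : ℝ) ^ (3 * K + 10) =
          ((1 / 2 : ℝ) ^ K) * (((1 / 2 : ℝ) ^ K) ^ 2) * (1 / 2 : ℝ) ^ 10 := by
        rw [pow_add, ← pow_mul]
        ring
      rw [e1]
      calc (1 / 2 : ℝ) ^ K * ((1 / 2 : ℝ) ^ K) ^ 2 * (1 / 2 : ℝ) ^ 10 * ((2 : ℝ) ^ K * ((2 : ℝ) ^ K) ^ 2)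
          = ((2 : ℝ) ^ K * (1 / 2 : ℝ) ^ K) ^ 3 * (1 / 2 : ℝ) ^ 10 := by ring
        _ = 1 / 1024 := by rw [hinv]; norm_num
    calc 2 * ((K : ℝ) + 1) * ((K : ℝ) ^ 2 * (1 / 2 : ℝ) ^ (15 * (40000 * K) + 1))
        = 2 * (((K : ℝ) + 1) * (K : ℝ) ^ 2) * (1 / 2 : ℝ) ^ (15 * (40000 * K) + 1) := by ring
      _ ≤ 2 * ((2 : ℝ) ^ K * ((2 : ℝ) ^ K) ^ 2) * (1 / 2 : ℝ) ^ (3 * K + 10) := by
          apply mul_le_mul _ h4 (by positivity) (by positivity)
          linarith
      _ = 2 * ((1 / 2 : ℝ) ^ (3 * K + 10) * ((2 : ℝ) ^ K * ((2 : ℝ) ^ K) ^ 2)) := by ring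
      _ = 1 / 512 := by rw [h9]; norm_num
  rw [h1]
  have h2 : 4 * (K : ℝ) * (1 / 2 : ℝ) ^ 15 = (K : ℝ) / 8192 := by
    norm_num
    ring
  rw [h2]
  linarith

end Vale.Agent.Lib.P091
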